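import Vale.Agent.P224.R2.H494.OC4

/-!
The scalar conditions of the odd dimension for the flow: comparison with the weights of the even law.
-/

namespace Vale.Agent.P224.R2.H494.OC

open MeasureTheory Set Filter Function Real Vale.Agent.P224.SM2 Vale.Agent.P224.R2.H925
  Vale.Agent.P224.R2.H627 Vale.Agent.P224.R2.H820 Vale.Agent.P224.R2.H424
  Vale.Agent.P224.R2.H494.ZT Vale.Agent.P224.R2.H355 Vale.Agent.P224.R2.H742
open scoped Topology

/-- `m` times the additional weight -/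
noncomputable def xiX (m T : ℝ) : ℝ :=
  12 / m ^ 2 + T * (1 - T) * ((21 / 4 + 21 / m) - (33 / 4 + 34 / m) * T)

/-- the additional weight -/
noncomputable def xiO (m T : ℝ) : ℝ := 1 / m * xiX m T

section

variable {m : ℕ} (hm : 17 ≤ m) {L : ℝ} (hL : L * ((m : ℝ) ^ 2 - 1) = 4)
  (s : ZSol ((m : ℝ) / 2) L) {d : ℝ} (hd : 0 ≤ d) (hd2 : d ^ 2 = L)
  {T : ℝ} (hT : T ∈ Ioo (0 : ℝ) 1)

include hm hT

lemma sv_le (hT2 : T ≤ 1 / 2) : sv T ≤ 16 / 25 := by
  have h0 := hT.1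
  rw [← pow_le_pow_iff_left₀ (sv_pos hT).le (by norm_num) two_ne_zero, sv_sq]
  have h1 : 1 - hv T = 2 * T ^ 2 / (1 + T ^ 2) := by
    unfold hv
    have : (1 : ℝ) + T ^ 2 ≠ 0 := by positivity
    field_simp
    ring
  rw [h1, div_le_iff₀ (by positivity)]
  nlinarith

/-- the first coefficient of the even law in normal form -/
lemma al_nf {lam l : ℝ} (hl : l = (1 - T ^ 2) * lam) :
    K0 ((m : ℝ) / 2) (cn m) * H582.al m T (yM m T) (rM m T) lam
      = m * ((1 - T ^ 2) ^ ((m : ℝ) / 2 - 1) / om m)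
        * (sv T * Wf ((m : ℝ) / 2) (cn m) T + √2 * Rf ((m : ℝ) / 2) (cn m) T
          - l * ((1 + 2 / m / 2) * (1 + 2 / m)) * (sv T ^ 2 / (2 * (1 - sv T ^ 2)))
            * (√2 * Rf ((m : ℝ) / 2) (cn m) T)) := by
  have hmR : (17 : ℝ) ≤ m := by exact_mod_cast hm
  have hk : 0 < 1 - T ^ 2 := by nlinarith [hT.1, hT.2]
  have h1 := K0_rM hm hT
  have h2 := K0_yM hm hT
  have hs0 := sv_pos hT
  have hs1 := sv_lt_one hT
  have h3 : 0 < 1 - sv T ^ 2 := by nlinarith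
  have hZ : T ^ 2 / (1 - T ^ 2) = sv T ^ 2 / (2 * (1 - sv T ^ 2)) := by
    rw [div_eq_div_iff hk.ne' (by positivity)]
    nlinarith [sv_T T]
  rw [← hZ, hl]
  have e : K0 ((m : ℝ) / 2) (cn m) * H582.al m T (yM m T) (rM m T) lam
      = m * (K0 ((m : ℝ) / 2) (cn m) * (T * yM m T)
        + K0 ((m : ℝ) / 2) (cn m) * (m * rM m T))
        - (m + 1) * (m + 2) / m * T ^ 2 * lam * (K0 ((m : ℝ) / 2) (cn m) * (m * rM m T)) := by
    unfold H582.al
    field_simp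
  rw [e, h1, h2]
  field_simp

/-- the second coefficient of the even law in normal form -/
lemma be_nf :
    ((m : ℝ) + 3) * (K0 ((m : ℝ) / 2) (cn m) * (H582.be m (31 / 10) T (eM m T) (rM m T)
      + xiO m T * PMo m T))
      = (m + 1) * (1 - T) * (m * ((1 - T ^ 2) ^ ((m : ℝ) / 2 - 1) / om m))
        * ((1 + 3 * (2 / m) / 2) * (T * (2 * (√2 * Rf ((m : ℝ) / 2) (cn m) T)
            - cT T (sv T) (2 / m) (Ef ((m : ℝ) / 2) (cn m) T)))
          + (1 + 3 * (2 / m) / 2) * ((2 / m) / (2 + 2 / m)) * (xiX m T / (1 - T))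
            * (sv T * Wf ((m : ℝ) / 2) (cn m) T + √2 * Rf ((m : ℝ) / 2) (cn m) T)) := by
  have hmR : (17 : ℝ) ≤ m := by exact_mod_cast hm
  have hk : 0 < 1 - T := by linarith [hT.2]
  have h1 := K0_rM hm hT
  have h2 := K0_yM hm hT
  have h3 := K0_eM hm hT
  have e : ((m : ℝ) + 3) * (K0 ((m : ℝ) / 2) (cn m) * (H582.be m (31 / 10) T (eM m T) (rM m T)
      + xiO m T * PMo m T))
      = (m + 3) * ((m + 1) * T * (2 * (1 - T) * (K0 ((m : ℝ) / 2) (cn m) * (m * rM m T))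
        - (1 - 31 / 10 * T ^ 4) * (K0 ((m : ℝ) / 2) (cn m) * (m * eM m T)))
        + xiX m T * (K0 ((m : ℝ) / 2) (cn m) * (T * yM m T)
          + K0 ((m : ℝ) / 2) (cn m) * (m * rM m T))) := by
    unfold H582.be xiO PMo
    field_simp
    ring
  rw [e, h1, h2, h3]
  unfold cT
  generalize xiX m T = X
  field_simp
  ring

include hL hd hd2

/-- **the conditions below the node** -/
theorem oddAt_Z (hT2 : T ≤ 1 / 2) {lam l' : ℝ → ℝ} (hlm : 0 ≤ lam T)
    (hlm' : (1 - T ^ 2) * lam T ≤ 17)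
    (hl' : l' T = (1 - T ^ 2) * lam T * (1 - 9 / (5 * m)) / (1 + 7 / (5 * m))) :
    OddAt m d (K0 ((m : ℝ) / 2) (cn m)) (9 / (5 * m)) (31 / 10) (7 / (5 * m)) (xiO m) lam l'
      (uZ s) T := by
  have hmR : (17 : ℝ) ≤ m := by exact_mod_cast hm
  have hk : 0 < 1 - T ^ 2 := by nlinarith [hT.1, hT.2]
  have hk1 : 0 < 1 - T := by linarith [hT.2]
  have hT0 := hT.1
  have hp := par_of hm hL
  have hn := nrm_cn (m := m) (by omega)
  have ho := om_pos hm
  have hKp : 0 < K0 ((m : ℝ) / 2) (cn m) := K0_pos (hn.pos' hp.ha) (by linarith)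
  have hb := obd_Z hm hL s hT
  have ha := aux_Z hm hL hd hd2 hT
  have hnf := nf_Z hm hL s hT
  have hbm := bds2_M hm hT
  have hcl := cls_Z hm hL s hT
  have hs := sv_le hm hT hT2
  have hs0 := sv_pos hT
  have hs1 := sv_lt_one hT
  have h3 : 0 < 1 - sv T ^ 2 := by nlinarith
  have hKn : 0 ≤ (1 - T ^ 2) ^ ((m : ℝ) / 2 - 1) / om m := by positivity
  have hth : (9 : ℝ) / (5 * m) = 9 / 10 * (2 / m) := by ring
  have hg1 : (7 : ℝ) / (5 * m) = 7 / 10 * (2 / m) := by ring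
  have ht1 : (2 : ℝ) / m ≤ 2 / 17 := by gcongr
  have ht0 : (0 : ℝ) ≤ 2 / m := by positivity
  have hθ : 0 ≤ 1 - (9 : ℝ) / (5 * m) := by
    rw [hth]
    linarith
  have hX : xiX m T = 3 * (2 / m) ^ 2 + T * (1 - T) * (zA (2 / m) - zB (2 / m) * T) := by
    unfold xiX zA zB
    field_simp
    ring
  have hz : 0 ≤ zA (2 / (m : ℝ)) - zB (2 / m) * T := by
    unfold zA zB
    nlinarith
  have hX0 : 0 ≤ xiX m T := by
    rw [hX]
    positivity
  have hY1 : 3 * (2 / (m : ℝ)) ^ 2 + T * (zA (2 / m) - zB (2 / m) * T) ≤ xiX m T / (1 - T) := by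
    rw [le_div_iff₀ hk1, hX]
    have : 0 ≤ T * (3 * (2 / (m : ℝ)) ^ 2) := by positivity
    linarith
  have hY2 : xiX m T / (1 - T) ≤ 6 * (2 / (m : ℝ)) ^ 2 + T * (zA (2 / m) - zB (2 / m) * T) := by
    rw [div_le_iff₀ hk1, hX]
    have : 0 ≤ (1 - 2 * T) * (3 * (2 / (m : ℝ)) ^ 2) := mul_nonneg (by linarith) (by positivity)
    linarith
  have l0 : 0 ≤ l' T := by
    rw [hl']
    positivity
  have h0 : 0 ≤ H582.al m T (yM m T) (rM m T) (lam T) := by
    have h := alpha_nonneg2 hm hT (l := (1 - T ^ 2) * lam T) (Or.inl (Or.inl (by linarith)))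
    refine h.trans (le_of_eq ?_)
    unfold H582.al
    field_simp
  have hal := al_nf hm hT (lam := lam T) (l := (1 - T ^ 2) * lam T) rfl
  have hbe := be_nf hm hT
  have kA := nA hb ha hbm hcl hs
  have kG := nG hb ha hbm hcl
  have kB := nB hb ha hbm hcl hs hT2 hY1
  have kH := nH hbm hs hT2 hY2
  have kg := aO_ge (l := l' T) hm hT hb ha hnf
  have kb := bO_le hm hT hb ha hnf le_rfl
  have ke := bX_eq hm hT hb ha hnf
  have hm3 : (0 : ℝ) < m + 3 := by linarith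
  refine ⟨hlm, l0, ?_, ho_Z hm hL s hd hd2 hT, ?_, ?_, hg_Z hm hL s hd hd2 hT, h0, ?_⟩
  · unfold xiO
    positivity
  · -- the first coefficient
    refine le_trans ?_ kg
    have e : K0 ((m : ℝ) / 2) (cn m) * (1 - 9 / (5 * m)) * H582.al m T (yM m T) (rM m T) (lam T)
        = (1 - 9 / (5 * m)) * (K0 ((m : ℝ) / 2) (cn m)
          * H582.al m T (yM m T) (rM m T) (lam T)) := by ring
    rw [e, hal]
    set Kn := (1 - T ^ 2) ^ ((m : ℝ) / 2 - 1) / om m with hKn'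
    set Wm := Wf ((m : ℝ) / 2) (cn m) T with hWm
    set ρm := √2 * Rf ((m : ℝ) / 2) (cn m) T with hρm
    set ρ := om m * (m * JE s T) with hρ
    set W := om m * (hsol (par_of hm hL).a0 s).W (hv T) with hW
    set xb := xB (2 / (m : ℝ)) d (1 / √(2 * hv T)) (nP hm hL s T) with hxb
    set xa := xA (sv T) (2 / m) d (1 / √(2 * hv T)) (nP hm hL s T) (nQ hm hL s T) with hxa
    set g := ((1 + 2 / (m : ℝ) / 2) * (1 + 2 / m)) * (sv T ^ 2 / (2 * (1 - sv T ^ 2))) with hg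
    have hg0 : 0 ≤ g := by positivity
    have e2 : (1 - 9 / (5 * (m : ℝ))) * (m * Kn * (sv T * Wm + ρm - (1 - T ^ 2) * lam T
        * ((1 + 2 / (m : ℝ) / 2) * (1 + 2 / m)) * (sv T ^ 2 / (2 * (1 - sv T ^ 2))) * ρm))
        = m * Kn * ((1 - 9 / 10 * (2 / m)) * (sv T * Wm + ρm)
          - g * ((1 - T ^ 2) * lam T * (1 - 9 / (5 * m)) * ρm)) := by
      rw [hg, ← hth]
      ring
    have e3 : sv T * W + ρ - xa - l' T * ((1 + 2 / (m : ℝ) / 2) * (1 + 2 / m))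
        * (sv T ^ 2 / (2 * (1 - sv T ^ 2))) * (ρ + xb)
        = sv T * W + ρ - xa - g * (l' T * (ρ + xb)) := by
      rw [hg]
      ring
    rw [e2, e3]
    have k1 : l' T * (ρ + xb) ≤ (1 - T ^ 2) * lam T * (1 - 9 / (5 * m)) * ρm := by
      have k2 := mul_le_mul_of_nonneg_left kG l0
      refine k2.trans (le_of_eq ?_)
      rw [hl', ← hg1]
      have : (1 : ℝ) + 7 / (5 * m) ≠ 0 := by positivity
      rw [← mul_assoc, div_mul_cancel₀ _ this]
    have k3 := mul_le_mul_of_nonneg_left k1 hg0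
    refine mul_le_mul_of_nonneg_left ?_ (by positivity)
    linarith
  · -- the second coefficient
    refine kb.trans (le_of_mul_le_mul_left ?_ hm3)
    rw [ke]
    have e : ((m : ℝ) + 3) * (K0 ((m : ℝ) / 2) (cn m) * (1 - 9 / (5 * m))
        * (H582.be m (31 / 10) T (eM m T) (rM m T) + xiO m T * PMo m T))
        = (1 - 9 / (5 * m)) * ((m + 3) * (K0 ((m : ℝ) / 2) (cn m)
          * (H582.be m (31 / 10) T (eM m T) (rM m T) + xiO m T * PMo m T))) := by ring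
    rw [e, hbe, hth]
    have k1 := mul_le_mul_of_nonneg_left kB (show 0 ≤ ((m : ℝ) + 1) * (1 - T)
      * (m * ((1 - T ^ 2) ^ ((m : ℝ) / 2 - 1) / om m)) by positivity)
    unfold cT at k1 ⊢
    refine (le_of_eq ?_).trans (k1.trans (le_of_eq ?_)) <;> ring
  · -- convexity
    refine le_of_mul_le_mul_left ?_ hKp
    have e1 : K0 ((m : ℝ) / 2) (cn m) * (((m : ℝ) + 3)
        * (H582.be m (31 / 10) T (eM m T) (rM m T) + xiO m T * PMo m T))
        = (m + 3) * (K0 ((m : ℝ) / 2) (cn m)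
          * (H582.be m (31 / 10) T (eM m T) (rM m T) + xiO m T * PMo m T)) := by ring
    have e2 : K0 ((m : ℝ) / 2) (cn m) * (((m : ℝ) + 1) * H582.al m T (yM m T) (rM m T) (lam T)
        * (1 - T)) = (m + 1) * (1 - T) * (K0 ((m : ℝ) / 2) (cn m)
          * H582.al m T (yM m T) (rM m T) (lam T)) := by ring
    rw [e1, e2, hbe, hal]
    have k2 : (1 - T ^ 2) * lam T * ((1 + 2 / (m : ℝ) / 2) * (1 + 2 / m))
        * (sv T ^ 2 / (2 * (1 - sv T ^ 2))) * (√2 * Rf ((m : ℝ) / 2) (cn m) T)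
        ≤ 17 * ((1 + 2 / (m : ℝ) / 2) * (1 + 2 / m))
        * (sv T ^ 2 / (2 * (1 - sv T ^ 2))) * (√2 * Rf ((m : ℝ) / 2) (cn m) T) := by
      have := hbm.R0
      gcongr
    have k1 := mul_le_mul_of_nonneg_left (kH.trans (sub_le_sub_left k2 _))
      (show 0 ≤ ((m : ℝ) + 1) * (1 - T)
      * (m * ((1 - T ^ 2) ^ ((m : ℝ) / 2 - 1) / om m)) by positivity)
    refine k1.trans (le_of_eq ?_)
    ring

end

end Vale.Agent.P224.R2.H494.OC
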