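import Vale.Agent.P224.R2.H494.OC1
import Vale.Agent.P224.R2.H494.OAG
import Vale.Agent.P224.R2.H494.OABloU
import Vale.Agent.P224.R2.H494.OABhiU
import Vale.Agent.P224.R2.H494.OABloL
import Vale.Agent.P224.R2.H494.OABhiL
import Vale.Agent.P224.R2.H494.OAHloU
import Vale.Agent.P224.R2.H494.OAHhiU
import Vale.Agent.P224.R2.H494.OAHloL
import Vale.Agent.P224.R2.H494.OAHhiL

/-!
Comparison of the weights of the odd dimension with the weights of the even law, in normal form.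
-/

namespace Vale.Agent.P224.R2.H494.OC

open Vale.Agent.P224.R2.H627

/-- closeness of the flow to the weights of the even law -/
structure Cls (t W E ρ Wm Em ρm : ℝ) : Prop where
  W : Wm ≤ W
  E : (1 - 2 * t ^ 3) * Em ≤ E
  ρl : (1 - 2 * t ^ 3) * ρm ≤ ρ
  ρu : ρ ≤ (1 + 11 / 5 * t ^ 3) * ρm

section

variable {T s t W E ρ P Q D d v G Wm Em ρm Y : ℝ}

lemma t3_le (t0 : 0 ≤ t) (t1 : t ≤ 2 / 17) : t ^ 3 ≤ 4 / 289 * t := by
  have : t ^ 2 ≤ (2 / 17) ^ 2 := pow_le_pow_left₀ t0 t1 2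
  calc t ^ 3 = t * t ^ 2 := by ring
    _ ≤ t * (2 / 17) ^ 2 := mul_le_mul_of_nonneg_left this t0
    _ = _ := by ring

variable (hb : OBd T s t W E ρ P Q D) (ha : Aux T s t d v G) (hm : Bds2 T s t Wm Em ρm)
  (hc : Cls t W E ρ Wm Em ρm)

include hb ha hm hc

theorem nG : ρ + xB t d v P ≤ (1 + 7 / 10 * t) * ρm := by
  have k1 := xB_le hb ha
  have t0 := hm.t0
  have t3 := t3_le hm.t0 hm.t1
  have k2 := qG_pos hm.s0.le hm.s1.le hm.t0 hm.t1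
  unfold qG at k2
  have k3 := mul_nonneg (sq_nonneg (1 - s)) k2
  have k4 := mul_le_mul_of_nonneg_left hm.Rl (show 0 ≤ 7 / 10 * t - 11 / 5 * t ^ 3 by linarith)
  have k5 := hc.ρu
  have e : (1 - s ^ 2) ^ 2 * XBr s t = (1 - s) ^ 2 * ((1 + s) ^ 2 * XBr s t) := by ring
  rw [e] at k1
  linarith

theorem nA (hs : s ≤ 16 / 25) :
    (1 - 9 / 10 * t) * (s * Wm + ρm) ≤ s * W + ρ - xA s t d v P Q := by
  have k1 := xA_le hb ha
  have t0 := hm.t0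
  have t3 := t3_le hm.t0 hm.t1
  have s0 := hm.s0
  have k2 := qA_pos hm.s0.le hs hm.t0 hm.t1
  unfold qA at k2
  have k3 := mul_le_mul_of_nonneg_left hc.W hm.s0.le
  have k4 := mul_le_mul_of_nonneg_left hm.Wl (show 0 ≤ 9 / 10 * t * s by positivity)
  have k5 := mul_le_mul_of_nonneg_left hm.Rl (show 0 ≤ 9 / 10 * t - 2 * t ^ 3 by linarith)
  have k6 := hc.ρl
  linarith

omit hb ha hm hc in
lemma Tlo_le (hT0 : 0 < T) (hTs : T ^ 2 * (2 - s ^ 2) = s ^ 2) (s0 : 0 < s) (s1 : s < 1) :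
    Tlo s ≤ T := by
  have h2 : s ^ 2 < 1 := pow_lt_one₀ s0.le s1 two_ne_zero
  have h0 : 0 ≤ Tlo s := by
    unfold Tlo
    positivity
  rw [← pow_le_pow_iff_left₀ h0 hT0.le two_ne_zero]
  have h3 : 0 < 2 - s ^ 2 := by linarith
  refine le_of_mul_le_mul_right ?_ h3
  rw [hTs]
  have e : s ^ 2 - Tlo s ^ 2 * (2 - s ^ 2) = s ^ 2 * (959 / 50000000
      + (49999041 / 100000000 - 4 * (7071 / 10000) * (1767 / 10000)) * s ^ 2
      + (2 * (7071 / 10000) * (1767 / 10000) - 2 * (1767 / 10000) ^ 2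
        - 4 * (7071 / 10000) * (66 / 1000)) * (s ^ 2) ^ 2
      + ((1767 / 10000) ^ 2 + 2 * (7071 / 10000) * (66 / 1000)
        - 4 * (1767 / 10000) * (66 / 1000)) * (s ^ 2) ^ 3
      + (2 * (1767 / 10000) * (66 / 1000) - 2 * (66 / 1000) ^ 2) * (s ^ 2) ^ 4
      + (66 / 1000) ^ 2 * (s ^ 2) ^ 5) := by
    unfold Tlo
    ring
  have h4 : 0 ≤ s ^ 2 * (959 / 50000000
      + (49999041 / 100000000 - 4 * (7071 / 10000) * (1767 / 10000)) * s ^ 2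
      + (2 * (7071 / 10000) * (1767 / 10000) - 2 * (1767 / 10000) ^ 2
        - 4 * (7071 / 10000) * (66 / 1000)) * (s ^ 2) ^ 2
      + ((1767 / 10000) ^ 2 + 2 * (7071 / 10000) * (66 / 1000)
        - 4 * (1767 / 10000) * (66 / 1000)) * (s ^ 2) ^ 3
      + (2 * (1767 / 10000) * (66 / 1000) - 2 * (66 / 1000) ^ 2) * (s ^ 2) ^ 4
      + (66 / 1000) ^ 2 * (s ^ 2) ^ 5) := by
    norm_num
    positivity
  linarith

omit hb ha hm hc in
lemma le_Thi (hT0 : 0 < T) (hTs : T ^ 2 * (2 - s ^ 2) = s ^ 2) (s0 : 0 < s) (hs : s ≤ 16 / 25) :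
    T ≤ Thi s := by
  have h2 : s ^ 2 ≤ (16 / 25) ^ 2 := pow_le_pow_left₀ s0.le hs 2
  have h0 : 0 ≤ Thi s := by
    unfold Thi
    positivity
  rw [← pow_le_pow_iff_left₀ hT0.le h0 two_ne_zero]
  have h3 : 0 < 2 - s ^ 2 := by linarith
  refine le_of_mul_le_mul_right ?_ h3
  rw [hTs]
  have e : Thi s ^ 2 * (2 - s ^ 2) - s ^ 2 = s ^ 2 * ((2 * (70711 / 100000) ^ 2 - 1)
      + (4 * (70711 / 100000) * (21 / 100) - (70711 / 100000) ^ 2) * s ^ 2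
      + (2 * (21 / 100) ^ 2 - 2 * (70711 / 100000) * (21 / 100)) * (s ^ 2) ^ 2
      - (21 / 100) ^ 2 * (s ^ 2) ^ 3) := by
    unfold Thi
    ring
  have h4 : 0 ≤ s ^ 2 * ((2 * (70711 / 100000) ^ 2 - 1)
      + (4 * (70711 / 100000) * (21 / 100) - (70711 / 100000) ^ 2) * s ^ 2
      + (2 * (21 / 100) ^ 2 - 2 * (70711 / 100000) * (21 / 100)) * (s ^ 2) ^ 2
      - (21 / 100) ^ 2 * (s ^ 2) ^ 3) := by
    refine mul_nonneg (sq_nonneg s) ?_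
    have hx : 0 ≤ s ^ 2 := sq_nonneg s
    generalize s ^ 2 = x at h2 hx
    have h5 : 0 ≤ (4 * (70711 / 100000) * (21 / 100) - (70711 / 100000) ^ 2)
        + (2 * (21 / 100) ^ 2 - 2 * (70711 / 100000) * (21 / 100)) * x
        - (21 / 100) ^ 2 * x ^ 2 := by
      have : x ^ 2 ≤ (16 / 25) ^ 2 * x := by nlinarith
      norm_num at this h2 ⊢
      linarith
    have h6 := mul_nonneg hx h5
    norm_num at h6 ⊢
    linarith
  linarith

/-- coefficient of the second square -/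
noncomputable def cT (T s t E : ℝ) : ℝ :=
  (1 + T) * (s * (2 - s ^ 2) * E / 2) * (1 - 31 / 10 * T ^ 4)

omit hb ha hm hc in
lemma cT_eq (hTs : T ^ 2 * (2 - s ^ 2) = s ^ 2) (E : ℝ) :
    (2 - s ^ 2) ^ 2 * (T * cT T s t E) = (T * (2 - s ^ 2) + s ^ 2) * s
      * (((2 - s ^ 2) ^ 2 - 31 / 10 * s ^ 4) * E) / 2 := by
  have e4 : (2 - s ^ 2) ^ 2 * T ^ 4 = s ^ 4 := by
    have : (T ^ 2 * (2 - s ^ 2)) ^ 2 = (s ^ 2) ^ 2 := by rw [hTs]
    linear_combination this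
  have e1 : T * (1 + T) * (2 - s ^ 2) = T * (2 - s ^ 2) + s ^ 2 := by
    linear_combination hTs
  have e2 : (2 - s ^ 2) ^ 2 * (1 - 31 / 10 * T ^ 4) = (2 - s ^ 2) ^ 2 - 31 / 10 * s ^ 4 := by
    linear_combination -(31 / 10) * e4
  unfold cT
  rw [← e1, ← e2]
  ring

omit hb ha hc in
lemma cE_nonneg (hs : s ≤ 16 / 25) : 0 ≤ (2 - s ^ 2) ^ 2 - 31 / 10 * s ^ 4 := by
  have hs2 : s ^ 2 ≤ (16 / 25) ^ 2 := pow_le_pow_left₀ hm.s0.le hs 2
  have h0 : 0 ≤ s ^ 2 := sq_nonneg s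
  have : s ^ 4 = (s ^ 2) ^ 2 := by ring
  rw [this]
  generalize s ^ 2 = x at hs2 h0
  have h1 : x ^ 2 ≤ (16 / 25) ^ 2 * x := by nlinarith
  norm_num at hs2 h1
  linarith

omit hb ha hc in
lemma z_nonneg (hT2 : T ≤ 1 / 2) : 0 ≤ zA t - zB t * T := by
  have t0 := hm.t0
  have h : 0 ≤ zB t := by unfold zB; positivity
  have h1 : zB t * T ≤ zB t * (1 / 2) := mul_le_mul_of_nonneg_left hT2 h
  have h2 : zB t * (1 / 2) ≤ zA t := by
    unfold zA zB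
    linarith
  linarith

/-- the weight of the second condition -/
noncomputable def yB (T s t : ℝ) : ℝ := 3 * t ^ 2 * (2 - s ^ 2) ^ 2 - zB t * s ^ 2 * (2 - s ^ 2)
    + T * (zA t * (2 - s ^ 2) ^ 2)

omit hb ha hc in
lemma yB_eq : yB T s t = (3 * t ^ 2 + T * (zA t - zB t * T)) * (2 - s ^ 2) ^ 2 := by
  unfold yB
  linear_combination (zB t * (2 - s ^ 2)) * hm.Ts

omit hb ha hc in
lemma nB_e (hs : s ≤ 16 / 25) :
    0 ≤ (1 - 9 / 10 * t) * (1 + 3 * t / 2) * t * yB T s t * (s * vW s t + ρm)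
      - (2 + t) * (2 - s ^ 2) ^ 2 * (XC0 s t + T * XC1 s t)
      - (2 + t) * (1 + 3 * t / 2) * 2 * (9 / 10 * t + 11 / 5 * t ^ 3) * (2 - s ^ 2) ^ 2
        * (T * ρm)
      + (2 + t) * (1 + 3 * t / 2) * (9 / 10 * t - 2 * t ^ 3) * (T * (2 - s ^ 2) + s ^ 2) * s
        * cV s t / 2 := by
  have t0 := hm.t0
  have t1 := hm.t1
  have s0 := hm.s0
  have hTl := Tlo_le hm.T0 hm.Ts s0 hm.s1
  have hTh := le_Thi hm.T0 hm.Ts s0 hs
  have gT : ∀ u : ℝ, 0 ≤ qB0 u s t + Tlo s * qB1 u s t → 0 ≤ qB0 u s t + Thi s * qB1 u s t →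
      0 ≤ qB0 u s t + T * qB1 u s t := by
    intro u c1 c2
    have := lin_nonneg (A := qB0 u s t) (B := qB1 u s t) (x := T) (a := Tlo s) (b := Thi s)
      (by linarith) (by linarith) hTl hTh
    linarith
  have e1 := gT _ (qBloL_pos s0.le hs t0 t1) (qBhiL_pos s0.le hs t0 t1)
  have e2 := gT _ (qBloU_pos s0.le hs t0 t1) (qBhiU_pos s0.le hs t0 t1)
  have eu : ∀ u : ℝ, qB0 u s t + T * qB1 u s t
      = ((1 - 9 / 10 * t) * (1 + 3 * t / 2) * t * yB T s t * (s * vW s t)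
      - (2 + t) * (2 - s ^ 2) ^ 2 * (XC0 s t + T * XC1 s t)
      + (2 + t) * (1 + 3 * t / 2) * (9 / 10 * t - 2 * t ^ 3) * (T * (2 - s ^ 2) + s ^ 2) * s
        * cV s t / 2) + ((1 - 9 / 10 * t) * (1 + 3 * t / 2) * t * yB T s t
          - (2 + t) * (1 + 3 * t / 2) * 2 * (9 / 10 * t + 11 / 5 * t ^ 3) * (2 - s ^ 2) ^ 2 * T)
        * ((1 - s) ^ 2 * u) := by
    intro u
    unfold qB0 qB1 sW yB
    ring
  rw [eu] at e1 e2
  have := lin_nonneg e1 e2 hm.Rl hm.Ru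
  refine this.trans (le_of_eq ?_)
  ring

omit hb ha hc in
lemma nB_p1 (hs : s < 1) (hT2 : T ≤ 1 / 2) (hY : 3 * t ^ 2 + T * (zA t - zB t * T) ≤ Y) :
    (1 - 9 / 10 * t) * (1 + 3 * t / 2) * t * yB T s t * (s * vW s t + ρm)
      ≤ (1 - 9 / 10 * t) * (1 + 3 * t / 2) * t * (Y * (2 - s ^ 2) ^ 2) * (s * Wm + ρm) := by
  have t0 := hm.t0
  have t1 := hm.t1
  have s0 := hm.s0
  have T0 := hm.T0
  have hz := z_nonneg hm hT2
  have hc1 : 0 ≤ 1 - 9 / 10 * t := by linarith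
  have hS : s * vW s t + ρm ≤ s * Wm + ρm := by
    have := mul_le_mul_of_nonneg_left hm.Wl s0.le
    linarith
  have hS0 : 0 ≤ s * Wm + ρm := by
    have := hm.W0
    have := hm.R0
    positivity
  rw [yB_eq hm]
  have k1 : (1 - 9 / 10 * t) * (1 + 3 * t / 2) * t
      * ((3 * t ^ 2 + T * (zA t - zB t * T)) * (2 - s ^ 2) ^ 2) * (s * vW s t + ρm)
      ≤ (1 - 9 / 10 * t) * (1 + 3 * t / 2) * t
      * ((3 * t ^ 2 + T * (zA t - zB t * T)) * (2 - s ^ 2) ^ 2) * (s * Wm + ρm) :=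
    mul_le_mul_of_nonneg_left hS (by positivity)
  refine k1.trans ?_
  gcongr

omit hb ha hc in
lemma nE_p2 (hs : s ≤ 16 / 25) {c : ℝ} (hc : 0 ≤ c) :
    c * ((T * (2 - s ^ 2) + s ^ 2) * s * cV s t / 2)
      ≤ c * ((2 - s ^ 2) ^ 2 * (T * cT T s t Em)) := by
  have s0 := hm.s0
  have T0 := hm.T0
  have h2 : 0 ≤ 2 - s ^ 2 := by nlinarith
  refine mul_le_mul_of_nonneg_left ?_ hc
  rw [cT_eq hm.Ts]
  unfold cV
  have k1 := mul_le_mul_of_nonneg_left hm.El (cE_nonneg hm hs)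
  have k2 := mul_le_mul_of_nonneg_left k1 (show 0 ≤ (T * (2 - s ^ 2) + s ^ 2) * s / 2
    by positivity)
  refine (le_of_eq ?_).trans (k2.trans (le_of_eq ?_)) <;> ring

omit ha in
lemma nB_p4 (hT2 : T ≤ 1 / 2) : T * (2 * ρ - cT T s t E)
    ≤ T * (2 * ((1 + 11 / 5 * t ^ 3) * ρm) - (1 - 2 * t ^ 3) * cT T s t Em) := by
  have s0 := hm.s0
  have T0 := hm.T0
  have h2 : 0 ≤ 2 - s ^ 2 := by nlinarith [hm.s1]
  have hT4 : 0 ≤ 1 - 31 / 10 * T ^ 4 := by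
    have : T ^ 4 ≤ (1 / 2) ^ 4 := pow_le_pow_left₀ T0.le hT2 4
    norm_num at this
    linarith
  have p3 : (1 - 2 * t ^ 3) * cT T s t Em ≤ cT T s t E := by
    have k1 := mul_le_mul_of_nonneg_left hc.E (show 0 ≤ (1 + T) * (s * (2 - s ^ 2) / 2)
      * (1 - 31 / 10 * T ^ 4) by positivity)
    unfold cT
    refine (le_of_eq ?_).trans (k1.trans (le_of_eq ?_)) <;> ring
  have := hc.ρu
  exact mul_le_mul_of_nonneg_left (by linarith) T0.le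

omit hb ha hm hc in
lemma nB_id (h2 : 2 + t ≠ 0) (c S A : ℝ) : (2 + t) * (2 - s ^ 2) ^ 2 * ((1 - 9 / 10 * t)
      * ((1 + 3 * t / 2) * (T * (2 * ρm - c)) + (1 + 3 * t / 2) * (t / (2 + t)) * Y * S)
      - (1 + 3 * t / 2) * (T * (2 * ((1 + 11 / 5 * t ^ 3) * ρm) - (1 - 2 * t ^ 3) * c)) - A)
      = (1 - 9 / 10 * t) * (1 + 3 * t / 2) * t * (Y * (2 - s ^ 2) ^ 2) * S
      - (2 + t) * (2 - s ^ 2) ^ 2 * A
      - (2 + t) * (1 + 3 * t / 2) * 2 * (9 / 10 * t + 11 / 5 * t ^ 3) * (2 - s ^ 2) ^ 2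
        * (T * ρm)
      + (2 + t) * (1 + 3 * t / 2) * (9 / 10 * t - 2 * t ^ 3) * ((2 - s ^ 2) ^ 2 * (T * c)) := by
  field_simp
  ring

/-- the second condition -/
theorem nB (hs : s ≤ 16 / 25) (hT2 : T ≤ 1 / 2)
    (hY : 3 * t ^ 2 + T * (zA t - zB t * T) ≤ Y) :
    (1 + 3 * t / 2) * (T * (2 * ρ - cT T s t E)) + xC T s t d v G P Q D
      ≤ (1 - 9 / 10 * t) * ((1 + 3 * t / 2) * (T * (2 * ρm - cT T s t Em))
        + (1 + 3 * t / 2) * (t / (2 + t)) * Y * (s * Wm + ρm)) := by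
  have kC := xC_le hb ha
  have t0 := hm.t0
  have t1 := hm.t1
  have t3 := t3_le hm.t0 hm.t1
  have s0 := hm.s0
  have h3 := ha.h0
  have h2 : 0 < 2 - s ^ 2 := by linarith
  have p1 := nB_p1 hm hm.s1 hT2 hY
  have p2 := nE_p2 hm hs (c := (2 + t) * (1 + 3 * t / 2) * (9 / 10 * t - 2 * t ^ 3))
    (mul_nonneg (by positivity) (by linarith))
  have p5 := mul_le_mul_of_nonneg_left (nB_p4 hb hm hc hT2) (show 0 ≤ 1 + 3 * t / 2 by positivity)
  have e3 := nB_e hm hs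
  have key : 0 ≤ (2 + t) * (2 - s ^ 2) ^ 2 * ((1 - 9 / 10 * t) * ((1 + 3 * t / 2)
        * (T * (2 * ρm - cT T s t Em))
        + (1 + 3 * t / 2) * (t / (2 + t)) * Y * (s * Wm + ρm))
      - (1 + 3 * t / 2) * (T * (2 * ((1 + 11 / 5 * t ^ 3) * ρm)
      - (1 - 2 * t ^ 3) * cT T s t Em)) - (XC0 s t + T * XC1 s t)) := by
    rw [nB_id (by positivity)]
    have e5 : (2 + t) * (1 + 3 * t / 2) * (9 / 10 * t - 2 * t ^ 3)
        * ((T * (2 - s ^ 2) + s ^ 2) * s * cV s t / 2)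
        = (2 + t) * (1 + 3 * t / 2) * (9 / 10 * t - 2 * t ^ 3) * (T * (2 - s ^ 2) + s ^ 2) * s
        * cV s t / 2 := by ring
    rw [e5] at p2
    linarith only [p1, p2, e3]
  have k := nonneg_of_mul_nonneg_right key (by positivity)
  linarith only [k, p5, kC]

/-- the weight of the third condition -/
noncomputable def yH (T s t : ℝ) : ℝ := 6 * t ^ 2 * (2 - s ^ 2) ^ 2 - zB t * s ^ 2 * (2 - s ^ 2)
    + T * (zA t * (2 - s ^ 2) ^ 2)

omit hb ha hc in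
lemma yH_eq : yH T s t = (6 * t ^ 2 + T * (zA t - zB t * T)) * (2 - s ^ 2) ^ 2 := by
  unfold yH
  linear_combination (zB t * (2 - s ^ 2)) * hm.Ts

/-- the threshold factor -/
noncomputable def gH (s t : ℝ) : ℝ := 17 * ((1 + t / 2) * (1 + t)) * (s ^ 2 / (2 * (1 - s ^ 2)))

omit hb ha hc in
lemma gH_eq : 2 * (1 + s) * gH s t * (1 - s) = 17 * ((1 + t / 2) * (1 + t)) * s ^ 2 := by
  have h3 : 0 < 1 - s ^ 2 := by nlinarith [hm.s0, hm.s1]
  have : (2 * (1 - s ^ 2)) ≠ 0 := by positivity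
  have e : 2 * (1 + s) * (17 * ((1 + t / 2) * (1 + t)) * (s ^ 2 / (2 * (1 - s ^ 2)))) * (1 - s)
    = 17 * ((1 + t / 2) * (1 + t)) * (s ^ 2 * (2 * (1 - s ^ 2)) / (2 * (1 - s ^ 2))) := by ring
  unfold gH
  rw [e, mul_div_cancel_right₀ _ this]

omit hb ha hc in
lemma nH_e (hs : s ≤ 16 / 25) :
    0 ≤ 2 * (1 + s) * (2 + t) * (2 - s ^ 2) ^ 2 * (s * vW s t + ρm)
      - 2 * (1 + s) * (2 + t) * (2 - s ^ 2) ^ 2 * gH s t * ρm
      - 2 * (1 + s) * (2 + t) * (1 + 3 * t / 2) * (2 - s ^ 2) ^ 2 * (T * (2 * ρm))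
      + 2 * (1 + s) * (2 + t) * (1 + 3 * t / 2) * ((T * (2 - s ^ 2) + s ^ 2) * s * cV s t / 2)
      - 2 * (1 + s) * (1 + 3 * t / 2) * t * yH T s t * (s * vW s t + ρm) := by
  have t0 := hm.t0
  have t1 := hm.t1
  have s0 := hm.s0
  have hTl : Tl3 s ≤ T := by
    refine le_trans ?_ (Tlo_le hm.T0 hm.Ts s0 hm.s1)
    have h5 : 0 ≤ s * (67 / 10000 * s ^ 2 + 66 / 1000 * s ^ 4) := by positivity
    unfold Tl3 Tlo
    linarith
  have hTh := le_Thi hm.T0 hm.Ts s0 hs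
  have gT : ∀ u : ℝ, 0 ≤ qH0 u s t + Tl3 s * qH1 u s t → 0 ≤ qH0 u s t + Thi s * qH1 u s t →
      0 ≤ qH0 u s t + T * qH1 u s t := by
    intro u c1 c2
    have := lin_nonneg (A := qH0 u s t) (B := qH1 u s t) (x := T) (a := Tl3 s) (b := Thi s)
      (by linarith) (by linarith) hTl hTh
    linarith
  have e1 := gT _ (qHloL_pos s0.le hs t0 t1) (qHhiL_pos s0.le hs t0 t1)
  have e2 := gT _ (qHloU_pos s0.le hs t0 t1) (qHhiU_pos s0.le hs t0 t1)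
  have eg := gH_eq hm
  have eu : ∀ u : ℝ, qH0 u s t + T * qH1 u s t
      = (2 * (1 + s) * (2 + t) * (2 - s ^ 2) ^ 2 * (s * vW s t)
      + 2 * (1 + s) * (2 + t) * (1 + 3 * t / 2) * ((T * (2 - s ^ 2) + s ^ 2) * s * cV s t / 2)
      - 2 * (1 + s) * (1 + 3 * t / 2) * t * yH T s t * (s * vW s t))
      + (2 * (1 + s) * (2 + t) * (2 - s ^ 2) ^ 2
        - 2 * (1 + s) * (2 + t) * (2 - s ^ 2) ^ 2 * gH s t
      - 2 * (1 + s) * (2 + t) * (1 + 3 * t / 2) * (2 - s ^ 2) ^ 2 * (T * 2)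
      - 2 * (1 + s) * (1 + 3 * t / 2) * t * yH T s t) * ((1 - s) ^ 2 * u) := by
    intro u
    unfold qH0 qH1 sW yH
    linear_combination ((2 + t) * (2 - s ^ 2) ^ 2 * (1 - s) * u) * eg
  rw [eu] at e1 e2
  have := lin_nonneg e1 e2 hm.Rl hm.Ru
  refine this.trans (le_of_eq ?_)
  ring

omit hb ha hc in
lemma nH_p1 (hT2 : T ≤ 1 / 2) (hY : Y ≤ 6 * t ^ 2 + T * (zA t - zB t * T)) :
    ((2 + t) - (1 + 3 * t / 2) * t * (6 * t ^ 2 + T * (zA t - zB t * T))) * (s * vW s t + ρm)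
      ≤ ((2 + t) - (1 + 3 * t / 2) * t * Y) * (s * Wm + ρm) := by
  have t0 := hm.t0
  have t1 := hm.t1
  have s0 := hm.s0
  have T0 := hm.T0
  have hz := z_nonneg hm hT2
  have hY1 : 6 * t ^ 2 + T * (zA t - zB t * T) ≤ 4 := by
    have h5 : T * (zA t - zB t * T) ≤ 1 / 2 * (zA t - zB t * T) :=
      mul_le_mul_of_nonneg_right hT2 hz
    have hzB : 0 ≤ zB t * T := by unfold zB; positivity
    have h4 : t ^ 2 ≤ 4 / 289 := by nlinarith
    have h6 : zA t ≤ 13 / 2 := by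
      unfold zA
      linarith
    linarith
  have hS : s * vW s t + ρm ≤ s * Wm + ρm := by
    have := mul_le_mul_of_nonneg_left hm.Wl s0.le
    linarith
  have hS0 : 0 ≤ s * Wm + ρm := by
    have := hm.W0
    have := hm.R0
    positivity
  have hcf : 0 ≤ (2 + t) - (1 + 3 * t / 2) * t * (6 * t ^ 2 + T * (zA t - zB t * T)) := by
    have h5 : (1 + 3 * t / 2) * t * (6 * t ^ 2 + T * (zA t - zB t * T))
        ≤ (1 + 3 * t / 2) * t * 4 := by gcongr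
    have h6 : (1 + 3 * t / 2) * t ≤ 2 * t := by
      refine mul_le_mul_of_nonneg_right ?_ t0
      linarith
    linarith
  refine (mul_le_mul_of_nonneg_left hS hcf).trans ?_
  refine mul_le_mul_of_nonneg_right ?_ hS0
  have : (1 + 3 * t / 2) * t * Y
      ≤ (1 + 3 * t / 2) * t * (6 * t ^ 2 + T * (zA t - zB t * T)) := by gcongr
  linarith

omit hb ha hm hc in
lemma nH_id (h2 : 2 + t ≠ 0) (c S g : ℝ) : 2 * (1 + s) * (2 + t) * (2 - s ^ 2) ^ 2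
      * (S - g * ρm - ((1 + 3 * t / 2) * (T * (2 * ρm - c))
        + (1 + 3 * t / 2) * (t / (2 + t)) * Y * S))
      = 2 * (1 + s) * (2 - s ^ 2) ^ 2 * (((2 + t) - (1 + 3 * t / 2) * t * Y) * S)
      - 2 * (1 + s) * (2 + t) * (2 - s ^ 2) ^ 2 * g * ρm
      - 2 * (1 + s) * (2 + t) * (1 + 3 * t / 2) * (2 - s ^ 2) ^ 2 * (T * (2 * ρm))
      + 2 * (1 + s) * (2 + t) * (1 + 3 * t / 2) * ((2 - s ^ 2) ^ 2 * (T * c)) := by
  field_simp
  ring

omit hb ha hc in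
/-- the third condition -/
theorem nH (hs : s ≤ 16 / 25) (hT2 : T ≤ 1 / 2)
    (hY : Y ≤ 6 * t ^ 2 + T * (zA t - zB t * T)) :
    (1 + 3 * t / 2) * (T * (2 * ρm - cT T s t Em))
        + (1 + 3 * t / 2) * (t / (2 + t)) * Y * (s * Wm + ρm)
      ≤ s * Wm + ρm - 17 * ((1 + t / 2) * (1 + t)) * (s ^ 2 / (2 * (1 - s ^ 2))) * ρm := by
  have t0 := hm.t0
  have s0 := hm.s0
  have h2 : 0 < 2 - s ^ 2 := by nlinarith [hm.s1]
  have p1 := mul_le_mul_of_nonneg_left (nH_p1 hm hT2 hY)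
    (show 0 ≤ 2 * (1 + s) * (2 - s ^ 2) ^ 2 by positivity)
  have p2 := nE_p2 hm hs (c := 2 * (1 + s) * (2 + t) * (1 + 3 * t / 2)) (by positivity)
  have e3 := nH_e hm hs
  have key : 0 ≤ 2 * (1 + s) * (2 + t) * (2 - s ^ 2) ^ 2 * (s * Wm + ρm - gH s t * ρm
      - ((1 + 3 * t / 2) * (T * (2 * ρm - cT T s t Em))
        + (1 + 3 * t / 2) * (t / (2 + t)) * Y * (s * Wm + ρm))) := by
    rw [nH_id (by positivity)]
    have e5 : 2 * (1 + s) * (2 - s ^ 2) ^ 2 * (((2 + t) - (1 + 3 * t / 2) * t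
        * (6 * t ^ 2 + T * (zA t - zB t * T))) * (s * vW s t + ρm))
      = 2 * (1 + s) * (2 + t) * (2 - s ^ 2) ^ 2 * (s * vW s t + ρm)
        - 2 * (1 + s) * (1 + 3 * t / 2) * t * yH T s t * (s * vW s t + ρm) := by
      rw [yH_eq hm]
      ring
    rw [e5] at p1
    linarith only [p1, p2, e3]
  have k := nonneg_of_mul_nonneg_right key (by positivity)
  have e6 : gH s t * ρm
      = 17 * ((1 + t / 2) * (1 + t)) * (s ^ 2 / (2 * (1 - s ^ 2))) * ρm := rfl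
  linarith only [k, e6]

end

end Vale.Agent.P224.R2.H494.OC
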