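import Vale.Agent.P224.R2.H494.OC3
import Vale.Agent.P224.R2.H494.OA1
import Vale.Agent.P224.R2.H742.LawO

/-!
The scalar conditions of the odd dimension for the flow: the direct form.
-/

namespace Vale.Agent.P224.R2.H494.OC

open MeasureTheory Set Filter Function Real Vale.Agent.P224.SM2 Vale.Agent.P224.R2.H925
  Vale.Agent.P224.R2.H627 Vale.Agent.P224.R2.H820 Vale.Agent.P224.R2.H424
  Vale.Agent.P224.R2.H494.ZT Vale.Agent.P224.R2.H355 Vale.Agent.P224.R2.H742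
open scoped Topology

section

variable {m : ℕ} (hm : 17 ≤ m) {L : ℝ} (hL : L * ((m : ℝ) ^ 2 - 1) = 4)
  (s : ZSol ((m : ℝ) / 2) L) {d : ℝ} (hd : 0 ≤ d) (hd2 : d ^ 2 = L)
  {T : ℝ} (hT : T ∈ Ioo (0 : ℝ) 1)

include hm hL hT

/-- closeness of the flow in normal form -/
lemma cls_Z : Cls (2 / m) (om m * (hsol (par_of hm hL).a0 s).W (hv T))
    (om m * (hsol (par_of hm hL).a0 s).E (hv T)) (om m * (m * JE s T))
    (Wf ((m : ℝ) / 2) (cn m) T) (Ef ((m : ℝ) / 2) (cn m) T)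
    (√2 * Rf ((m : ℝ) / 2) (cn m) T) :=
  ⟨W_ge1 hm hL s hT, E_ge3 hm hL s hT, J_ge3 hm hL s hT, J_le3 hm hL s hT⟩

omit hL in
lemma K0_rM : K0 ((m : ℝ) / 2) (cn m) * (m * rM m T)
    = (1 - T ^ 2) ^ ((m : ℝ) / 2 - 1) / om m * (√2 * Rf ((m : ℝ) / 2) (cn m) T) := by
  have h1 := hr_M (m := m) T
  have h2 := K0_om hm
  have h3 := (om_pos hm).ne'
  rw [div_mul_eq_mul_div, eq_div_iff h3, ← h1]
  linear_combination (m * rM m T) * h2

omit hL in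
lemma K0_yM : K0 ((m : ℝ) / 2) (cn m) * (T * yM m T)
    = (1 - T ^ 2) ^ ((m : ℝ) / 2 - 1) / om m * (sv T * Wf ((m : ℝ) / 2) (cn m) T) := by
  have h1 := hy_M (m := m) T
  have h2 := K0_om hm
  have h3 := (om_pos hm).ne'
  rw [div_mul_eq_mul_div, eq_div_iff h3, ← h1]
  linear_combination (T * yM m T) * h2

omit hL in
lemma K0_eM : K0 ((m : ℝ) / 2) (cn m) * (m * eM m T)
    = (1 - T ^ 2) ^ ((m : ℝ) / 2 - 1) / om m * ((1 - T ^ 2)
      * (sv T * (2 - sv T ^ 2) * Ef ((m : ℝ) / 2) (cn m) T / 2)) := by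
  have h1 := he_M (m := m) hT
  have h2 := K0_om hm
  have h3 := (om_pos hm).ne'
  rw [div_mul_eq_mul_div, eq_div_iff h3, ← h1]
  linear_combination (m * eM m T) * h2

include hd hd2

/-- the condition of the first order -/
theorem ho_Z : 2 * (1 / √(1 - T ^ 2)) * (m + 3) * d * -(uZ s).ρ T ≤ m * (m + 1) * (uZ s).r T :=
  dir_h57 hm (obd_Z hm hL s hT) (aux_Z hm hL hd hd2 hT) (nf_Z hm hL s hT)

/-- the exact form of `gO` -/
lemma gO_eq : gO m d T (1 / √(1 - T ^ 2)) ((uZ s).r T) (-(uZ s).ρ T)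
    = (m + 1) * (m + 2) * T ^ 2 / (m * (1 - T ^ 2))
      * ((1 - T ^ 2) ^ ((m : ℝ) / 2 - 1) / om m * (om m * (m * JE s T)
        + xB (2 / m) d (1 / √(2 * hv T)) (nP hm hL s T))) := by
  have hmR : (17 : ℝ) ≤ m := by exact_mod_cast hm
  have hk : 0 < 1 - T ^ 2 := by nlinarith [hT.1, hT.2]
  have hn := nf_Z hm hL s hT
  have h1 := Rp_eq hm (obd_Z hm hL s hT) (aux_Z hm hL hd hd2 hT) hn
  have hr := hn.r
  set Kn := (1 - T ^ 2) ^ ((m : ℝ) / 2 - 1) / om m with hKn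
  set P := nP hm hL s T with hP
  set v := 1 / √(2 * hv T) with hv'
  set R := 1 / √(1 - T ^ 2) with hR
  set p := -(uZ s).ρ T with hp
  set r := (uZ s).r T with hr'
  have e1 : gO m d T R r p = (m + 2) * T ^ 2 / (m * (1 - T ^ 2))
      * ((m + 1) * (m * r) + (m + 3) * d / m * (2 * m * (R * p))) := by
    unfold gO
    field_simp
  rw [e1, h1, hr]
  unfold xB
  field_simp

/-- the bound of `gO` -/
theorem hg_Z : gO m d T (1 / √(1 - T ^ 2)) ((uZ s).r T) (-(uZ s).ρ T)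
    ≤ K0 ((m : ℝ) / 2) (cn m) * (1 + 7 / (5 * m))
      * ((m + 1) * (m + 2) * T ^ 2 * rM m T / (1 - T ^ 2)) := by
  have hmR : (17 : ℝ) ≤ m := by exact_mod_cast hm
  have hk : 0 < 1 - T ^ 2 := by nlinarith [hT.1, hT.2]
  have ho := om_pos hm
  have h1 := nG (obd_Z hm hL s hT) (aux_Z hm hL hd hd2 hT) (bds2_M hm hT) (cls_Z hm hL s hT)
  have h2 : K0 ((m : ℝ) / 2) (cn m) * (1 + 7 / (5 * m))
      * ((m + 1) * (m + 2) * T ^ 2 * rM m T / (1 - T ^ 2))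
      = (m + 1) * (m + 2) * T ^ 2 / (m * (1 - T ^ 2))
        * ((1 - T ^ 2) ^ ((m : ℝ) / 2 - 1) / om m * ((1 + 7 / 10 * (2 / m))
          * (√2 * Rf ((m : ℝ) / 2) (cn m) T))) := by
    have e := K0_rM hm hT
    have e2 : (1 : ℝ) + 7 / (5 * m) = 1 + 7 / 10 * (2 / m) := by ring
    rw [e2]
    calc K0 ((m : ℝ) / 2) (cn m) * (1 + 7 / 10 * (2 / m))
          * ((m + 1) * (m + 2) * T ^ 2 * rM m T / (1 - T ^ 2))
        = (m + 1) * (m + 2) * T ^ 2 / (m * (1 - T ^ 2)) * (1 + 7 / 10 * (2 / m))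
          * (K0 ((m : ℝ) / 2) (cn m) * (m * rM m T)) := by
          field_simp
      _ = _ := by
          rw [e]
          ring
  rw [gO_eq hm hL s hd hd2 hT, h2]
  refine mul_le_mul_of_nonneg_left ?_ (by positivity)
  exact mul_le_mul_of_nonneg_left h1 (by positivity)

/-- positivity of `aO` and the bound of `bO` -/
theorem hab_Z {l : ℝ} (hl : AdmO (2 / m) (1 - T ^ 2) l) :
    0 ≤ aO m d T (1 / √(1 - T ^ 2)) l ((uZ s).y T) ((uZ s).r T) (-(uZ s).ρ T) (-(uZ s).ε T) ∧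
    (m + 3) * bO m d T (1 / √(1 - T ^ 2)) ((uZ s).e T) ((uZ s).r T) (-(uZ s).ρ T) (-(uZ s).ε T)
      ≤ (m + 1) * aO m d T (1 / √(1 - T ^ 2)) l ((uZ s).y T) ((uZ s).r T) (-(uZ s).ρ T)
        (-(uZ s).ε T) * (1 - T) := by
  have hn := nf_Z hm hL s hT
  have hb := obd_Z hm hL s hT
  have ha := aux_Z hm hL hd hd2 hT
  obtain ⟨h1, h2⟩ := dir_both hm hT hb ha hn hl
  refine ⟨h1, le_trans ?_ h2⟩
  have h3 := bO_le hm hT hb ha hn le_rfl
  exact mul_le_mul_of_nonneg_left h3 (by positivity)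

/-- all the conditions in the direct form -/
theorem oddUp_Z {l' : ℝ → ℝ} (hl : AdmO (2 / m) (1 - T ^ 2) (l' T)) (h0 : 0 ≤ l' T) :
    OddUp m d (K0 ((m : ℝ) / 2) (cn m)) (7 / (5 * m)) l' (uZ s) T := by
  obtain ⟨h1, h2⟩ := hab_Z hm hL s hd hd2 hT hl
  refine ⟨h0, ho_Z hm hL s hd hd2 hT, h1, ?_, hg_Z hm hL s hd hd2 hT⟩
  have h3 : 0 ≤ 1 - T := by linarith [hT.2]
  set A := aO m d T (1 / √(1 - T ^ 2)) (l' T) ((uZ s).y T) ((uZ s).r T) (-(uZ s).ρ T)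
    (-(uZ s).ε T) with hA
  set B := bO m d T (1 / √(1 - T ^ 2)) ((uZ s).e T) ((uZ s).r T) (-(uZ s).ρ T) (-(uZ s).ε T)
    with hB
  have h4 : 0 ≤ A * (1 - T) := mul_nonneg h1 h3
  have h5 : (0 : ℝ) < m + 3 := by positivity
  refine le_of_mul_le_mul_left ?_ h5
  linarith

end

/-- the threshold above the node -/
lemma admO_max (t k : ℝ) (hk : 0 < k) :
    AdmO t k (max (94 / 5 - 128 / 5 * t) ((63 / 5 - 73 / 5 * t) / k)) := by
  rcases le_total ((63 / 5 - 73 / 5 * t) / k) (94 / 5 - 128 / 5 * t) with h | h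
  · left
    rw [max_eq_left h]
  · right
    rw [max_eq_right h, mul_div_cancel₀ _ hk.ne']

end Vale.Agent.P224.R2.H494.OC
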