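import Vale.Agent.P224.R2.H494.OA2
import Vale.Agent.P224.R2.H178.WO2

/-!
The scalar conditions of the odd dimension with the final thresholds, every `m ≥ 17`.
-/

namespace Vale.Agent.P224.R2.H494.OC

open MeasureTheory Set Filter Function Real Vale.Agent.P224.SM2 Vale.Agent.P224.R2.H925
  Vale.Agent.P224.R2.H627 Vale.Agent.P224.R2.H820 Vale.Agent.P224.R2.H424
  Vale.Agent.P224.R2.H494.ZT Vale.Agent.P224.R2.H355 Vale.Agent.P224.R2.H742
open scoped Topology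

lemma xiO_eq (m : ℕ) : xiO (m : ℝ) = H178.xiO m := by
  funext T
  unfold xiO xiX H178.xiO
  ring

section

variable {m : ℕ} (hm : 17 ≤ m) {L : ℝ} (hL : L * ((m : ℝ) ^ 2 - 1) = 4)
  (s : ZSol ((m : ℝ) / 2) L) {d : ℝ} (hd : 0 ≤ d) (hd2 : d ^ 2 = L)
  {T : ℝ} (hT : T ∈ Ioo (0 : ℝ) 1)

include hm hL hd hd2 hT

/-- the conditions below the node, final thresholds -/
theorem oddAt_lamP (hT2 : T ≤ 1 / 2) {l' : ℝ → ℝ}
    (hl' : l' T = 17 * (1 - T ^ 10) * ((1 - 9 / (5 * m)) / (1 + 7 / (5 * m)))) :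
    OddAt m d (K0 ((m : ℝ) / 2) (cn m)) (9 / (5 * m)) (31 / 10) (7 / (5 * m)) (H178.xiO m)
      (H582.lamP 17 17 17 17 17) l' (uZ s) T := by
  have h0 := hT.1
  have e : (1 - T ^ 2) * H582.lamP 17 17 17 17 17 T = 17 * (1 - T ^ 10) := by
    unfold H582.lamP
    ring
  have h10 : 0 ≤ T ^ 10 := by positivity
  have hp : 0 ≤ H582.lamP 17 17 17 17 17 T := by
    unfold H582.lamP
    positivity
  rw [← xiO_eq]
  refine oddAt_Z hm hL s hd hd2 hT hT2 hp (by rw [e]; linarith) ?_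
  rw [hl', e]
  ring

/-- the conditions above the node, final thresholds -/
theorem oddUp_max {l' : ℝ → ℝ} (hl' : l' T = max (94 / 5 - 256 / (5 * (m : ℝ)))
      ((63 / 5 - 146 / (5 * m)) / (1 - T ^ 2))) :
    OddUp m d (K0 ((m : ℝ) / 2) (cn m)) (7 / (5 * m)) l' (uZ s) T := by
  have hmR : (17 : ℝ) ≤ m := by exact_mod_cast hm
  have hk : 0 < 1 - T ^ 2 := by nlinarith [hT.1, hT.2]
  have ht1 : (2 : ℝ) / m ≤ 2 / 17 := by gcongr
  have e1 : 94 / 5 - 256 / (5 * (m : ℝ)) = 94 / 5 - 128 / 5 * (2 / m) := by ring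
  have e2 : 63 / 5 - 146 / (5 * (m : ℝ)) = 63 / 5 - 73 / 5 * (2 / m) := by ring
  refine oddUp_Z hm hL s hd hd2 hT ?_ ?_
  · rw [hl', e1, e2]
    exact admO_max _ _ hk
  · rw [hl', e1]
    exact le_max_of_le_left (by linarith)

end

end Vale.Agent.P224.R2.H494.OC
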