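import Vale.Agent.P224.R2.H494.ZT
import Vale.Agent.P224.R2.H925.SOne

/-!
The limits of the flow of the odd dimension, from the normal form.
-/

namespace Vale.Agent.P224.R2.H494.ZT

open MeasureTheory Set Filter Function Real Vale.Agent.P224.SM2 Vale.Agent.P224.R2.H925
  Vale.Agent.P224.R2.H424
open scoped Topology

variable {a L : ℝ}

/-! ### at zero -/

lemma tt0 {f g : ℝ → ℝ} {u v : ℝ} (h : Tendsto f (𝓝[>] 0) (𝓝 u))
    (hfg : ∀ T ∈ Ioo (0 : ℝ) 1, f T = g T) (hab : u = v) : Tendsto g (𝓝[>] 0) (𝓝 v) := by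
  rw [← hab]
  refine h.congr' ?_
  filter_upwards [Ioo_mem_nhdsGT (zero_lt_one (α := ℝ))] with T hT using hfg T hT

lemma tendsto_id0 : Tendsto (fun T : ℝ => T) (𝓝[>] 0) (𝓝 0) :=
  tendsto_id.mono_left nhdsWithin_le_nhds

lemma tendsto_w0 : Tendsto (fun T : ℝ => 1 - T ^ 2) (𝓝[>] 0) (𝓝 1) := by
  have := (tendsto_id0.pow 2).const_sub 1
  simpa using this

lemma tendsto_wpow0 (b : ℝ) : Tendsto (fun T : ℝ => (1 - T ^ 2) ^ b) (𝓝[>] 0) (𝓝 1) := by
  have := tendsto_w0.rpow_const (p := b) (Or.inl one_ne_zero)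
  simpa using this

lemma tendsto_f0 {f : ℝ → ℝ} (hf : ContinuousOn f (Icc 0 1)) :
    Tendsto (fun T : ℝ => f (1 - T ^ 2)) (𝓝[>] 0) (𝓝 (f 1)) := by
  have h1 : Tendsto f (𝓝[Icc 0 1] 1) (𝓝 (f 1)) := hf 1 ⟨zero_le_one, le_rfl⟩
  refine h1.comp (tendsto_nhdsWithin_iff.2 ⟨tendsto_w0, ?_⟩)
  filter_upwards [Ioo_mem_nhdsGT (zero_lt_one (α := ℝ))] with T hT
  exact Ioo_subset_Icc_self (w_mem hT)

lemma continuousOn_JE (s : ZSol a L) : ContinuousOn (JE s) (Icc 0 1) := by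
  have h1 := intervalIntegral.continuousOn_primitive_interval' (μ := volume)
    (f := fun x => s.E (1 - x ^ 2)) (a := 1) (b₁ := 0) (b₂ := 1)
    (intble_E s (by norm_num)) right_mem_uIcc
  rw [uIcc_of_le zero_le_one] at h1
  refine h1.neg.congr fun x _ => ?_
  unfold JE
  exact intervalIntegral.integral_symm _ _

/-- the limits at zero -/
theorem lim0_uZ (s : ZSol a L) (ha : 1 < a) {m : ℕ} {d : ℝ} (hm : (m : ℝ) = 2 * a)
    (hd : d ^ 2 = L) : Lim0 m d (uZ s) (s.P 1) (JE s 0)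
      ((m - 2) / (m - 1) * s.y 1 + L * s.F 1) := by
  have ha1 : (2 * a - 1) ≠ 0 := by linarith
  have tE := tendsto_f0 s.cE.c0
  have tG := tendsto_f0 s.cG.c0
  have ty := tendsto_f0 s.cy.c0
  have tyt1 := tendsto_f0 s.cyt.c1
  have tP := tendsto_f0 s.cP.c0
  have tP1 := tendsto_f0 s.cP.c1
  have tF := tendsto_f0 s.cF.c0
  refine ⟨?_, ?_, ?_, ?_, ?_, ?_, ?_⟩
  · exact tt0 (tendsto_id0.mul ((tendsto_wpow0 a).mul tE)) (fun T _ => rfl) (by simp)
  · exact tt0 (tendsto_id0.mul ((tendsto_wpow0 a).mul (tE.sub tG))) (fun T _ => rfl) (by simp)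
  · exact tt0 (tendsto_id0.mul ((tendsto_wpow0 (a - 1)).mul ty)) (fun T _ => rfl) (by simp)
  · refine tt0 ((tendsto_wpow0 a).mul (tP.add ((((tendsto_w0.const_sub 1).const_mul 2)).mul tP1)))
      (fun T _ => rfl) (by simp)
  · refine tt0 (tendsto_id0.mul ((tendsto_wpow0 (a - 1)).mul
      ((tP.neg).add ((tendsto_w0.const_mul 2).mul tP1)))) (fun T hT => ?_) (by simp)
    have hT0 := hT.1.ne'
    have hw := (w_pos hT).ne'
    simp only [uZ]
    have e : (1 - T ^ 2) ^ a = (1 - T ^ 2) ^ (a - 1) * (1 - T ^ 2) := by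
      rw [← rpow_add_one hw]
      congr 1
      ring
    rw [e]
    generalize (1 - T ^ 2) ^ (a - 1) = K
    field_simp
    ring
  · have h1 : Tendsto (JE s) (𝓝[>] 0) (𝓝 (JE s 0)) := by
      have h1 : Tendsto (JE s) (𝓝[Icc 0 1] 0) (𝓝 (JE s 0)) :=
        continuousOn_JE s 0 ⟨le_rfl, zero_le_one⟩
      refine h1.mono_left ?_
      rw [← nhdsWithin_Ioo_eq_nhdsGT (zero_lt_one (α := ℝ))]
      exact nhdsWithin_mono 0 Ioo_subset_Icc_self
    exact tt0 ((tendsto_wpow0 (a - 1)).mul h1) (fun T _ => rfl) (by simp)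
  · refine tt0 (((tendsto_wpow0 a).mul ty).add ((((tendsto_wpow0 a).mul
      (ty.neg.add (((tendsto_w0.const_sub 1).const_mul 4).mul tyt1))).div_const (m - 1 : ℝ)).add
      (((tendsto_wpow0 a).mul tF).const_mul L))) (fun T hT => ?_) ?_
    · have hT0 := hT.1.ne'
      have hw := (w_pos hT).ne'
      simp only [uZ, hd]
      have e : (1 - T ^ 2) ^ a = (1 - T ^ 2) ^ (a - 1) * (1 - T ^ 2) := by
        rw [← rpow_add_one hw]
        congr 1
        ring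
      rw [e]
      generalize (1 - T ^ 2) ^ (a - 1) = K
      field_simp
      ring
    · rw [hm]
      field_simp
      ring

/-! ### at one -/

lemma one_sub_sin_sq (φ : ℝ) : 1 - sin φ ^ 2 = cos φ ^ 2 := by
  have := sin_sq_add_cos_sq φ
  linarith

lemma sin_mem {φ : ℝ} (hφ : φ ∈ Ioo 0 (π / 2)) : sin φ ∈ Ioo (0 : ℝ) 1 := by
  have := pi_pos
  exact ⟨sin_pos_of_pos_of_lt_pi hφ.1 (by linarith [hφ.2]),
    (abs_lt.1 (Vale.Agent.P224.FV.abs_sin_lt_one ⟨by linarith [hφ.1], hφ.2⟩)).2⟩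

lemma cos_rpow {φ : ℝ} (hφ : φ ∈ Ioo 0 (π / 2)) (b : ℝ) :
    (1 - sin φ ^ 2) ^ b = cos φ ^ (2 * b) := by
  have hc := (cos_pos_Ioo hφ)
  rw [one_sub_sin_sq, rpow_mul hc.le]
  norm_num

lemma tw : Tendsto (fun φ => 1 - sin φ ^ 2) (𝓝[<] (π / 2)) (𝓝[>] 0) := by
  refine tendsto_nhdsWithin_iff.2 ⟨tendsto_w, ?_⟩
  filter_upwards [Ioo_pi] with φ hφ
  exact w_pos (sin_mem hφ)

lemma tendsto_slope0 {f : ℝ → ℝ} {f' : ℝ} (hf : HasDerivAt f f' 0) (h0 : f 0 = 0) :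
    Tendsto (fun z => f z / z) (𝓝[>] 0) (𝓝 f') := by
  have h1 := (hasDerivAt_iff_tendsto_slope.1 hf).mono_left
    (nhdsWithin_mono 0 (fun z (hz : 0 < z) => hz.ne'))
  refine h1.congr fun z => ?_
  rw [slope_def_field, h0, sub_zero, sub_zero]

lemma zero_mem : (0 : ℝ) ∈ Ioo (-1 : ℝ) 1 := by norm_num

lemma tendsto_c0 {f f1 : ℝ → ℝ} (hf : ∀ z ∈ Ioo (-1 : ℝ) 1, HasDerivAt f (f1 z) z) :
    Tendsto f (𝓝[>] 0) (𝓝 (f 0)) :=
  (hf 0 zero_mem).continuousAt.tendsto.mono_left nhdsWithin_le_nhds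

/-- the second derivative of `P` vanishes at zero -/
lemma P2_zero (s : ZSol a L) (ha : 1 < a) : s.P2 0 = 0 := by
  have t1 := tendsto_slope0 (s.cP.d2 0 zero_mem) s.P10
  have t0 := tendsto_slope0 (s.cP.d1 0 zero_mem) s.P0
  have tE := tendsto_c0 s.cE.d1
  have tG := tendsto_c0 s.cG.d1
  have tQ := tendsto_c0 s.cQ.d1
  rw [s.E0] at tE
  rw [s.G0] at tG
  rw [s.P10] at t0
  have hid : Tendsto (fun z : ℝ => z) (𝓝[>] 0) (𝓝 0) := tendsto_id0
  have h1 : Tendsto (fun z => (1 - L * z / 4) * s.Q z) (𝓝[>] 0) (𝓝 ((1 - L * 0 / 4) * s.Q 0)) :=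
    (((hid.const_mul L).div_const 4).const_sub 1).mul tQ
  have h2 : Tendsto (fun z => -2 * a * (2 - z) * (s.P1 z / z) - a * (s.P z / z)
      - a * (2 * a + 1) * (s.E z - s.G z)) (𝓝[>] 0)
      (𝓝 (-2 * a * (2 - 0) * s.P2 0 - a * 0 - a * (2 * a + 1) * (0 - 0))) :=
    ((((hid.const_sub 2).const_mul (-2 * a)).mul t1).sub (t0.const_mul a)).sub
      ((tE.sub tG).const_mul (a * (2 * a + 1)))
  have h3 := tendsto_nhds_unique (h1.congr' ?_) h2
  · have e := s.eQ 0 ⟨le_rfl, zero_le_one⟩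
    rw [s.P10] at e
    rw [e] at h3
    have h4 : (4 + 4 * a) * s.P2 0 = 0 := by linarith
    rcases mul_eq_zero.1 h4 with h5 | h5
    · linarith
    · exact h5
  · filter_upwards [Ioo_mem_nhdsGT (zero_lt_one (α := ℝ))] with z hz
    have e := s.eD z (Ioo_subset_Icc_self hz)
    have hz0 := hz.1.ne'
    field_simp
    linarith

lemma tendsto_P_sq (s : ZSol a L) (ha : 1 < a) : Tendsto (fun z => s.P z / z ^ 2) (𝓝[>] 0) (𝓝 0) := by
  have h1 : Tendsto (fun z => s.P1 z / (2 * z)) (𝓝[>] 0) (𝓝 0) := by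
    have t1 := (tendsto_slope0 (s.cP.d2 0 zero_mem) s.P10).const_mul (1 / 2)
    rw [P2_zero s ha, mul_zero] at t1
    refine t1.congr fun z => ?_
    rw [mul_comm (2 : ℝ) z, ← div_div]
    ring
  refine HasDerivAt.lhopital_zero_nhdsGT (f' := s.P1) (g' := fun z => 2 * z) ?_ ?_ ?_ ?_ ?_ h1
  · filter_upwards [Ioo_mem_nhdsGT (zero_lt_one (α := ℝ))] with z hz
    exact s.cP.d1 z ⟨by linarith [hz.1], hz.2⟩
  · filter_upwards with z
    simpa using hasDerivAt_pow 2 z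
  · filter_upwards [self_mem_nhdsWithin] with z hz
    have : (0 : ℝ) < z := hz
    positivity
  · have := tendsto_c0 s.cP.d1
    rwa [s.P0] at this
  · have := tendsto_id0.pow 2
    simpa using this

lemma tendsto_JE (s : ZSol a L) : Tendsto (fun T => JE s T / (1 - T ^ 2)) (𝓝[<] 1) (𝓝 0) := by
  have hw : Tendsto (fun T : ℝ => 1 - T ^ 2) (𝓝[<] 1) (𝓝 0) := by
    have h1 : Tendsto (fun T : ℝ => T) (𝓝[<] 1) (𝓝 1) := tendsto_id.mono_left nhdsWithin_le_nhds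
    have := (h1.pow 2).const_sub 1
    simpa using this
  have hT : Tendsto (fun T : ℝ => T) (𝓝[<] 1) (𝓝 1) := tendsto_id.mono_left nhdsWithin_le_nhds
  have hE : Tendsto (fun T : ℝ => s.E (1 - T ^ 2)) (𝓝[<] 1) (𝓝 0) := by
    have h2 := (s.cE.d1 0 zero_mem).continuousAt.tendsto.comp hw
    rw [s.E0] at h2
    exact h2
  have h1 : Tendsto (fun T => -s.E (1 - T ^ 2) / (-(2 * T))) (𝓝[<] 1) (𝓝 0) := by
    have h := hE.neg.div ((hT.const_mul 2).neg) (by norm_num)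
    rw [neg_zero, zero_div] at h
    exact h
  refine HasDerivAt.lhopital_zero_nhdsLT (f' := fun T => -s.E (1 - T ^ 2))
    (g' := fun T => -(2 * T)) ?_ ?_ ?_ ?_ ?_ h1
  · filter_upwards [Ioo_mem_nhdsLT (zero_lt_one (α := ℝ))] with T hT
    exact hasDerivAt_JE s hT
  · filter_upwards with T
    exact hasDerivAt_w T
  · filter_upwards [Ioo_mem_nhdsLT (zero_lt_one (α := ℝ))] with T hT
    have : 0 < T := hT.1
    linarith
  · have h2 : Tendsto (JE s) (𝓝[Icc 0 1] 1) (𝓝 (JE s 1)) :=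
      continuousOn_JE s 1 ⟨zero_le_one, le_rfl⟩
    have h3 : JE s 1 = 0 := by
      unfold JE
      simp
    rw [h3] at h2
    refine h2.mono_left ?_
    rw [← nhdsWithin_Ioo_eq_nhdsLT (zero_lt_one (α := ℝ))]
    exact nhdsWithin_mono 1 Ioo_subset_Icc_self
  · exact hw

/-- the limits at one -/
theorem lim1_uZ (s : ZSol a L) (ha : 2 < a) {m : ℕ} (hm : (m : ℝ) = 2 * a) :
    Lim1 m (uZ s) 1 := by
  have hm2 : 2 ≤ m := by
    have : (2 : ℝ) ≤ m := by linarith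
    exact_mod_cast this
  have tE := (tendsto_slope0 (s.cE.d1 0 zero_mem) s.E0).comp tw
  have tG := (tendsto_slope0 (s.cG.d1 0 zero_mem) s.G0).comp tw
  have tP := (tendsto_P_sq s (by linarith)).comp tw
  have tP0 := (tendsto_slope0 (s.cP.d1 0 zero_mem) s.P0).comp tw
  have tP1 := (tendsto_slope0 (s.cP.d2 0 zero_mem) s.P10).comp tw
  have ty := (tendsto_c0 s.cy.d1).comp tw
  have tyt := (tendsto_c0 s.cyt.d2).comp tw
  have tJ := (tendsto_JE s).comp (tendsto_nhdsWithin_iff.2 ⟨tendsto_sin_one, by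
    filter_upwards [Ioo_pi] with φ hφ using (sin_mem hφ).2⟩)
  rw [s.y0] at ty
  rw [s.P10] at tP0
  rw [P2_zero s (by linarith)] at tP1
  have hyt : s.yt1 0 = 1 / 4 := by
    have e := s.eA 0 ⟨le_rfl, zero_le_one⟩
    rw [s.y0] at e
    have : a * (4 * s.yt1 0 - 1) = 0 := by linarith
    rcases mul_eq_zero.1 this with h | h <;> linarith
  rw [hyt] at tyt
  have hpw : ∀ φ ∈ Ioo 0 (π / 2), (1 - sin φ ^ 2) ^ a = cos φ ^ m := by
    intro φ hφ
    rw [cos_rpow hφ, ← hm, rpow_natCast]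
  have hpw1 : ∀ φ ∈ Ioo 0 (π / 2), (1 - sin φ ^ 2) ^ (a - 1) = cos φ ^ (m - 2) := by
    intro φ hφ
    rw [cos_rpow hφ, ← rpow_natCast, Nat.cast_sub hm2, hm]
    congr 1
    push_cast
    ring
  have hk : ∀ φ : ℝ, cos φ ^ m = cos φ ^ (m - 2) * cos φ ^ 2 := by
    intro φ
    rw [← pow_add]
    congr 1
    omega
  simp only [Function.comp_def] at *
  refine ⟨?_, ?_, ?_, ?_, ?_, ?_, ?_⟩
  · refine tt1 ty (fun φ hφ => ?_) rfl
    have hc := (cos_pos_Ioo hφ).ne'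
    simp only [uZ]
    rw [hpw1 φ hφ]
    field_simp
  · refine tt1 (tendsto_sin_one.mul (tE.mul tendsto_cos_zero)) (fun φ hφ => ?_) (by simp)
    have hc := (cos_pos_Ioo hφ).ne'
    simp only [uZ]
    rw [hpw φ hφ, one_sub_sin_sq, pow_succ (cos φ) m]
    field_simp
  · refine tt1 (tendsto_sin_one.mul ((tE.sub tG).mul tendsto_cos_zero)) (fun φ hφ => ?_) (by simp)
    have hc := (cos_pos_Ioo hφ).ne'
    simp only [uZ]
    rw [hpw φ hφ, one_sub_sin_sq, pow_succ (cos φ) m]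
    field_simp
  · refine tt1 (ty.neg.add (((tendsto_w.const_sub 1).const_mul 4).mul tyt)) (fun φ hφ => ?_)
      (by norm_num)
    have hc := (cos_pos_Ioo hφ).ne'
    simp only [uZ]
    rw [hpw φ hφ]
    field_simp
  · refine tt1 tJ (fun φ hφ => ?_) rfl
    have hc := (cos_pos_Ioo hφ).ne'
    simp only [uZ]
    rw [hpw1 φ hφ, one_sub_sin_sq, hk]
    field_simp
  · refine tt1 tP (fun φ hφ => ?_) rfl
    have hc := (cos_pos_Ioo hφ).ne'
    simp only [uZ]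
    rw [hpw1 φ hφ, one_sub_sin_sq, pow_succ (cos φ) (m + 1), pow_succ (cos φ) m, hk]
    field_simp
  · refine tt1 (tP0.add (((tendsto_w.const_sub 1).const_mul 2).mul tP1)) (fun φ hφ => ?_) (by simp)
    have hc := (cos_pos_Ioo hφ).ne'
    simp only [uZ]
    rw [hpw φ hφ, one_sub_sin_sq, pow_succ (cos φ) (m + 1), pow_succ (cos φ) m]
    field_simp

end Vale.Agent.P224.R2.H494.ZT
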