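import Vale.Agent.P224.R2.H494.ZCl

/-!
Dictionary for the odd functions of the flow of the odd dimension.
-/

namespace Vale.Agent.P224.R2.H494.ZT

open MeasureTheory Set Filter Function Real Vale.Agent.P224.SM2 Vale.Agent.P224.R2.H925
  Vale.Agent.P224.R2.H424 Vale.Agent.P224.R2.H355 Vale.Agent.P224.R2.H627
open scoped Topology

variable {a L T C : ℝ} (ha : 0 < a) (s : ZSol a L)

lemma e_eq (T : ℝ) : (uZ s).e T = √2 * (T * (1 - T ^ 2) ^ a * (hsol ha s).E (hv T)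
    / (2 * a * ((1 + T ^ 2) * √(1 + T ^ 2)))) := by
  simp only [uZ]
  rw [E_eq' ha s T]
  ring

lemma P_eq' (T : ℝ) : s.P (1 - T ^ 2)
    = -((2 * a + 1) / (4 * a) * (√(1 + T ^ 2) / √2) * (hsol ha s).P (hv T)) := by
  have h1 : (hsol ha s).P (hv T)
      = -4 * a / (2 * a + 1) * √(1 + hv T) / (1 + hv T) ^ 0 * s.P (zt (hv T)) := rfl
  have h2 := s_pos T
  have h5 : (0 : ℝ) < √2 := by positivity
  have hn : (2 * a + 1) ≠ 0 := by positivity
  rw [h1, zt_hv, sqrt_hv]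
  field_simp

/-- the function ρ of the flow -/
lemma rho_eq (T : ℝ) : (uZ s).ρ T
    = -((2 * a + 1) / (4 * a) * ((1 - T ^ 2) ^ (a - 1) * √(1 + T ^ 2) / √2)
      * (hsol ha s).P (hv T)) := by
  simp only [uZ]
  rw [P_eq' ha s T]
  ring

/-- the function ε of the flow -/
lemma eps_eq (T : ℝ) : (uZ s).ε T
    = -((2 * a + 1) / (4 * a) * ((1 - T ^ 2) ^ a * √2 / √(1 + T ^ 2))
      * ((hsol ha s).P (hv T) / 2 + (1 - hv T) * (hsol ha s).P1 (hv T))) := by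
  have h1 : (hsol ha s).P (hv T)
      = -4 * a / (2 * a + 1) * √(1 + hv T) / (1 + hv T) ^ 0 * s.P (zt (hv T)) := rfl
  have h1' : (hsol ha s).P1 (hv T)
      = (-4 * a / (2 * a + 1) * (1 / 2 - (0 : ℕ))) * √(1 + hv T) / (1 + hv T) ^ 1 * s.P (zt (hv T))
        + (2 * (-4 * a / (2 * a + 1))) * √(1 + hv T) / (1 + hv T) ^ 2 * s.P1 (zt (hv T)) := rfl
  have h2 := s_pos T
  have h3 := s_sq T
  have h4 : √(2 : ℝ) * √2 = 2 := mul_self_sqrt (by norm_num)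
  have h5 : (0 : ℝ) < √2 := by positivity
  have hn : (2 * a + 1) ≠ 0 := by positivity
  have h6 : (1 : ℝ) + T ^ 2 ≠ 0 := by positivity
  have e1 : (hsol ha s).P (hv T) / 2 + (1 - hv T) * (hsol ha s).P1 (hv T)
      = -4 * a / (2 * a + 1) * (√(1 + T ^ 2) / √2)
        * (s.P (1 - T ^ 2) + 2 * T ^ 2 * s.P1 (1 - T ^ 2)) := by
    rw [h1, h1', zt_hv, sqrt_hv, one_sub_hv, one_add_hv]
    generalize √(1 + T ^ 2) = q at h2 h3 ⊢
    generalize √(2 : ℝ) = r at h4 h5 ⊢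
    have h3' : T ^ 2 = q ^ 2 - 1 := by rw [sq q, h3]; ring
    rw [h3', show (1 : ℝ) + (q ^ 2 - 1) = q ^ 2 by ring]
    push_cast
    field_simp
    linear_combination (-(q ^ 2 * s.P (1 - (q ^ 2 - 1))) + 2 * q ^ 2 * s.P1 (1 - (q ^ 2 - 1))
      - 2 * q ^ 4 * s.P1 (1 - (q ^ 2 - 1))) * h4
  rw [e1]
  simp only [uZ]
  field_simp
  ring

/-- the value at zero -/
lemma eps0_eq : s.P 1 = -((2 * a + 1) / (4 * a) * (1 / √2) * (hsol ha s).P 1) := by
  have h := P_eq' ha s 0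
  rw [hv_zero] at h
  simpa using h

lemma rho_nonpos (hT : T ∈ Ioo (0 : ℝ) 1) (h : 0 ≤ (hsol ha s).P (hv T)) : (uZ s).ρ T ≤ 0 := by
  have hw := w_pos hT
  rw [rho_eq ha s T, neg_nonpos]
  positivity

lemma eps_nonpos (hT : T ∈ Ioo (0 : ℝ) 1)
    (h : 0 ≤ (hsol ha s).P (hv T) / 2 + (1 - hv T) * (hsol ha s).P1 (hv T)) :
    (uZ s).ε T ≤ 0 := by
  have hw := w_pos hT
  rw [eps_eq ha s T, neg_nonpos]
  positivity

/-- bound of ρ relative to e -/
lemma rho_le (hT : T ∈ Ioo (0 : ℝ) 1)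
    (h : (2 * a + 1) * (hsol ha s).P (hv T) ≤ 4 * C * hv T ^ 2 * (hsol ha s).E (hv T)) :
    -((uZ s).ρ T * T) ≤ C * (1 - T ^ 2) * (uZ s).e T := by
  have hw := w_pos hT
  have hT0 := hT.1
  have h2 := s_pos T
  have h3 := s_sq T
  have h4 : √(2 : ℝ) * √2 = 2 := mul_self_sqrt (by norm_num)
  have h5 : (0 : ℝ) < √2 := by positivity
  have hwa : (1 - T ^ 2) ^ a = (1 - T ^ 2) ^ (a - 1) * (1 - T ^ 2) := by
    rw [← rpow_add_one hw.ne']
    congr 1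
    ring
  have hh : hv T = (1 - T ^ 2) / (1 + T ^ 2) := rfl
  rw [rho_eq ha s T, e_eq ha s T, hwa]
  have hK : 0 < (1 - T ^ 2) ^ (a - 1) := by positivity
  generalize (1 - T ^ 2) ^ (a - 1) = K at hK ⊢
  generalize (hsol ha s).P (hv T) = P at h ⊢
  generalize (hsol ha s).E (hv T) = E at h ⊢
  rw [hh] at h
  generalize √(1 + T ^ 2) = q at h2 h3 ⊢
  generalize √(2 : ℝ) = r at h4 h5 ⊢
  have e1 : -(-((2 * a + 1) / (4 * a) * (K * q / r) * P) * T)
      = K * T * q / (4 * a * r) * ((2 * a + 1) * P) := by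
    field_simp
  have e2 : C * (1 - T ^ 2) * (r * (T * (K * (1 - T ^ 2)) * E / (2 * a * ((1 + T ^ 2) * q))))
      = K * T * q / (4 * a * r) * (4 * C * ((1 - T ^ 2) / (1 + T ^ 2)) ^ 2 * E) := by
    have h6 : (1 : ℝ) + T ^ 2 ≠ 0 := by positivity
    have h3' : q ^ 2 = 1 + T ^ 2 := by rw [sq, h3]
    have h4' : r ^ 2 = 2 := by rw [sq, h4]
    field_simp
    rw [h3', h4']
    ring
  rw [e1, e2]
  exact mul_le_mul_of_nonneg_left h (by positivity)

/-- bound of ε relative to e -/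
lemma eps_le (hT : T ∈ Ioo (0 : ℝ) 1)
    (h : (2 * a + 1) * ((hsol ha s).P (hv T) / 2 + (1 - hv T) * (hsol ha s).P1 (hv T))
      ≤ 2 * C * hv T * (hsol ha s).E (hv T)) :
    -((uZ s).ε T * T) ≤ C * (1 - T ^ 2) * (uZ s).e T := by
  have hw := w_pos hT
  have hT0 := hT.1
  have h2 := s_pos T
  have h3 := s_sq T
  have h4 : √(2 : ℝ) * √2 = 2 := mul_self_sqrt (by norm_num)
  have h5 : (0 : ℝ) < √2 := by positivity
  have hh : hv T = (1 - T ^ 2) / (1 + T ^ 2) := rfl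
  rw [eps_eq ha s T, e_eq ha s T]
  have hK : 0 < (1 - T ^ 2) ^ a := by positivity
  generalize (1 - T ^ 2) ^ a = K at hK ⊢
  generalize (hsol ha s).P (hv T) / 2 + (1 - hv T) * (hsol ha s).P1 (hv T) = P at h ⊢
  generalize (hsol ha s).E (hv T) = E at h ⊢
  rw [hh] at h
  generalize √(1 + T ^ 2) = q at h2 h3 ⊢
  generalize √(2 : ℝ) = r at h4 h5 ⊢
  have e1 : -(-((2 * a + 1) / (4 * a) * (K * r / q) * P) * T)
      = K * T * r / (4 * a * q) * ((2 * a + 1) * P) := by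
    field_simp
  have e2 : C * (1 - T ^ 2) * (r * (T * K * E / (2 * a * ((1 + T ^ 2) * q))))
      = K * T * r / (4 * a * q) * (2 * C * ((1 - T ^ 2) / (1 + T ^ 2)) * E) := by
    have h6 : (1 : ℝ) + T ^ 2 ≠ 0 := by positivity
    field_simp
    ring
  rw [e1, e2]
  exact mul_le_mul_of_nonneg_left h (by positivity)

end Vale.Agent.P224.R2.H494.ZT
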