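import Vale.Agent.P224.R2.H494.ZT
import Vale.Agent.P224.R2.H355.HConv
import Vale.Agent.P224.R2.H355.Cls2

/-!
Closeness of the flow of the odd dimension to the weights of the even dimension, in the variable T.
-/

namespace Vale.Agent.P224.R2.H494.ZT

open MeasureTheory Set Filter Function Real Vale.Agent.P224.SM2 Vale.Agent.P224.R2.H925
  Vale.Agent.P224.R2.H424 Vale.Agent.P224.R2.H355 Vale.Agent.P224.R2.H627
open scoped Topology

variable {a L c : ℝ}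

lemma zt_hv (T : ℝ) : zt (hv T) = 1 - T ^ 2 := by
  unfold zt
  rw [one_add_hv]
  unfold hv
  have : (1 : ℝ) + T ^ 2 ≠ 0 := by positivity
  field_simp

lemma sqrt_hv (T : ℝ) : √(1 + hv T) = √2 / √(1 + T ^ 2) := by
  rw [one_add_hv, sqrt_div (by norm_num)]

lemma s_pos (T : ℝ) : 0 < √(1 + T ^ 2) := sqrt_pos.2 (by positivity)

lemma s_sq (T : ℝ) : √(1 + T ^ 2) * √(1 + T ^ 2) = 1 + T ^ 2 := mul_self_sqrt (by positivity)

section

variable (ha : 0 < a) (s : ZSol a L)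

/-- the function y of the flow -/
lemma y_eq (T : ℝ) : s.y (1 - T ^ 2) = √2 * ((hsol ha s).W (hv T) / √(1 + T ^ 2)) := by
  have h1 : (hsol ha s).W (hv T) = 1 * √(1 + hv T) / (1 + hv T) ^ 1 * s.y (zt (hv T)) := rfl
  have h2 := s_pos T
  have h3 := s_sq T
  have h4 : √(2 : ℝ) * √2 = 2 := mul_self_sqrt (by norm_num)
  have h5 : (0 : ℝ) < √2 := by positivity
  rw [h1, zt_hv, sqrt_hv, one_add_hv]
  generalize √(1 + T ^ 2) = q at h2 h3 ⊢
  generalize √(2 : ℝ) = r at h4 h5 ⊢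
  rw [← h3, ← h4]
  field_simp

/-- the function e of the flow -/
lemma E_eq' (T : ℝ) : s.E (1 - T ^ 2)
    = √2 * ((hsol ha s).E (hv T) / (2 * a * ((1 + T ^ 2) * √(1 + T ^ 2)))) := by
  have h1 : (hsol ha s).E (hv T) = 4 * a * √(1 + hv T) / (1 + hv T) ^ 2 * s.E (zt (hv T)) := rfl
  have h2 := s_pos T
  have h3 := s_sq T
  have h4 : √(2 : ℝ) * √2 = 2 := mul_self_sqrt (by norm_num)
  have h5 : (0 : ℝ) < √2 := by positivity
  rw [h1, zt_hv, sqrt_hv, one_add_hv]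
  generalize √(1 + T ^ 2) = q at h2 h3 ⊢
  generalize √(2 : ℝ) = r at h4 h5 ⊢
  rw [← h3, show (4 : ℝ) * a = 2 * a * (r * r) by rw [h4]; ring,
    show (2 : ℝ) / (q * q) = r * r / (q * q) by rw [h4]]
  field_simp

/-- the constant of the comparison -/
noncomputable def K0 (a c : ℝ) : ℝ := √2 / Wf a c 1

lemma K0_pos (hc : 0 < c) (ha2 : 2 ≤ a) : 0 < K0 a c := by
  have := Wf_pos (T := 1) hc ha2
  unfold K0
  positivity

include ha in
lemma hF_eq {T : ℝ} (hT : T ∈ Ioo (0 : ℝ) 1) :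
    hF a c T = Ef a c T / (2 * a * ((1 + T ^ 2) * √(1 + T ^ 2))) := by
  have h2 := s_pos T
  have hT0 := hT.1.ne'
  unfold hF Ef
  have : (1 : ℝ) + T ^ 2 ≠ 0 := by positivity
  field_simp

end

section

variable {T κ φ : ℝ} (ha : 17 / 2 ≤ a) (hL : 0 ≤ L) (hc : 0 < c) (s : ZSol a L)
  (hκ : 0 ≤ κ) (hκ' : κ ≤ 160) (hφ : 0 ≤ φ) (hφ' : φ ≤ 37 / 5)
  (st : Stg κ φ (hsol (by linarith) s))

/-- the relative error -/
noncomputable def ηu' (a L : ℝ) : ℝ := 35 / 2 * L / (8 * a)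
/-- the relative error -/
noncomputable def ηl' (a L : ℝ) : ℝ := 31 / 2 * L / (8 * a)

include hL hc st

lemma y_ge (hT : T ∈ Ioo (0 : ℝ) 1) :
    K0 a c * yF a c T ≤ (uZ s).y T := by
  have ha0 : 0 < a := by linarith
  have h1 := W_ge st hL hc (by linarith) hT
  have hk := w_pos hT
  have h2 := s_pos T
  have e : (uZ s).y T = √2 * (1 - T ^ 2) ^ (a - 1) / √(1 + T ^ 2) * (hsol ha0 s).W (hv T) := by
    simp only [uZ]
    rw [y_eq ha0 s T]
    ring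
  have e2 : K0 a c * yF a c T = √2 * (1 - T ^ 2) ^ (a - 1) / √(1 + T ^ 2)
      * (1 / Wf a c 1 * Wf a c T) := by
    unfold K0 yF
    rw [show Wf a c T = c * II a T * √(1 + T ^ 2) from rfl]
    field_simp
  rw [e, e2]
  exact mul_le_mul_of_nonneg_left h1 (by positivity)

include hκ hκ' hφ hφ'

lemma y_le (hT : T ∈ Ioo (0 : ℝ) 1) :
    (uZ s).y T ≤ K0 a c * (1 + ηu' a L) * yF a c T := by
  have ha0 : 0 < a := by linarith
  have h0 := W_le st hL hκ hφ hc (by linarith) hT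
  have h3 := ηu_le hL hκ' hφ' ha
  have hk := w_pos hT
  have h2 := s_pos T
  have hw1 := Wf_pos (T := 1) hc (by linarith : 2 ≤ a)
  have hw := Wf_pos (T := T) hc (by linarith : 2 ≤ a)
  have h1 : (hsol ha0 s).W (hv T) ≤ 1 / Wf a c 1 * (1 + ηu' a L) * Wf a c T := by
    refine h0.trans ?_
    have : 1 + ηu a L φ κ ≤ 1 + ηu' a L := by
      unfold ηu'
      linarith
    gcongr
  have e : (uZ s).y T = √2 * (1 - T ^ 2) ^ (a - 1) / √(1 + T ^ 2) * (hsol ha0 s).W (hv T) := by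
    simp only [uZ]
    rw [y_eq ha0 s T]
    ring
  have e2 : K0 a c * (1 + ηu' a L) * yF a c T = √2 * (1 - T ^ 2) ^ (a - 1) / √(1 + T ^ 2)
      * (1 / Wf a c 1 * (1 + ηu' a L) * Wf a c T) := by
    unfold K0 yF
    rw [show Wf a c T = c * II a T * √(1 + T ^ 2) from rfl]
    field_simp
  rw [e, e2]
  exact mul_le_mul_of_nonneg_left h1 (by positivity)

/-- pointwise bound of the integrand of r -/
lemma E_le' (hT : T ∈ Ioo (0 : ℝ) 1) :
    s.E (1 - T ^ 2) ≤ K0 a c * (1 + ηu' a L) * hF a c T := by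
  have ha0 : 0 < a := by linarith
  have h0 := E_le st hL hκ hφ hc (by linarith) hT
  have h3 := ηu_le hL hκ' hφ' ha
  have h2 := s_pos T
  have hw1 := Wf_pos (T := 1) hc (by linarith : 2 ≤ a)
  have hF0 := hF_nonneg (a := a) hc.le (Ioo_subset_Icc_self hT)
  have hE0 : 0 ≤ Ef a c T := by
    have e := hF_eq (c := c) ha0 hT
    rw [e] at hF0
    have hp : 0 < 2 * a * ((1 + T ^ 2) * √(1 + T ^ 2)) := by positivity
    have := mul_nonneg hF0 hp.le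
    rwa [div_mul_cancel₀ _ hp.ne'] at this
  have h1 : (hsol ha0 s).E (hv T) ≤ 1 / Wf a c 1 * (1 + ηu' a L) * Ef a c T := by
    refine h0.trans ?_
    have : 1 + ηu a L φ κ ≤ 1 + ηu' a L := by
      unfold ηu'
      linarith
    gcongr
  rw [E_eq' ha0 s T, hF_eq ha0 hT]
  have e2 : K0 a c * (1 + ηu' a L) * (Ef a c T / (2 * a * ((1 + T ^ 2) * √(1 + T ^ 2))))
      = √2 * ((1 / Wf a c 1 * (1 + ηu' a L) * Ef a c T) / (2 * a * ((1 + T ^ 2) * √(1 + T ^ 2)))) := by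
    unfold K0
    ring
  rw [e2]
  gcongr

omit hφ hφ' in
lemma E_ge' (hT : T ∈ Ioo (0 : ℝ) 1) :
    K0 a c * (1 - ηl' a L) * hF a c T ≤ s.E (1 - T ^ 2) := by
  have ha0 : 0 < a := by linarith
  have h0 := E_ge st hL hκ hκ' hc ha hT
  have h2 := s_pos T
  rw [E_eq' ha0 s T, hF_eq ha0 hT]
  have e2 : K0 a c * (1 - ηl' a L) * (Ef a c T / (2 * a * ((1 + T ^ 2) * √(1 + T ^ 2))))
      = √2 * ((1 / Wf a c 1 * (1 - 31 / 2 * L / (8 * a)) * Ef a c T)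
        / (2 * a * ((1 + T ^ 2) * √(1 + T ^ 2)))) := by
    unfold K0 ηl'
    ring
  rw [e2]
  gcongr

lemma eF_eq (hT : T ∈ Ioo (0 : ℝ) 1) : eF a c T = T * ((1 - T ^ 2) ^ a * hF a c T) := by
  have hk := w_pos hT
  have hT0 := hT.1.ne'
  have e : (1 - T ^ 2) ^ a * (1 - T ^ 2) ^ (-a) = 1 := by
    rw [← rpow_add hk, add_neg_cancel, rpow_zero]
  unfold hF
  calc eF a c T = eF a c T * ((1 - T ^ 2) ^ a * (1 - T ^ 2) ^ (-a)) := by rw [e, mul_one]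
    _ = _ := by field_simp

lemma e_le (hT : T ∈ Ioo (0 : ℝ) 1) : (uZ s).e T ≤ K0 a c * (1 + ηu' a L) * eF a c T := by
  have h1 := E_le' ha hL hc s hκ hκ' hφ hφ' st hT
  have hk := w_pos hT
  have hT0 := hT.1
  rw [eF_eq ha hL hc s hκ hκ' hφ hφ' st hT]
  calc (uZ s).e T = T * ((1 - T ^ 2) ^ a * s.E (1 - T ^ 2)) := rfl
    _ ≤ T * ((1 - T ^ 2) ^ a * (K0 a c * (1 + ηu' a L) * hF a c T)) := by gcongr
    _ = _ := by ring

lemma e_ge (hT : T ∈ Ioo (0 : ℝ) 1) : K0 a c * (1 - ηl' a L) * eF a c T ≤ (uZ s).e T := by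
  have h1 := E_ge' ha hL hc s hκ hκ' st hT
  have hk := w_pos hT
  have hT0 := hT.1
  rw [eF_eq ha hL hc s hκ hκ' hφ hφ' st hT]
  calc K0 a c * (1 - ηl' a L) * (T * ((1 - T ^ 2) ^ a * hF a c T))
      = T * ((1 - T ^ 2) ^ a * (K0 a c * (1 - ηl' a L) * hF a c T)) := by ring
    _ ≤ T * ((1 - T ^ 2) ^ a * s.E (1 - T ^ 2)) := by gcongr
    _ = _ := rfl

lemma JE_le (hT : T ∈ Ico (0 : ℝ) 1) :
    JE s T ≤ K0 a c * (1 + ηu' a L) * ∫ x in T..1, hF a c x := by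
  rw [← intervalIntegral.integral_const_mul]
  refine intervalIntegral.integral_mono_on_of_le_Ioo hT.2.le (intble_E s ⟨hT.1, hT.2.le⟩)
    ((intble_hF hc.le (by linarith) ⟨hT.1, hT.2.le⟩).const_mul _) fun x hx => ?_
  exact E_le' ha hL hc s hκ hκ' hφ hφ' st ⟨hT.1.trans_lt hx.1, hx.2⟩

lemma JE_ge (hT : T ∈ Ico (0 : ℝ) 1) :
    K0 a c * (1 - ηl' a L) * ∫ x in T..1, hF a c x ≤ JE s T := by
  rw [← intervalIntegral.integral_const_mul]
  refine intervalIntegral.integral_mono_on_of_le_Ioo hT.2.le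
    ((intble_hF hc.le (by linarith) ⟨hT.1, hT.2.le⟩).const_mul _)
    (intble_E s ⟨hT.1, hT.2.le⟩) fun x hx => ?_
  exact E_ge' ha hL hc s hκ hκ' st ⟨hT.1.trans_lt hx.1, hx.2⟩

lemma r_le (hT : T ∈ Ico (0 : ℝ) 1) : (uZ s).r T ≤ K0 a c * (1 + ηu' a L) * rF a c T := by
  have h1 := JE_le ha hL hc s hκ hκ' hφ hφ' st hT
  have hk : 0 < 1 - T ^ 2 := by nlinarith [hT.1, hT.2]
  have e : rF a c T = (1 - T ^ 2) ^ (a - 1) * ∫ x in T..1, hF a c x := rfl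
  rw [e]
  calc (uZ s).r T = (1 - T ^ 2) ^ (a - 1) * JE s T := rfl
    _ ≤ (1 - T ^ 2) ^ (a - 1) * (K0 a c * (1 + ηu' a L) * ∫ x in T..1, hF a c x) := by gcongr
    _ = _ := by ring

lemma r_ge (hT : T ∈ Ico (0 : ℝ) 1) : K0 a c * (1 - ηl' a L) * rF a c T ≤ (uZ s).r T := by
  have h1 := JE_ge ha hL hc s hκ hκ' hφ hφ' st hT
  have hk : 0 < 1 - T ^ 2 := by nlinarith [hT.1, hT.2]
  have e : rF a c T = (1 - T ^ 2) ^ (a - 1) * ∫ x in T..1, hF a c x := rfl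
  rw [e]
  calc K0 a c * (1 - ηl' a L) * ((1 - T ^ 2) ^ (a - 1) * ∫ x in T..1, hF a c x)
      = (1 - T ^ 2) ^ (a - 1) * (K0 a c * (1 - ηl' a L) * ∫ x in T..1, hF a c x) := by ring
    _ ≤ (1 - T ^ 2) ^ (a - 1) * JE s T := by gcongr
    _ = _ := rfl

end

end Vale.Agent.P224.R2.H494.ZT
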