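import Vale.Agent.P224.R2.H494.SD2
import Vale.Agent.P224.R2.H925.In
import Vale.Agent.P224.R2.H460.Cl4

/-!
The small deviation: the first square bounds the deviation by `6 / m` when the defect is at most
`167 / m ^ 3`.
-/

namespace Vale.Agent.P224.R2.H494

open MeasureTheory Set Filter Function Real Module Matrix Vale.Agent.P224 Vale.Agent.P224.FV
  Vale.Agent.P224.R2.H820 Vale.Agent.P224.R2.H582 Vale.Agent.P224.R2.H627
  Vale.Agent.P224.R2.H728 Vale.Agent.P224.R2.H484 Vale.Agent.P224.R2.H925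
open Vale.Agent.P224.SM2 hiding ker
open scoped Topology RealInnerProductSpace ContDiff Manifold

set_option linter.unusedSectionVars false

section

variable {m : ℕ}

/-- the zeroth moment of `y` is small -/
lemma YM0_le_small (hm : 400 ≤ m) : YM m 0 ≤ 9 / 100 := by
  have hmR : (400 : ℝ) ≤ m := by exact_mod_cast hm
  have h1 := YB_le (m := m) (by omega)
  have h2 := BM_sq_ge (m := m) (by omega)
  have h3 := BM_pos (m := m) (by omega)
  have hpi := Real.pi_lt_d2
  have hpi0 := Real.pi_pos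
  by_contra hc
  push Not at hc
  have e1 : π / 2 / (m - 1 + 1 / (2 * m - 1)) ≤ π / 2 / (m - 1) := by
    refine div_le_div_of_nonneg_left (by positivity) (by linarith) ?_
    have : (0 : ℝ) ≤ 1 / (2 * m - 1) := div_nonneg (by norm_num) (by linarith)
    linarith
  have e2 : 9 / 100 * BM m ≤ π / 2 / (m - 1) :=
    (mul_le_mul_of_nonneg_right hc.le h3.le).trans (h1.trans e1)
  have e3 : (9 / 100 * BM m) ^ 2 ≤ (π / 2 / (m - 1)) ^ 2 := pow_le_pow_left₀ (by positivity) e2 2
  have e4 : π / (2 * m) ≤ BM m ^ 2 := by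
    refine le_trans ?_ h2
    refine div_le_div_of_nonneg_left hpi0.le ?_ ?_
    · have : (0 : ℝ) ≤ 1 / (4 * m - 2) := div_nonneg (by norm_num) (by linarith)
      linarith
    · have : (1 : ℝ) / (4 * m - 2) ≤ 1 := by
        rw [div_le_one (by linarith)]
        linarith
      linarith
  have e5 : 81 / 10000 * (π / (2 * m)) ≤ π ^ 2 / 4 / (m - 1) ^ 2 := by
    have k1 : (9 / 100 * BM m) ^ 2 = 81 / 10000 * BM m ^ 2 := by ring
    have k2 : (π / 2 / ((m : ℝ) - 1)) ^ 2 = π ^ 2 / 4 / (m - 1) ^ 2 := by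
      rw [div_pow, div_pow]
      norm_num
    rw [k1, k2] at e3
    linarith
  have h5 : (0 : ℝ) < (m : ℝ) - 1 := by linarith
  rw [le_div_iff₀ (by positivity)] at e5
  have e6 : 81 / 10000 * (π / (2 * m)) * ((m : ℝ) - 1) ^ 2
      = π * (81 / 20000 * (((m : ℝ) - 1) ^ 2 / m)) := by
    field_simp
    ring
  rw [e6] at e5
  have e7 : (398 : ℝ) ≤ ((m : ℝ) - 1) ^ 2 / m := by
    rw [le_div_iff₀ (by linarith)]
    nlinarith
  have e8 : π * (81 / 20000 * 398) ≤ π * (81 / 20000 * (((m : ℝ) - 1) ^ 2 / m)) :=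
    mul_le_mul_of_nonneg_left (by linarith) hpi0.le
  nlinarith

/-- the weight of the second term of the first square -/
lemma e1_small (hm : 400 ≤ m) : 0 ≤ m * (m + 1) * EM m 1 ∧ m * (m + 1) * EM m 1 ≤ 9 / 100 := by
  have hmR : (400 : ℝ) ≤ m := by exact_mod_cast hm
  have h4 : 4 ≤ m := by omega
  have h1 := EM_ef h4 1
  have h2 := YM_two h4
  have h3 := YM0_le_small hm
  have h5 := (YM_pos h4 0).le
  have e1 : YM m 2 = YM m 0 / (m + 2) := by
    rw [eq_div_iff (by positivity)]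
    linarith
  have e2 : (m : ℝ) * (m + 1) * EM m 1
      = m * m * (m + 1) / ((m + 2) * (m + 4) * (m + 6)) * YM m 0 := by
    rw [h1, show 1 + 1 = 2 from rfl, e1]
    unfold ef
    push_cast
    field_simp
    ring
  rw [e2]
  have e3 : (m : ℝ) * m * (m + 1) / ((m + 2) * (m + 4) * (m + 6)) ≤ 1 := by
    rw [div_le_one (by positivity)]
    nlinarith
  constructor
  · positivity
  · exact (mul_le_of_le_one_left h5 e3).trans h3

/-- the constant of the mean normal -/
lemma g0_small (hm : 400 ≤ m) : m * rM m 0 ≤ 474 / 1000 := by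
  have h := le_gq2 (m := m) (by omega)
  refine h.trans ?_
  have hm' : (400 : ℚ) ≤ m := by exact_mod_cast hm
  have h1 : gq2 m ≤ 474 / 1000 := by
    unfold gq2
    have k1 : (1 : ℚ) / m ≤ 1 / 400 := div_le_div_of_nonneg_left (by norm_num) (by norm_num) hm'
    have k2 : (0 : ℚ) ≤ 1 / m := by positivity
    have e1 : (7 / 10 / m : ℚ) = 7 / 10 * (1 / m) := by ring
    have e2 : (51118 / 86625 / m ^ 2 : ℚ) = 51118 / 86625 * ((1 / m) * (1 / m)) := by
      field_simp
    have k3 : (1 : ℚ) / m * (1 / m) ≤ 1 / 400 * (1 / 400) := mul_le_mul k1 k1 k2 (by norm_num)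
    rw [e1, e2]
    linarith
  have h2 := (Rat.cast_le (K := ℝ)).2 h1
  push_cast at h2
  linarith

end

section

variable {V W M : Type*} [NormedAddCommGroup V] [InnerProductSpace ℝ V] [FiniteDimensional ℝ V]
  [NormedAddCommGroup W] [InnerProductSpace ℝ W] [FiniteDimensional ℝ W]
  [TopologicalSpace M] [ChartedSpace V M]
  [MeasurableSpace V] [BorelSpace V] [MeasurableSpace M] [BorelSpace M]
  [MeasurableSpace W] [BorelSpace W] [IsManifold 𝓘(ℝ, V) ∞ M]
  [CompactSpace M] [T2Space M]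

/-- **The small deviation**: when the defect is at most `167 / m ^ 3` and the volume is at most
the one of the model then the deviation is at most `6 / m`. -/
theorem small_d [Nonempty M] {m : ℕ} (hm : 400 ≤ m) (hmm : m = finrank ℝ V)
    (hW : finrank ℝ W = finrank ℝ V + 2)
    {F : M → W} (hF : SphImm V F) (hmin : ∀ x n, IsUnitNormal V F x n → meanCurv V F x n = 0)
    {N : M → W} (hNs : ContMDiff 𝓘(ℝ, V) 𝓘(ℝ, W) ∞ N) (hN : ∀ x, IsUnitNormal V F x (N x))
    (hinj : Injective F) {ι : Type*} [Fintype ι] [DecidableEq ι] (b : OrthonormalBasis ι ℝ W)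
    {j : ι → ℝ} (hL : LSq (nrm (volM V F)) (diagonal j) (co b F) (co b N))
    {lam be' : ℝ → ℝ} {T1 : ℝ} (hfr : Fra m lam be' T1)
    (hH : hh (nrm (volM V F)) (diagonal j) (co b F) (co b N) ≤ 167 / (m : ℝ) ^ 3)
    (hab : AbsTail (volM V F) m F N (fun T => (1 - T ^ 2) * lam T)
      (1 / 10 * hh (nrm (volM V F)) (diagonal j) (co b F) (co b N)))
    (hA : 1 < 2 * lamM m * (sphereVol m / (volM V F).real univ) + 1 / (3 * (m : ℝ) ^ 3)) :
    √(fro (De (nrm (volM V F)) (co b F) (co b N))) ≤ 6 / m := by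
  have hmR : (400 : ℝ) ≤ m := by exact_mod_cast hm
  have hT0 : T0Data (nrm (volM V F)) m (co b F) (co b N) := by
    rw [hmm]
    exact t0Data_of_min (by omega) hW hF hmin hNs hN b
  obtain ⟨τ, hτ, h1⟩ := first_of (by omega) hW hF hmin hNs hN hinj b hmm hfr hab
  obtain ⟨e0, e1⟩ := e1_small hm
  have huh := H460.uu_le_hh (by omega) hW hF hmin hNs hN b j
  refine small_abs hT0 hmR hL e0 e1 (g0_small hm) huh hH hτ ?_
  have eu : uu (nrm (volM V F)) (co b N) = ∑ i, m1 (nrm (volM V F)) (co b N) i ^ 2 := rfl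
  rw [eu]
  linarith

end

end Vale.Agent.P224.R2.H494
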