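import Vale.Agent.P224.R2.H494.MOp
import Vale.Agent.P224.SM2.Odd

/-!
Odd dimension: facts on the base functions.
-/

namespace Vale.Agent.P224.R2.H494

open MeasureTheory Set Filter Function Real Vale.Agent.P224.SM2
open scoped Topology

lemma hasDerivAt_I {a : ℝ} (ha : 2 ≤ a) {T : ℝ} (hT : T ∈ Ioo (0 : ℝ) 1) :
    HasDerivAt (II a) (-((II a T - Jc a T) / T)) T := by
  refine (hasDerivAt_II (by linarith) hT.1).congr_deriv ?_
  have h := II_rel (a := a) (by linarith) hT.1.ne'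
  have h0 := hT.1.ne'
  rw [← h]
  field_simp
  ring

lemma hasDerivAt_J {a : ℝ} (ha : 2 ≤ a) {T : ℝ} (hT : T ∈ Ioo (0 : ℝ) 1) :
    HasDerivAt (Jc a) (-(a * (II a T - (1 + T ^ 2) * Jc a T) / (T * (1 - T ^ 2)))) T := by
  refine (hasDerivAt_Jc (by linarith) hT.1).congr_deriv ?_
  have h := Jc_rel (a := a) (by linarith) hT.1.ne'
  have h0 := hT.1.ne'
  have h1 := (one_sub_sq_pos hT).ne'
  rw [← h]
  field_simp

/-- the kernel of the base solution -/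
noncomputable def bb (a T : ℝ) : ℝ := (1 - T ^ 2) ^ a * (2 * Jc a T - II a T)

noncomputable def Vb (a T : ℝ) : ℝ := 2 * a * II a T - 2 * Jc a T

noncomputable def eb (a T : ℝ) : ℝ := M a (fun x => 1 / 2 * ((1 - x ^ 2) ^ a * Jc a x)) T

noncomputable def gb (a T : ℝ) : ℝ := M a (fun x => √(1 - x ^ 2) * eb a x) T

lemma hasDerivAt_w (T : ℝ) : HasDerivAt (fun T : ℝ => 1 - T ^ 2) (-(2 * T)) T := by
  simpa using (hasDerivAt_pow 2 T).const_sub 1

lemma hasDerivAt_wpow (b : ℝ) {T : ℝ} (hT : T ∈ Ioo (0 : ℝ) 1) :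
    HasDerivAt (fun T : ℝ => (1 - T ^ 2) ^ b) (-(2 * b * T * ((1 - T ^ 2) ^ b / (1 - T ^ 2)))) T := by
  have hw := one_sub_sq_pos hT
  refine ((hasDerivAt_w T).rpow_const (p := b) (Or.inl hw.ne')).congr_deriv ?_
  rw [rpow_sub_one hw.ne']
  ring

lemma w_succ {b T : ℝ} (hT : T ∈ Ioo (0 : ℝ) 1) :
    (1 - T ^ 2) ^ (b + 1) = (1 - T ^ 2) ^ b * (1 - T ^ 2) := rpow_add_one (one_sub_sq_pos hT).ne' b

lemma w_le_one {T : ℝ} : 1 - T ^ 2 ≤ 1 := by nlinarith [sq_nonneg T]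

lemma hasDerivAt_bb {a : ℝ} (ha : 2 ≤ a) {T : ℝ} (hT : T ∈ Ioo (0 : ℝ) 1) :
    HasDerivAt (bb a) ((2 * a - 1) * (1 - T ^ 2) ^ a * (Jc a T - II a T) / T) T := by
  have h1 := (hasDerivAt_wpow a hT).fun_mul
    (((hasDerivAt_J ha hT).const_mul 2).fun_sub (hasDerivAt_I ha hT))
  refine h1.congr_deriv ?_
  have h0 := hT.1.ne'
  have hw := (one_sub_sq_pos hT).ne'
  field_simp
  ring

lemma hasDerivAt_Vb {a : ℝ} (ha : 2 ≤ a) {T : ℝ} (hT : T ∈ Ioo (0 : ℝ) 1) :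
    HasDerivAt (Vb a) (-(2 * a * (T * bb a T * (1 - T ^ 2) ^ (-a - 1)))) T := by
  have h1 := ((hasDerivAt_I ha hT).const_mul (2 * a)).fun_sub ((hasDerivAt_J ha hT).const_mul 2)
  refine h1.congr_deriv ?_
  have h0 := hT.1.ne'
  have hw := one_sub_sq_pos hT
  have e : (1 - T ^ 2) ^ a * (1 - T ^ 2) ^ (-a - 1) = (1 - T ^ 2)⁻¹ := by
    rw [← rpow_add hw, show a + (-a - 1) = -1 by ring, rpow_neg_one]
  have e2 : T * bb a T * (1 - T ^ 2) ^ (-a - 1) = T * (2 * Jc a T - II a T) * (1 - T ^ 2)⁻¹ := by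
    rw [← e]
    unfold bb
    ring
  rw [e2]
  have hw' := hw.ne'
  field_simp
  ring

lemma continuous_bb {a : ℝ} (ha : 2 ≤ a) : Continuous (bb a) :=
  ((continuous_const.sub (continuous_id.pow 2)).rpow_const fun _ => Or.inr (by linarith)).mul
    ((continuous_const.mul (continuous_Jc ha)).sub (continuous_II ha))

lemma continuous_Vb {a : ℝ} (ha : 2 ≤ a) : Continuous (Vb a) :=
  (continuous_const.mul (continuous_II ha)).sub (continuous_const.mul (continuous_Jc ha))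

lemma bb_one {a : ℝ} (ha : 2 ≤ a) : bb a 1 = 0 := by
  unfold bb
  rw [show (1 : ℝ) - 1 ^ 2 = 0 by norm_num, zero_rpow (by linarith), zero_mul]

lemma bb_nonneg {a : ℝ} (ha : 2 ≤ a) {T : ℝ} (hT : T ∈ Icc (0 : ℝ) 1) : 0 ≤ bb a T := by
  have hanti : AntitoneOn (bb a) (Icc 0 1) := by
    refine antitoneOn_of_deriv_nonpos (convex_Icc _ _) (continuous_bb ha).continuousOn ?_ ?_
    · intro x hx
      rw [interior_Icc] at hx
      exact (hasDerivAt_bb ha hx).differentiableAt.differentiableWithinAt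
    · intro x hx
      rw [interior_Icc] at hx
      rw [(hasDerivAt_bb ha hx).deriv]
      have h1 := Jc_le_II ha (T := x) ⟨hx.1.le, hx.2⟩
      have h2 : 0 ≤ (2 * a - 1) * (1 - x ^ 2) ^ a :=
        mul_nonneg (by linarith) (rpow_nonneg (one_sub_sq_pos hx).le _)
      exact div_nonpos_of_nonpos_of_nonneg
        (mul_nonpos_of_nonneg_of_nonpos h2 (by linarith)) hx.1.le
  have h := hanti hT (right_mem_Icc.2 zero_le_one) hT.2
  rwa [bb_one ha] at h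

lemma Vb_anti {a : ℝ} (ha : 2 ≤ a) : AntitoneOn (Vb a) (Icc 0 1) := by
  refine antitoneOn_of_deriv_nonpos (convex_Icc _ _) (continuous_Vb ha).continuousOn ?_ ?_
  · intro x hx
    rw [interior_Icc] at hx
    exact (hasDerivAt_Vb ha hx).differentiableAt.differentiableWithinAt
  · intro x hx
    rw [interior_Icc] at hx
    rw [(hasDerivAt_Vb ha hx).deriv]
    have h1 := bb_nonneg ha (Ioo_subset_Icc_self hx)
    have h2 : 0 ≤ (1 - x ^ 2) ^ (-a - 1) := rpow_nonneg (one_sub_sq_pos hx).le _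
    have h3 := hx.1.le
    have : 0 ≤ 2 * a * (x * bb a x * (1 - x ^ 2) ^ (-a - 1)) := by positivity
    linarith

lemma Jc_one_le {a : ℝ} (ha : 2 ≤ a) : 2 * Jc a 1 ≤ II a 1 := by
  have h1 : Tendsto (fun T => (1 + T ^ 2) * Jc a T) (𝓝[<] 1) (𝓝 ((1 + 1 ^ 2) * Jc a 1)) := by
    refine Tendsto.mono_left ?_ nhdsWithin_le_nhds
    exact ((continuous_const.add (continuous_id.pow 2)).mul (continuous_Jc ha)).tendsto 1
  have h2 : Tendsto (II a) (𝓝[<] 1) (𝓝 (II a 1)) :=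
    ((continuous_II ha).tendsto 1).mono_left nhdsWithin_le_nhds
  have h3 := le_of_tendsto_of_tendsto h1 h2 (by
    rw [← nhdsWithin_Ioo_eq_nhdsLT (show (0 : ℝ) < 1 by norm_num)]
    filter_upwards [self_mem_nhdsWithin] with x hx
    exact Jc_le ha hx)
  linarith

/-- the variation of the conserved base function -/
lemma Vb_one_ge {a : ℝ} (ha : 2 ≤ a) {T : ℝ} (hT : T ∈ Icc (0 : ℝ) 1) :
    7 / 10 * Vb a T ≤ Vb a 1 := by
  have h1 := Vb_anti ha (left_mem_Icc.2 zero_le_one) hT hT.1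
  have h2 := Rr_ge ha
  have hI0 := II_pos ha 0
  have hI1 := II_pos ha 1
  have h3 : (14 / 10 : ℝ) ≤ √2 * ((8 * a + 8) / (8 * a + 7)) := by
    have e1 : (14 / 10 : ℝ) ≤ √2 := by
      rw [show (14 / 10 : ℝ) = √((14 / 10) ^ 2) by rw [sqrt_sq (by norm_num)]]
      exact sqrt_le_sqrt (by norm_num)
    have e2 : (1 : ℝ) ≤ (8 * a + 8) / (8 * a + 7) := by
      rw [one_le_div (by linarith)]
      linarith
    calc (14 / 10 : ℝ) = 14 / 10 * 1 := by ring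
      _ ≤ √2 * ((8 * a + 8) / (8 * a + 7)) := mul_le_mul e1 e2 zero_le_one (sqrt_nonneg _)
  have h4 : (14 / 10 : ℝ) ≤ Rr a := h3.trans h2
  unfold Rr at h4
  have ha1 : 0 < a - 1 := by linarith
  rw [div_mul_div_comm, le_div_iff₀ (by positivity)] at h4
  have h5 := Jc_one_le ha
  have h6 : Vb a 0 = (2 * a - 2) * II a 0 := by
    unfold Vb
    rw [Jc_zero]
    ring
  have h7 : (2 * a - 1) * II a 1 ≤ Vb a 1 := by
    unfold Vb
    linarith
  have h8 : Vb a T ≤ (2 * a - 2) * II a 0 := h6 ▸ h1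
  linarith

lemma Vb_pos {a : ℝ} (ha : 2 ≤ a) {T : ℝ} (hT : T ∈ Ico (0 : ℝ) 1) : 0 < Vb a T := by
  have h1 := Jc_le_II ha hT
  have h2 := II_pos ha T
  unfold Vb
  have : 0 < (2 * a - 2) * II a T := mul_pos (by linarith) h2
  linarith

lemma Vb_one_pos {a : ℝ} (ha : 2 ≤ a) : 0 < Vb a 1 := by
  have := Vb_one_ge ha (T := 1 / 2) (by norm_num)
  have := Vb_pos ha (T := 1 / 2) (by norm_num)
  linarith

lemma CB_bb {a : ℝ} (ha : 2 ≤ a) : CB (bb a) := CB.of_cont (continuous_bb ha).continuousOn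

lemma CB_Vb {a : ℝ} (ha : 2 ≤ a) : CB (Vb a) := CB.of_cont (continuous_Vb ha).continuousOn

lemma CB_wJ {a : ℝ} (ha : 2 ≤ a) : CB fun x => 1 / 2 * ((1 - x ^ 2) ^ a * Jc a x) :=
  (CB.const _).mul ((CB.omega (by linarith)).mul (CB.of_cont (continuous_Jc ha).continuousOn))

lemma CB_eb {a : ℝ} (ha : 2 ≤ a) : CB (eb a) := (CB_wJ ha).M (by linarith)

lemma CB_sqrt : CB fun x => √(1 - x ^ 2) :=
  CB.of_cont (Continuous.continuousOn (by fun_prop))

lemma CB_seb {a : ℝ} (ha : 2 ≤ a) : CB fun x => √(1 - x ^ 2) * eb a x := CB_sqrt.mul (CB_eb ha)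

lemma CB_gb {a : ℝ} (ha : 2 ≤ a) : CB (gb a) := (CB_seb ha).M (by linarith)

lemma hasDerivAt_eb {a : ℝ} (ha : 2 ≤ a) {T : ℝ} (hT : T ∈ Ioo (0 : ℝ) 1) :
    HasDerivAt (eb a) (((a - 1) * eb a T - 1 / 2 * ((1 - T ^ 2) ^ a * Jc a T)) / T) T :=
  hasDerivAt_M (CB_wJ ha) a hT

lemma hasDerivAt_gb {a : ℝ} (ha : 2 ≤ a) {T : ℝ} (hT : T ∈ Ioo (0 : ℝ) 1) :
    HasDerivAt (gb a) (((a - 1) * gb a T - √(1 - T ^ 2) * eb a T) / T) T :=
  hasDerivAt_M (CB_seb ha) a hT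

lemma wJ_nonneg (a : ℝ) {T : ℝ} (hT : T ∈ Ioo (0 : ℝ) 1) : 0 ≤ (1 - T ^ 2) ^ a * Jc a T :=
  mul_nonneg (rpow_nonneg (one_sub_sq_pos hT).le _) (Jc_nonneg a T)

lemma eb_nonneg {a : ℝ} (ha : 2 ≤ a) {T : ℝ} (hT : T ∈ Ioc (0 : ℝ) 1) : 0 ≤ eb a T :=
  M_nonneg a hT (fun x hx => by have := wJ_nonneg a hx; positivity) (CB_wJ ha)

lemma gb_nonneg {a : ℝ} (ha : 2 ≤ a) {T : ℝ} (hT : T ∈ Ioc (0 : ℝ) 1) : 0 ≤ gb a T :=
  M_nonneg a hT (fun x hx => mul_nonneg (sqrt_nonneg _) (eb_nonneg ha (Ioo_subset_Ioc_self hx)))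
    (CB_seb ha)

/-- (F2) the base equation -/
theorem bb_eq {a : ℝ} (ha : 2 ≤ a) {T : ℝ} (hT : T ∈ Ioc (0 : ℝ) 1) :
    M a (fun x => 1 / 2 * ((1 - x ^ 2) ^ a * Vb a x)) T = bb a T := by
  refine M_eq (Γ' := fun T => (2 * a - 1) * (1 - T ^ 2) ^ a * (Jc a T - II a T) / T)
    ((CB.const _).mul ((CB.omega (by linarith)).mul (CB_Vb ha))) a
    (continuous_bb ha).continuousOn (bb_one ha) (fun T hT => hasDerivAt_bb ha hT)
    (fun T hT => ?_) hT
  have h0 := hT.1.ne'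
  unfold bb Vb
  field_simp
  ring

/-- general bound for nonincreasing functions -/
theorem M_le_anti {f f' : ℝ → ℝ} {a : ℝ} (ha : 1 < a) (h : CB f) (hc : ContinuousOn f (Ioc 0 1))
    (h1 : 0 ≤ f 1) (hd : ∀ T ∈ Ioo (0 : ℝ) 1, HasDerivAt f (f' T) T)
    (hn : ∀ T ∈ Ioo (0 : ℝ) 1, T * f' T ≤ 0) {T : ℝ} (hT : T ∈ Ioc (0 : ℝ) 1) :
    M a f T ≤ f T / (a - 1) := by
  have ha1 : 0 < a - 1 := by linarith
  refine M_le (Γ := fun T => f T / (a - 1)) (Γ' := fun T => f' T / (a - 1)) h a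
    (hc.div_const _) (by positivity) (fun T hT => (hd T hT).div_const _) (fun T hT => ?_) hT
  have h2 := hn T hT
  have e1 : (a - 1) * (f T / (a - 1)) = f T := by field_simp
  have e2 : T * (f' T / (a - 1)) = T * f' T / (a - 1) := by ring
  rw [e1, e2, sub_self]
  exact div_nonpos_of_nonpos_of_nonneg h2 ha1.le

lemma M_bb_le {a : ℝ} (ha : 2 ≤ a) {T : ℝ} (hT : T ∈ Ioc (0 : ℝ) 1) :
    M a (bb a) T ≤ bb a T / (a - 1) := by
  refine M_le_anti (by linarith) (CB_bb ha) (continuous_bb ha).continuousOn (bb_one ha).ge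
    (fun T hT => hasDerivAt_bb ha hT) (fun T hT => ?_) hT
  have h0 := hT.1.ne'
  have h1 := Jc_le_II ha (T := T) ⟨hT.1.le, hT.2⟩
  have h2 : 0 ≤ (2 * a - 1) * (1 - T ^ 2) ^ a :=
    mul_nonneg (by linarith) (rpow_nonneg (one_sub_sq_pos hT).le _)
  rw [mul_div_cancel₀ _ h0]
  exact mul_nonpos_of_nonneg_of_nonpos h2 (by linarith)

/-- (F3) -/
theorem eb_eq {a : ℝ} (ha : 2 ≤ a) {T : ℝ} (hT : T ∈ Ioc (0 : ℝ) 1) :
    eb a T = (bb a T + a * M a (bb a) T) / (2 * (2 * a - 1)) := by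
  have h21 : (2 * a - 1) ≠ 0 := by linarith
  unfold eb
  refine M_eq (Γ := fun T => (bb a T + a * M a (bb a) T) / (2 * (2 * a - 1)))
    (Γ' := fun T => ((2 * a - 1) * (1 - T ^ 2) ^ a * (Jc a T - II a T) / T
      + a * (((a - 1) * M a (bb a) T - bb a T) / T)) / (2 * (2 * a - 1))) (CB_wJ ha) a ?_ ?_
    (fun T hT => ((hasDerivAt_bb ha hT).fun_add
      ((hasDerivAt_M (CB_bb ha) a hT).const_mul a)).div_const _) (fun T hT => ?_) hT
  · exact ((continuous_bb ha).continuousOn.add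
      (continuousOn_const.mul (continuousOn_M (CB_bb ha) a))).div_const _
  · rw [bb_one ha, M_one]
    simp
  · have h0 := hT.1.ne'
    rw [show bb a T = (1 - T ^ 2) ^ a * (2 * Jc a T - II a T) from rfl]
    generalize M a (bb a) T = X
    field_simp
    ring

/-- (F4) -/
theorem eb_le_bb {a : ℝ} (ha : 2 ≤ a) {T : ℝ} (hT : T ∈ Ioc (0 : ℝ) 1) :
    eb a T ≤ bb a T / (2 * a - 2) := by
  rw [eb_eq ha hT]
  have h1 := M_bb_le ha hT
  have ha1 : 0 < a - 1 := by linarith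
  rw [le_div_iff₀ ha1] at h1
  rw [div_le_div_iff₀ (by linarith) (by linarith)]
  have h2 : a * (M a (bb a) T * (a - 1)) ≤ a * bb a T := mul_le_mul_of_nonneg_left h1 (by linarith)
  linarith

theorem bb_le_eb {a : ℝ} (ha : 2 ≤ a) {T : ℝ} (hT : T ∈ Ioc (0 : ℝ) 1) :
    bb a T ≤ 2 * (2 * a - 1) * eb a T := by
  have h1 := eb_eq ha hT
  have h2 : 0 ≤ M a (bb a) T :=
    M_nonneg a hT (fun x hx => bb_nonneg ha (Ioo_subset_Icc_self hx)) (CB_bb ha)
  rw [eq_div_iff (by linarith)] at h1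
  have h3 : 0 ≤ a * M a (bb a) T := mul_nonneg (by linarith) h2
  linarith

lemma alg1 {a x w N W J X : ℝ} (hx : x ≠ 0) (hw : w ≠ 0) (hN : N ≠ 0)
    (h : (a - 1) * w + 2 * (a + 1) * x ^ 2 - N = 0) :
    (a - 1) * (W * w * J / (2 * N)) - 1 / 2 * (W * J)
      - x * (((-(2 * (a + 1) * x * (W * w / w)) * J + W * w * (-(a * X / (x * w)))) * (2 * N)
        - W * w * J * (2 * ((a + 3) * (2 * x)))) / (2 * N) ^ 2)
      = W * (a * X * N + 2 * (a + 3) * x ^ 2 * w * J) / (2 * N ^ 2) := by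
  have e : (a - 1) * (W * w * J / (2 * N)) - 1 / 2 * (W * J)
      - x * (((-(2 * (a + 1) * x * (W * w / w)) * J + W * w * (-(a * X / (x * w)))) * (2 * N)
        - W * w * J * (2 * ((a + 3) * (2 * x)))) / (2 * N) ^ 2)
      = W * (a * X * N + 2 * (a + 3) * x ^ 2 * w * J) / (2 * N ^ 2)
        + W * J * ((a - 1) * w + 2 * (a + 1) * x ^ 2 - N) / (2 * N) := by
    field_simp
    ring
  rw [e, h]
  ring

/-- (E1) the sharp relation of the two base functions -/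
theorem eb_E1 {a : ℝ} (ha : 2 ≤ a) {T : ℝ} (hT : T ∈ Ioo (0 : ℝ) 1) :
    ((a - 1) + (a + 3) * T ^ 2) * eb a T ≤ 1 / 2 * ((1 - T ^ 2) ^ a * Jc a T) * (1 - T ^ 2) := by
  have hN : ∀ x : ℝ, 0 < (a - 1) + (a + 3) * x ^ 2 := fun x => by
    have : 0 ≤ (a + 3) * x ^ 2 := mul_nonneg (by linarith) (sq_nonneg x)
    linarith
  have key : eb a T ≤ (1 - T ^ 2) ^ (a + 1) * Jc a T / (2 * ((a - 1) + (a + 3) * T ^ 2)) := by
    unfold eb
    refine M_le (Γ := fun T => (1 - T ^ 2) ^ (a + 1) * Jc a T / (2 * ((a - 1) + (a + 3) * T ^ 2)))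
      (Γ' := fun T => ((-(2 * (a + 1) * T * ((1 - T ^ 2) ^ (a + 1) / (1 - T ^ 2))) * Jc a T
        + (1 - T ^ 2) ^ (a + 1) * (-(a * (II a T - (1 + T ^ 2) * Jc a T) / (T * (1 - T ^ 2)))))
        * (2 * ((a - 1) + (a + 3) * T ^ 2))
        - (1 - T ^ 2) ^ (a + 1) * Jc a T * (2 * ((a + 3) * (2 * T))))
        / (2 * ((a - 1) + (a + 3) * T ^ 2)) ^ 2) (CB_wJ ha) a ?_ ?_ ?_ ?_ ⟨hT.1, hT.2.le⟩
    · refine ContinuousOn.div ?_ (by fun_prop) fun x _ => (mul_pos two_pos (hN x)).ne'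
      exact (((continuous_const.sub (continuous_id.pow 2)).rpow_const
        fun _ => Or.inr (by linarith)).mul (continuous_Jc ha)).continuousOn
    · rw [show (1 : ℝ) - 1 ^ 2 = 0 by norm_num, zero_rpow (by linarith)]
      simp
    · intro x hx
      have e1 := (hasDerivAt_wpow (a + 1) hx).fun_mul (hasDerivAt_J ha hx)
      have e2 : HasDerivAt (fun T : ℝ => 2 * ((a - 1) + (a + 3) * T ^ 2))
          (2 * ((a + 3) * (2 * x))) x := by
        have := (((hasDerivAt_pow 2 x).const_mul (a + 3)).const_add (a - 1)).const_mul 2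
        simpa using this
      exact e1.fun_div e2 (mul_pos two_pos (hN x)).ne'
    · intro x hx
      have h0 := hx.1.ne'
      have hw := one_sub_sq_pos hx
      have hw' := hw.ne'
      rw [w_succ hx]
      have hX : 0 ≤ II a x - (1 + x ^ 2) * Jc a x := by linarith [Jc_le ha hx]
      have hJ := Jc_nonneg a x
      have hk : 0 ≤ (1 - x ^ 2) ^ a := rpow_nonneg hw.le _
      have hNx := hN x
      set W := (1 - x ^ 2) ^ a with hW
      set J := Jc a x with hJd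
      set X := II a x - (1 + x ^ 2) * J with hXd
      have e : (a - 1) * (W * (1 - x ^ 2) * J / (2 * ((a - 1) + (a + 3) * x ^ 2)))
          - 1 / 2 * (W * J) - x * (((-(2 * (a + 1) * x * (W * (1 - x ^ 2) / (1 - x ^ 2))) * J
        + W * (1 - x ^ 2) * (-(a * X / (x * (1 - x ^ 2)))))
        * (2 * ((a - 1) + (a + 3) * x ^ 2))
        - W * (1 - x ^ 2) * J * (2 * ((a + 3) * (2 * x))))
        / (2 * ((a - 1) + (a + 3) * x ^ 2)) ^ 2)
          = W * (a * X * ((a - 1) + (a + 3) * x ^ 2) + 2 * (a + 3) * x ^ 2 * (1 - x ^ 2) * J)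
            / (2 * ((a - 1) + (a + 3) * x ^ 2) ^ 2) :=
        alg1 h0 hw' hNx.ne' (by ring)
      have h2 : 0 ≤ W * (a * X * ((a - 1) + (a + 3) * x ^ 2) + 2 * (a + 3) * x ^ 2 * (1 - x ^ 2) * J)
            / (2 * ((a - 1) + (a + 3) * x ^ 2) ^ 2) := by
        have ha0 : 0 ≤ a := by linarith
        have ha3 : 0 ≤ a + 3 := by linarith
        positivity
      linarith
  rw [le_div_iff₀ (mul_pos two_pos (hN T)), w_succ hT] at key
  linarith

end Vale.Agent.P224.R2.H494
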