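import Vale.Agent.P224.R2.H494.Base

/-!
Odd dimension: more facts on the base functions.
-/

namespace Vale.Agent.P224.R2.H494

open MeasureTheory Set Filter Function Real Vale.Agent.P224.SM2
open scoped Topology

lemma eb_one (a : ℝ) : eb a 1 = 0 := M_one _ _

lemma gb_one (a : ℝ) : gb a 1 = 0 := M_one _ _

lemma contOn_eb {a : ℝ} (ha : 2 ≤ a) : ContinuousOn (eb a) (Ioc 0 1) := continuousOn_M (CB_wJ ha) a

lemma contOn_gb {a : ℝ} (ha : 2 ≤ a) : ContinuousOn (gb a) (Ioc 0 1) :=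
  continuousOn_M (CB_seb ha) a

/-- (E1) in a weak form -/
lemma eb_E1' {a : ℝ} (ha : 2 ≤ a) {T : ℝ} (hT : T ∈ Ioo (0 : ℝ) 1) :
    ((a - 1) + (a + 3) * T ^ 2) * eb a T ≤ 1 / 2 * ((1 - T ^ 2) ^ a * Jc a T) := by
  refine (eb_E1 ha hT).trans ?_
  have h1 := wJ_nonneg a hT
  have h2 := w_le_one (T := T)
  nlinarith

/-- (F5) -/
theorem M_eb_le {a : ℝ} (ha : 2 ≤ a) {T : ℝ} (hT : T ∈ Ioc (0 : ℝ) 1) :
    M a (fun x => (1 + x ^ 2) * eb a x) T ≤ (1 + T ^ 2) * eb a T / (a - 1) := by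
  have hc : ContinuousOn (fun x => (1 + x ^ 2) * eb a x) (Ioc 0 1) :=
    (Continuous.continuousOn (by fun_prop)).mul (contOn_eb ha)
  refine M_le_anti (by linarith) ((CB.of_cont (f := fun x => 1 + x ^ 2)
    (Continuous.continuousOn (by fun_prop))).mul (CB_eb ha)) hc (by rw [eb_one]; simp)
    (fun T hT => ?_) (fun T hT => ?_) hT (f' := fun T => 2 * T * eb a T + (1 + T ^ 2)
      * (((a - 1) * eb a T - 1 / 2 * ((1 - T ^ 2) ^ a * Jc a T)) / T))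
  · have h1 : HasDerivAt (fun T : ℝ => 1 + T ^ 2) (2 * T) T := by
      simpa using (hasDerivAt_pow 2 T).const_add 1
    exact h1.fun_mul (hasDerivAt_eb ha hT)
  · have h0 := hT.1.ne'
    have e : T * (2 * T * eb a T + (1 + T ^ 2)
        * (((a - 1) * eb a T - 1 / 2 * ((1 - T ^ 2) ^ a * Jc a T)) / T))
        = 2 * T ^ 2 * eb a T + (1 + T ^ 2)
          * ((a - 1) * eb a T - 1 / 2 * ((1 - T ^ 2) ^ a * Jc a T)) := by
      field_simp
    rw [e]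
    have h1 := eb_E1' ha hT
    have h2 := eb_nonneg ha (Ioo_subset_Ioc_self hT)
    have h3 : 0 ≤ (1 + T ^ 2) := by positivity
    have h4 := mul_le_mul_of_nonneg_left h1 h3
    have h5 : 0 ≤ T ^ 2 * eb a T := by positivity
    have h6 : 0 ≤ a * (T ^ 2 * eb a T) := by positivity
    have h7 : 0 ≤ (a + 3) * T ^ 2 * (T ^ 2 * eb a T) :=
      mul_nonneg (mul_nonneg (by linarith) (sq_nonneg T)) h5
    nlinarith

/-- (F6) -/
theorem M_web_le {a : ℝ} (ha : 2 ≤ a) {T : ℝ} (hT : T ∈ Ioc (0 : ℝ) 1) :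
    M a (fun x => (1 - x ^ 2) * eb a x) T ≤ (1 - T ^ 2) * eb a T / (a - 1) := by
  have hc : ContinuousOn (fun x => (1 - x ^ 2) * eb a x) (Ioc 0 1) :=
    (Continuous.continuousOn (by fun_prop)).mul (contOn_eb ha)
  refine M_le_anti (by linarith) ((CB.of_cont (f := fun x => 1 - x ^ 2)
    (Continuous.continuousOn (by fun_prop))).mul (CB_eb ha)) hc (by rw [eb_one]; simp)
    (fun T hT => ?_) (fun T hT => ?_) hT (f' := fun T => -(2 * T) * eb a T + (1 - T ^ 2)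
      * (((a - 1) * eb a T - 1 / 2 * ((1 - T ^ 2) ^ a * Jc a T)) / T))
  · exact (hasDerivAt_w T).fun_mul (hasDerivAt_eb ha hT)
  · have h0 := hT.1.ne'
    have e : T * (-(2 * T) * eb a T + (1 - T ^ 2)
        * (((a - 1) * eb a T - 1 / 2 * ((1 - T ^ 2) ^ a * Jc a T)) / T))
        = -(2 * T ^ 2 * eb a T) + (1 - T ^ 2)
          * ((a - 1) * eb a T - 1 / 2 * ((1 - T ^ 2) ^ a * Jc a T)) := by
      field_simp
    rw [e]
    have h1 := eb_E1' ha hT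
    have h2 := eb_nonneg ha (Ioo_subset_Ioc_self hT)
    have h3 := (one_sub_sq_pos hT).le
    have h8 : 0 ≤ (a + 3) * T ^ 2 * eb a T :=
      mul_nonneg (mul_nonneg (by linarith) (sq_nonneg T)) h2
    have h4 : (1 - T ^ 2) * ((a - 1) * eb a T - 1 / 2 * ((1 - T ^ 2) ^ a * Jc a T)) ≤ 0 :=
      mul_nonpos_of_nonneg_of_nonpos h3 (by linarith)
    have h5 : 0 ≤ T ^ 2 * eb a T := by positivity
    linarith

lemma sqrt_w_deriv {T : ℝ} (hT : T ∈ Ioo (0 : ℝ) 1) :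
    HasDerivAt (fun T : ℝ => √(1 - T ^ 2) * (1 - T ^ 2)) (-(3 * T * √(1 - T ^ 2))) T := by
  have hw := one_sub_sq_pos hT
  have hs := sqrt_pos.2 hw
  refine (((hasDerivAt_w T).sqrt hw.ne').fun_mul (hasDerivAt_w T)).congr_deriv ?_
  have h1 : √(1 - T ^ 2) * √(1 - T ^ 2) = 1 - T ^ 2 := mul_self_sqrt hw.le
  have hs' := hs.ne'
  field_simp
  rw [sq_sqrt hw.le]
  ring

/-- (F7) -/
theorem gb_le {a : ℝ} (ha : 2 ≤ a) {T : ℝ} (hT : T ∈ Ioc (0 : ℝ) 1) :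
    gb a T ≤ √(1 - T ^ 2) * (1 - T ^ 2) * eb a T / (a - 1) := by
  have ha1 : 0 < a - 1 := by linarith
  unfold gb
  refine M_le (Γ := fun T => √(1 - T ^ 2) * (1 - T ^ 2) * eb a T / (a - 1))
    (Γ' := fun T => (-(3 * T * √(1 - T ^ 2)) * eb a T + √(1 - T ^ 2) * (1 - T ^ 2)
      * (((a - 1) * eb a T - 1 / 2 * ((1 - T ^ 2) ^ a * Jc a T)) / T)) / (a - 1))
    (CB_seb ha) a ?_ ?_
    (fun T hT => ((sqrt_w_deriv hT).fun_mul (hasDerivAt_eb ha hT)).div_const _)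
    (fun T hT => ?_) hT
  · exact ((Continuous.continuousOn (by fun_prop)).mul (contOn_eb ha)).div_const _
  · rw [eb_one]
    simp
  · have h0 := hT.1.ne'
    have hs : 0 ≤ √(1 - T ^ 2) := sqrt_nonneg _
    have h1 := eb_E1 ha hT
    have h2 := eb_nonneg ha (Ioo_subset_Ioc_self hT)
    have h8 : 0 ≤ (a + 3) * T ^ 2 * eb a T :=
      mul_nonneg (mul_nonneg (by linarith) (sq_nonneg T)) h2
    have h9 : 0 ≤ T ^ 2 * eb a T := by positivity
    have e : (a - 1) * (√(1 - T ^ 2) * (1 - T ^ 2) * eb a T / (a - 1)) - √(1 - T ^ 2) * eb a T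
        - T * ((-(3 * T * √(1 - T ^ 2)) * eb a T + √(1 - T ^ 2) * (1 - T ^ 2)
      * (((a - 1) * eb a T - 1 / 2 * ((1 - T ^ 2) ^ a * Jc a T)) / T)) / (a - 1))
        = √(1 - T ^ 2) * (1 / 2 * ((1 - T ^ 2) ^ a * Jc a T) * (1 - T ^ 2)
          + 3 * (T ^ 2 * eb a T) - (a - 1) * eb a T) / (a - 1) := by
      have := ha1.ne'
      field_simp
      ring
    have h3 : 0 ≤ √(1 - T ^ 2) * (1 / 2 * ((1 - T ^ 2) ^ a * Jc a T) * (1 - T ^ 2)
          + 3 * (T ^ 2 * eb a T) - (a - 1) * eb a T) / (a - 1) :=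
      div_nonneg (mul_nonneg hs (by linarith)) ha1.le
    linarith

/-- growth of e at 1 -/
lemma eb_growth {a : ℝ} (ha : 2 ≤ a) {T : ℝ} (hT : T ∈ Ioo (0 : ℝ) 1) :
    eb a T ≤ II a 0 * (1 - T ^ 2) ^ (a + 1) := by
  have h1 := eb_E1 ha hT
  have h2 := eb_nonneg ha (Ioo_subset_Ioc_self hT)
  have h3 := Jc_le_II ha (T := T) ⟨hT.1.le, hT.2⟩
  have h4 := II_anti ha (mem_Ici.2 le_rfl) (mem_Ici.2 hT.1.le) hT.1.le
  have h5 : 0 ≤ (1 - T ^ 2) ^ a := rpow_nonneg (one_sub_sq_pos hT).le _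
  have hw := one_sub_sq_pos hT
  rw [w_succ hT]
  have h6 : (1 - T ^ 2) ^ a * Jc a T * (1 - T ^ 2) ≤ (1 - T ^ 2) ^ a * II a 0 * (1 - T ^ 2) :=
    mul_le_mul_of_nonneg_right (mul_le_mul_of_nonneg_left (h3.trans h4) h5) hw.le
  have h8 : 0 ≤ (a + 3) * T ^ 2 * eb a T :=
    mul_nonneg (mul_nonneg (by linarith) (sq_nonneg T)) h2
  have h9 : 0 ≤ (a - 2) * eb a T := mul_nonneg (by linarith) h2
  have h10 : 0 ≤ (1 - T ^ 2) ^ a * II a 0 * (1 - T ^ 2) :=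
    mul_nonneg (mul_nonneg h5 (II_pos ha 0).le) hw.le
  linarith

lemma WB_eb {a : ℝ} (ha : 2 ≤ a) : WB a (eb a) :=
  ⟨(CB_eb ha).1, II a 0, fun x hx => by
    rw [abs_of_nonneg (eb_nonneg ha (Ioo_subset_Ioc_self hx))]
    exact eb_growth ha hx⟩

lemma WB.of_le {a : ℝ} {f g : ℝ → ℝ} (hf : ContinuousOn f (Ioo 0 1)) (hg : WB a g)
    (h : ∀ x ∈ Ioo (0 : ℝ) 1, |f x| ≤ g x) : WB a f := by
  obtain ⟨C, hC⟩ := hg.2
  exact ⟨hf, C, fun x hx => (h x hx).trans ((le_abs_self _).trans (hC x hx))⟩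

lemma WB.const_mul {a : ℝ} {f : ℝ → ℝ} (hf : WB a f) (c : ℝ) : WB a fun x => c * f x :=
  hf.cmul (CB.const c)

lemma WB_bb {a : ℝ} (ha : 2 ≤ a) : WB a (bb a) := by
  refine WB.of_le (CB_bb ha).1 ((WB_eb ha).const_mul (2 * (2 * a - 1))) fun x hx => ?_
  rw [abs_of_nonneg (bb_nonneg ha (Ioo_subset_Icc_self hx))]
  exact bb_le_eb ha (Ioo_subset_Ioc_self hx)

lemma gb_le_eb {a : ℝ} (ha : 2 ≤ a) {T : ℝ} (hT : T ∈ Ioo (0 : ℝ) 1) : gb a T ≤ eb a T := by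
  have h1 := gb_le ha (Ioo_subset_Ioc_self hT)
  have h2 := eb_nonneg ha (Ioo_subset_Ioc_self hT)
  have hw := one_sub_sq_pos hT
  have h3 : √(1 - T ^ 2) ≤ 1 := Real.sqrt_le_one.2 w_le_one
  have h4 : √(1 - T ^ 2) * (1 - T ^ 2) ≤ 1 * 1 :=
    mul_le_mul h3 w_le_one hw.le zero_le_one
  have ha1 : 0 < a - 1 := by linarith
  rw [le_div_iff₀ ha1] at h1
  have h5 := mul_le_mul_of_nonneg_right h4 h2
  have h6 := gb_nonneg ha (Ioo_subset_Ioc_self hT)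
  have h7 : 0 ≤ gb a T * (a - 2) := mul_nonneg h6 (by linarith)
  linarith

lemma WB_gb {a : ℝ} (ha : 2 ≤ a) : WB a (gb a) := by
  refine WB.of_le (CB_gb ha).1 (WB_eb ha) fun x hx => ?_
  rw [abs_of_nonneg (gb_nonneg ha (Ioo_subset_Ioc_self hx))]
  exact gb_le_eb ha hx

/-- (F1) -/
theorem P_bb {a : ℝ} (ha : 2 ≤ a) {T : ℝ} (hT : T ∈ Icc (0 : ℝ) 1) :
    2 * a * P a (bb a) T = Vb a T - Vb a 1 := by
  have h := P_eq (f := fun x => 2 * a * bb a x) ((WB_bb ha).const_mul (2 * a))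
    (continuous_Vb ha).continuousOn (fun T hT => (hasDerivAt_Vb ha hT).congr_deriv (by ring)) hT
  rw [P_const_mul] at h
  exact h

theorem P_bb_le {a : ℝ} (ha : 2 ≤ a) {T : ℝ} (hT : T ∈ Icc (0 : ℝ) 1) :
    2 * a * P a (bb a) T ≤ 3 / 10 * Vb a T := by
  rw [P_bb ha hT]
  have := Vb_one_ge ha hT
  linarith

/-- (F8) -/
theorem P_gb_le {a : ℝ} (ha : 2 ≤ a) {T : ℝ} (hT : T ∈ Ioo (0 : ℝ) 1) :
    P a (gb a) T ≤ (1 - T ^ 2) ^ (3 / 2 - a) * eb a T / (5 * (a - 1)) := by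
  have ha1 : 0 < a - 1 := by linarith
  have hd : ∀ T ∈ Ioo (0 : ℝ) 1, HasDerivAt (fun T => (1 - T ^ 2) ^ (3 / 2 - a) * eb a T
      / (5 * (a - 1))) ((-(2 * (3 / 2 - a) * T * ((1 - T ^ 2) ^ (3 / 2 - a) / (1 - T ^ 2))) * eb a T
      + (1 - T ^ 2) ^ (3 / 2 - a) * (((a - 1) * eb a T - 1 / 2 * ((1 - T ^ 2) ^ a * Jc a T)) / T))
      / (5 * (a - 1))) T := fun T hT =>
    ((hasDerivAt_wpow (3 / 2 - a) hT).fun_mul (hasDerivAt_eb ha hT)).div_const _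
  refine P_le (WB_gb ha) le_rfl ?_ hd (fun T hT => ?_) hT
  · -- the limit at 1
    have h1 : Tendsto (fun T : ℝ => II a 0 * (1 - T ^ 2) ^ (5 / 2 : ℝ) / (5 * (a - 1)))
        (𝓝[<] 1) (𝓝 0) := by
      have h2 : Continuous (fun T : ℝ => II a 0 * (1 - T ^ 2) ^ (5 / 2 : ℝ) / (5 * (a - 1))) :=
        ((continuous_const.mul ((continuous_const.sub (continuous_id.pow 2)).rpow_const
          fun _ => Or.inr (by norm_num)))).div_const _
      have h3 := (h2.tendsto 1).mono_left (nhdsWithin_le_nhds (s := Iio (1 : ℝ)))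
      have e : II a 0 * (1 - (1 : ℝ) ^ 2) ^ (5 / 2 : ℝ) / (5 * (a - 1)) = 0 := by
        rw [show (1 : ℝ) - 1 ^ 2 = 0 by norm_num, zero_rpow (by norm_num)]
        simp
      rwa [e] at h3
    refine squeeze_zero' ?_ ?_ h1
    · rw [← nhdsWithin_Ioo_eq_nhdsLT (show (0 : ℝ) < 1 by norm_num)]
      filter_upwards [self_mem_nhdsWithin] with x hx
      have := eb_nonneg ha (Ioo_subset_Ioc_self hx)
      have := rpow_nonneg (one_sub_sq_pos hx).le (3 / 2 - a)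
      positivity
    · rw [← nhdsWithin_Ioo_eq_nhdsLT (show (0 : ℝ) < 1 by norm_num)]
      filter_upwards [self_mem_nhdsWithin] with x hx
      have hw := one_sub_sq_pos hx
      have h2 := eb_growth ha hx
      have h3 := rpow_nonneg hw.le (3 / 2 - a)
      have h4 := mul_le_mul_of_nonneg_left h2 h3
      have e : (1 - x ^ 2) ^ (3 / 2 - a) * (II a 0 * (1 - x ^ 2) ^ (a + 1))
          = II a 0 * (1 - x ^ 2) ^ (5 / 2 : ℝ) := by
        rw [show (5 / 2 : ℝ) = 3 / 2 - a + (a + 1) by ring, rpow_add hw (3 / 2 - a) (a + 1)]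
        ring
      rw [e] at h4
      gcongr
  · have h0 := hT.1
    have hw := one_sub_sq_pos hT
    have h1 := eb_E1 ha hT
    have h2 := eb_nonneg ha (Ioo_subset_Ioc_self hT)
    have h3 := gb_le ha (Ioo_subset_Ioc_self hT)
    have hk := rpow_nonneg hw.le (3 / 2 - a)
    -- the right side
    have e1 : (1 - T ^ 2) ^ (-a - 1) * (√(1 - T ^ 2) * (1 - T ^ 2))
        = (1 - T ^ 2) ^ (3 / 2 - a) / (1 - T ^ 2) := by
      rw [sqrt_eq_rpow, ← rpow_add_one hw.ne', ← rpow_add hw, ← rpow_sub_one hw.ne']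
      congr 1
      ring
    have hk2 := rpow_nonneg hw.le (-a - 1)
    have h4 : T * gb a T * (1 - T ^ 2) ^ (-a - 1)
        ≤ T * ((1 - T ^ 2) ^ (3 / 2 - a) / (1 - T ^ 2) * eb a T / (a - 1)) := by
      have h5 := mul_le_mul_of_nonneg_right h3 hk2
      have h6 := mul_le_mul_of_nonneg_left h5 h0.le
      calc T * gb a T * (1 - T ^ 2) ^ (-a - 1) = T * (gb a T * (1 - T ^ 2) ^ (-a - 1)) := by ring
        _ ≤ T * (√(1 - T ^ 2) * (1 - T ^ 2) * eb a T / (a - 1) * (1 - T ^ 2) ^ (-a - 1)) := h6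
        _ = T * ((1 - T ^ 2) ^ (-a - 1) * (√(1 - T ^ 2) * (1 - T ^ 2)) * eb a T / (a - 1)) := by
            ring
        _ = _ := by rw [e1]
    refine le_trans ?_ (neg_le_neg h4)
    set K := (1 - T ^ 2) ^ (3 / 2 - a)
    set Z := 1 / 2 * ((1 - T ^ 2) ^ a * Jc a T)
    set E := eb a T
    have h0' := h0.ne'
    have hw' := hw.ne'
    have ha1' := ha1.ne'
    have e2 : -(T * (K / (1 - T ^ 2) * E / (a - 1)))
        - (-(2 * (3 / 2 - a) * T * (K / (1 - T ^ 2))) * E + K * (((a - 1) * E - Z) / T))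
          / (5 * (a - 1))
        = K / (5 * (a - 1) * T * (1 - T ^ 2)) * (Z * (1 - T ^ 2)
          - ((a - 1) + (a + 3) * T ^ 2) * E) := by
      field_simp
      ring
    have h7 : 0 ≤ K / (5 * (a - 1) * T * (1 - T ^ 2)) * (Z * (1 - T ^ 2)
          - ((a - 1) + (a + 3) * T ^ 2) * E) :=
      mul_nonneg (by positivity) (by linarith)
    linarith

end Vale.Agent.P224.R2.H494
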