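import Vale.Agent.P224.R2.H494.Sol4

/-!
Odd dimension: existence of the flow.
-/

namespace Vale.Agent.P224.R2.H494

open MeasureTheory Set Filter Function Real Vale.Agent.P224.SM2 Vale.Agent.P224.R2.H925
open scoped Topology

/-- a bounded solution of the integral system -/
structure Flow (m : ℕ) (d : ℝ) (β p γ : ℝ → ℝ) : Prop where
  sol : ISol (m / 2) (d ^ 2) β p γ
  bd : ∃ c : ℝ, 0 ≤ c ∧ Bd (m / 2) β p γ c c (8 * c)

/-- existence of the flow for every dimension `m ≥ 17` and `d ^ 2 ≤ 1 / 72` -/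
theorem exists_Flow {m : ℕ} (hm : 17 ≤ m) {d : ℝ} (hd : d ^ 2 ≤ 1 / 72) :
    ∃ β p γ : ℝ → ℝ, Flow m d β p γ := by
  have h17 : (17 : ℝ) ≤ m := by exact_mod_cast hm
  obtain ⟨β, p, γ, c, hc, hb, hs⟩ :=
    exists_isol (a := (m : ℝ) / 2) (by linarith) (sq_nonneg d) hd
  exact ⟨β, p, γ, hs, c, hc, hb⟩

variable {m : ℕ} {d : ℝ} {β p γ : ℝ → ℝ}

/-- the flow solves the system of helper925 with the limits at both ends -/
theorem Flow.sys (hm : 17 ≤ m) (hd : d ^ 2 ≤ 1 / 72) (h : Flow m d β p γ) :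
    Sys m d (uu (m / 2) (d ^ 2) β p γ) ∧
    Lim0 m d (uu (m / 2) (d ^ 2) β p γ) (rh (m / 2) γ 0) (rr (m / 2) β 0)
      (VV (m / 2) β 0 / (m - 1)) ∧
    Lim1 m (uu (m / 2) (d ^ 2) β p γ) (Vb (m / 2) 1 / (m - 1)) := by
  have h17 : (17 : ℝ) ≤ m := by exact_mod_cast hm
  obtain ⟨c, hc, hb⟩ := h.bd
  have ha : (17 : ℝ) / 2 ≤ m / 2 := by linarith
  have e : (m : ℝ) = 2 * (m / 2) := by ring
  have e1 : (m : ℝ) - 1 = 2 * (m / 2) - 1 := by ring
  rw [e1]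
  exact ⟨sys_uu ha (sq_nonneg d) hd hc hc (by positivity) hb h.sol e rfl,
    lim0_uu ha (sq_nonneg d) hd hc hc (by positivity) hb e rfl,
    lim1_uu ha (sq_nonneg d) hd hc hc (by positivity) hb e⟩

end Vale.Agent.P224.R2.H494
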