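import Vale.Agent.P224.R2.H494.Lin

/-!
Odd dimension: the fixed point of the linear system.
-/

namespace Vale.Agent.P224.R2.H494

open MeasureTheory Set Filter Function Real Vale.Agent.P224.SM2
open scoped Topology BoundedContinuousFunction NNReal

variable {a L z η G : ℝ} {β p γ : ℝ → ℝ}

/-- the inhomogeneous term -/
noncomputable def f0 (a T : ℝ) : ℝ := M a (fun x => 1 / 2 * ((1 - x ^ 2) ^ a * Vb a 1)) T

lemma CB_f0 (ha : 2 ≤ a) : CB fun x => 1 / 2 * ((1 - x ^ 2) ^ a * Vb a 1) :=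
  (CB.const _).mul ((CB.omega (by linarith)).mul (CB.const _))

lemma f0_nonneg (ha : 2 ≤ a) {T : ℝ} (hT : T ∈ Ioo (0 : ℝ) 1) : 0 ≤ f0 a T := by
  refine M_nonneg a (Ioo_subset_Ioc_self hT) (fun x hx => ?_) (CB_f0 ha)
  have := Vb_one_pos ha
  have := one_sub_sq_pos hx
  positivity

lemma f0_le (ha : 2 ≤ a) {T : ℝ} (hT : T ∈ Ioo (0 : ℝ) 1) : f0 a T ≤ bb a T := by
  have hT' := Ioo_subset_Ioc_self hT
  rw [← bb_eq ha hT']
  refine M_mono (CB_f0 ha) ((CB.const _).mul ((CB.omega (by linarith)).mul (CB_Vb ha))) a hT'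
    fun x hx => ?_
  have h1 := Vb_anti ha (Ioo_subset_Icc_self hx) (right_mem_Icc.2 zero_le_one) hx.2.le
  have h2 := one_sub_sq_pos hx
  gcongr

noncomputable def W3 (a x : ℝ) : ℝ := 8 * (a * (2 * a + 1)) * gb a x

lemma W3_pos (ha : 2 ≤ a) {x : ℝ} (hx : x ∈ Ioo (0 : ℝ) 1) : 0 < W3 a x := by
  have := gb_pos ha hx
  unfold W3
  positivity

lemma contOn_W3 (ha : 2 ≤ a) : ContinuousOn (W3 a) (Ioo 0 1) := continuousOn_const.mul (CB_gb ha).1

lemma Bd_ex (ha : 2 ≤ a) (u v w : XX) :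
    Bd a (ex (bb a) u) (ex (eb a) v) (ex (W3 a) w) ‖u‖ ‖v‖ (8 * ‖w‖) where
  cβ := contOn_ex (CB_bb ha).1 u
  cp := contOn_ex (CB_eb ha).1 v
  cγ := contOn_ex (contOn_W3 ha) w
  bβ := fun _ hx => abs_ex_le (fun _ hx => (bb_pos ha hx).le) u hx
  bp := fun _ hx => abs_ex_le (fun _ hx => (eb_pos ha hx).le) v hx
  bγ := fun x hx => by
    refine (abs_ex_le (fun _ hx => (W3_pos ha hx).le) w hx).trans (le_of_eq ?_)
    unfold W3
    ring

lemma contOn_Kb (ha : 17 / 2 ≤ a) (h0 : 0 ≤ L) (h1 : L ≤ 1 / 72) (hz : 0 ≤ z) (hη : 0 ≤ η)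
    (hG : 0 ≤ G) (h : Bd a β p γ z η G) : ContinuousOn (Kb a L β p γ) (Ioo 0 1) := by
  have ha2 : 2 ≤ a := by linarith
  have hI : Ioo (0 : ℝ) 1 ⊆ Ioc 0 1 := Ioo_subset_Ioc_self
  refine ((continuousOn_M (CB_wP ha2 h) a).mono hI).sub (continuousOn_const.mul ?_)
  exact (continuousOn_const.mul ((continuousOn_M (CB_xff ha h0 h1 hz hη hG h) a).mono hI)).sub
    ((Continuous.continuousOn (by fun_prop)).mul (contOn_ff ha2 h0 h1 h))

/-- the numerical bounds with one constant -/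
lemma num_b {c : ℝ} (hc : 0 ≤ c) (h0 : 0 ≤ L) (h1 : L ≤ 1 / 72) :
    3 / 10 * c + 121 / 100 * L * (151 / 50 * c + 201 / 50 * c + 273 / 100 * L * (8 * c))
      ≤ 7 / 10 * c := by
  have h2 : L * c ≤ 1 / 72 * c := mul_le_mul_of_nonneg_right h1 hc
  have h3 : L * (L * c) ≤ 1 / 72 * (1 / 72 * c) := mul_le_mul h1 h2 (by positivity) (by norm_num)
  nlinarith

lemma num_p {c : ℝ} (hc : 0 ≤ c) (h1 : L ≤ 1 / 72) :
    57 / 200 * L * (c + c + 68 / 25 * (8 * c)) ≤ 7 / 10 * c := by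
  have h2 : L * c ≤ 1 / 72 * c := mul_le_mul_of_nonneg_right h1 hc
  nlinarith

lemma num_g {c : ℝ} (hc : 0 ≤ c) :
    437 / 1000 * (8 * c) + 251 / 250 * (c + c) ≤ 7 / 10 * (8 * c) := by
  linarith

section

variable (ha : 17 / 2 ≤ a) (h0 : 0 ≤ L) (h1 : L ≤ 1 / 72)

include ha h0 h1 in
lemma bnd1 (u v w : XX) (x : ℝ) (hx : x ∈ Ioo (0 : ℝ) 1) :
    |f0 a x + Kb a L (ex (bb a) u) (ex (eb a) v) (ex (W3 a) w) x|
      ≤ (1 + (3 / 10 * ‖u‖ + 121 / 100 * L * (151 / 50 * ‖u‖ + 201 / 50 * ‖v‖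
        + 273 / 100 * L * (8 * ‖w‖)))) * bb a x := by
  have ha2 : 2 ≤ a := by linarith
  have b1 := abs_Kb_le ha h0 h1 (norm_nonneg u) (norm_nonneg v) (by positivity)
    (Bd_ex ha2 u v w) hx
  have b2 : |f0 a x| ≤ bb a x := by
    rw [abs_of_nonneg (f0_nonneg ha2 hx)]
    exact f0_le ha2 hx
  have := abs_add_le (f0 a x) (Kb a L (ex (bb a) u) (ex (eb a) v) (ex (W3 a) w) x)
  linarith

include ha h0 h1 in
lemma bnd2 (u v w : XX) (x : ℝ) (hx : x ∈ Ioo (0 : ℝ) 1) :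
    |Kp a L (ex (bb a) u) (ex (eb a) v) (ex (W3 a) w) x|
      ≤ (57 / 200 * L * (‖u‖ + ‖v‖ + 68 / 25 * (8 * ‖w‖))) * eb a x := by
  have ha2 : 2 ≤ a := by linarith
  have b1 := abs_Kp_le ha h0 h1 (norm_nonneg u) (norm_nonneg v) (by positivity)
    (Bd_ex ha2 u v w) hx
  refine b1.trans (mul_le_mul_of_nonneg_left ?_ (by positivity))
  have h2 := mul_le_mul_of_nonneg_right (w_le_one (T := x)) (eb_pos ha2 hx).le
  linarith

include ha h0 h1 in
lemma bnd3 (u v w : XX) (x : ℝ) (hx : x ∈ Ioo (0 : ℝ) 1) :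
    |Kg a L (ex (bb a) u) (ex (eb a) v) (ex (W3 a) w) x|
      ≤ ((437 / 1000 * (8 * ‖w‖) + 251 / 250 * (‖u‖ + ‖v‖)) / 8) * W3 a x := by
  have ha2 : 2 ≤ a := by linarith
  have b1 := abs_Kg_le ha h0 h1 (by positivity) (Bd_ex ha2 u v w) hx
  refine b1.trans (le_of_eq ?_)
  unfold W3
  ring

include ha h0 h1 in
lemma cnt1 (u v w : XX) : ContinuousOn
    (fun x => f0 a x + Kb a L (ex (bb a) u) (ex (eb a) v) (ex (W3 a) w) x) (Ioo 0 1) := by
  have ha2 : 2 ≤ a := by linarith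
  have e1 : ContinuousOn (fun x => f0 a x) (Ioo 0 1) :=
    (continuousOn_M (CB_f0 ha2) a).mono Ioo_subset_Ioc_self
  exact e1.add (contOn_Kb ha h0 h1 (norm_nonneg u) (norm_nonneg v) (by positivity)
    (Bd_ex ha2 u v w))

include ha h0 h1 in
lemma cnt2 (u v w : XX) : ContinuousOn
    (fun x => Kp a L (ex (bb a) u) (ex (eb a) v) (ex (W3 a) w) x) (Ioo 0 1) :=
  (continuousOn_M (CB_qq ha h0 h1 (by positivity)
        (Bd_ex (by linarith) u v w)) a).mono Ioo_subset_Ioc_self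

include ha h0 h1 in
lemma cnt3 (u v w : XX) : ContinuousOn
    (fun x => Kg a L (ex (bb a) u) (ex (eb a) v) (ex (W3 a) w) x) (Ioo 0 1) :=
  (continuousOn_M (CB_ag ha h0 h1 (by positivity)
        (Bd_ex (by linarith) u v w)) a).mono Ioo_subset_Ioc_self

/-- the map -/
noncomputable def Phi (t : XX × XX × XX) : XX × XX × XX :=
  (mk (bb a) (fun x => f0 a x + Kb a L (ex (bb a) t.1) (ex (eb a) t.2.1) (ex (W3 a) t.2.2) x)
      (CB_bb (by linarith)).1 (fun _ hx => bb_pos (by linarith) hx)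
      (cnt1 ha h0 h1 t.1 t.2.1 t.2.2) _ (bnd1 ha h0 h1 t.1 t.2.1 t.2.2),
   mk (eb a) (fun x => Kp a L (ex (bb a) t.1) (ex (eb a) t.2.1) (ex (W3 a) t.2.2) x)
      (CB_eb (by linarith)).1 (fun _ hx => eb_pos (by linarith) hx)
      (cnt2 ha h0 h1 t.1 t.2.1 t.2.2) _ (bnd2 ha h0 h1 t.1 t.2.1 t.2.2),
   mk (W3 a) (fun x => Kg a L (ex (bb a) t.1) (ex (eb a) t.2.1) (ex (W3 a) t.2.2) x)
      (contOn_W3 (by linarith)) (fun _ hx => W3_pos (by linarith) hx)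
      (cnt3 ha h0 h1 t.1 t.2.1 t.2.2) _ (bnd3 ha h0 h1 t.1 t.2.1 t.2.2))

lemma Phi_1 (t : XX × XX × XX) (x : Ioo (0 : ℝ) 1) : (Phi ha h0 h1 t).1 x
    = (f0 a x + Kb a L (ex (bb a) t.1) (ex (eb a) t.2.1) (ex (W3 a) t.2.2) x) / bb a x := rfl

lemma Phi_2 (t : XX × XX × XX) (x : Ioo (0 : ℝ) 1) : (Phi ha h0 h1 t).2.1 x
    = Kp a L (ex (bb a) t.1) (ex (eb a) t.2.1) (ex (W3 a) t.2.2) x / eb a x := rfl

lemma Phi_3 (t : XX × XX × XX) (x : Ioo (0 : ℝ) 1) : (Phi ha h0 h1 t).2.2 x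
    = Kg a L (ex (bb a) t.1) (ex (eb a) t.2.1) (ex (W3 a) t.2.2) x / W3 a x := rfl

theorem contracting_Phi : ContractingWith (7 / 10) (Phi ha h0 h1) := by
  have ha2 : 2 ≤ a := by linarith
  refine ⟨by
    rw [← NNReal.coe_lt_coe]
    norm_num, LipschitzWith.of_dist_le_mul fun s t => ?_⟩
  have hK : ((7 / 10 : ℝ≥0) : ℝ) = 7 / 10 := by norm_num
  rw [hK]
  set c := dist s t with hc
  have hc0 : 0 ≤ c := dist_nonneg
  have d1 : ‖s.1 - t.1‖ ≤ c := by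
    rw [← dist_eq_norm]
    exact le_max_left _ _
  have d2 : ‖s.2.1 - t.2.1‖ ≤ c := by
    rw [← dist_eq_norm]
    exact (le_max_left _ _).trans (le_max_right _ _)
  have d3 : ‖s.2.2 - t.2.2‖ ≤ c := by
    rw [← dist_eq_norm]
    exact (le_max_right _ _).trans (le_max_right _ _)
  -- the bounds of the difference
  have hB := Bd_ex ha2 (s.1 - t.1) (s.2.1 - t.2.1) (s.2.2 - t.2.2)
  have hBs := Bd_ex ha2 s.1 s.2.1 s.2.2
  have hBt := Bd_ex ha2 t.1 t.2.1 t.2.2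
  have hBd : Bd a (ex (bb a) (s.1 - t.1)) (ex (eb a) (s.2.1 - t.2.1))
      (ex (W3 a) (s.2.2 - t.2.2)) c c (8 * c) :=
    ⟨hB.cβ, hB.cp, hB.cγ,
      fun x hx => (hB.bβ x hx).trans (mul_le_mul_of_nonneg_right d1 (bb_pos ha2 hx).le),
      fun x hx => (hB.bp x hx).trans (mul_le_mul_of_nonneg_right d2 (eb_pos ha2 hx).le),
      fun x hx => (hB.bγ x hx).trans (by
        have h5 := (gb_pos ha2 hx).le
        have : 0 ≤ a * (2 * a + 1) := by positivity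
        gcongr)⟩
  have hc8 : 0 ≤ 8 * c := by positivity
  rw [Prod.dist_eq, Prod.dist_eq]
  refine max_le ?_ (max_le ?_ ?_)
  · refine (BoundedContinuousFunction.dist_le (by positivity)).2 fun x => ?_
    have hx := x.2
    have hb := bb_pos ha2 hx
    have e := Kb_sub ha h0 h1 (norm_nonneg s.1) (norm_nonneg s.2.1) (by positivity) hBs
      (norm_nonneg t.1) (norm_nonneg t.2.1) (by positivity) hBt hx
    rw [ex_sub, ex_sub, ex_sub] at e
    have k := abs_Kb_le ha h0 h1 hc0 hc0 hc8 hBd hx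
    rw [e] at k
    rw [Real.dist_eq, Phi_1, Phi_1, ← sub_div, abs_div, abs_of_pos hb, div_le_iff₀ hb]
    rw [show f0 a x + Kb a L (ex (bb a) s.1) (ex (eb a) s.2.1) (ex (W3 a) s.2.2) x
      - (f0 a x + Kb a L (ex (bb a) t.1) (ex (eb a) t.2.1) (ex (W3 a) t.2.2) x)
      = Kb a L (ex (bb a) s.1) (ex (eb a) s.2.1) (ex (W3 a) s.2.2) x
        - Kb a L (ex (bb a) t.1) (ex (eb a) t.2.1) (ex (W3 a) t.2.2) x by ring]
    exact k.trans (mul_le_mul_of_nonneg_right (num_b hc0 h0 h1) hb.le)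
  · refine (BoundedContinuousFunction.dist_le (by positivity)).2 fun x => ?_
    have hx := x.2
    have hb := eb_pos ha2 hx
    have e := Kp_sub ha h0 h1 (by positivity) hBs (by positivity) hBt hx
    rw [ex_sub, ex_sub, ex_sub] at e
    have k := abs_Kp_le ha h0 h1 hc0 hc0 hc8 hBd hx
    rw [e] at k
    rw [Real.dist_eq, Phi_2, Phi_2, ← sub_div, abs_div, abs_of_pos hb, div_le_iff₀ hb]
    have k2 := mul_le_mul_of_nonneg_right (w_le_one (T := x)) hb.le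
    have k3 : 0 ≤ 57 / 200 * L * (c + c + 68 / 25 * (8 * c)) := by positivity
    calc _ ≤ _ := k
      _ ≤ 57 / 200 * L * (c + c + 68 / 25 * (8 * c)) * (1 * eb a x) :=
          mul_le_mul_of_nonneg_left k2 k3
      _ ≤ 7 / 10 * c * (1 * eb a x) :=
          mul_le_mul_of_nonneg_right (num_p hc0 h1) (by positivity)
      _ = _ := by ring
  · refine (BoundedContinuousFunction.dist_le (by positivity)).2 fun x => ?_
    have hx := x.2
    have hb := W3_pos ha2 hx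
    have e := Kg_sub ha h0 h1 (by positivity) hBs (by positivity) hBt hx
    rw [ex_sub, ex_sub, ex_sub] at e
    have k := abs_Kg_le ha h0 h1 hc8 hBd hx
    rw [e] at k
    rw [Real.dist_eq, Phi_3, Phi_3, ← sub_div, abs_div, abs_of_pos hb, div_le_iff₀ hb]
    have k2 : 0 ≤ (a * (2 * a + 1)) * gb a x := mul_nonneg (by positivity) (gb_pos ha2 hx).le
    calc _ ≤ _ := k
      _ = (437 / 1000 * (8 * c) + 251 / 250 * (c + c)) * ((a * (2 * a + 1)) * gb a x) := by ring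
      _ ≤ 7 / 10 * (8 * c) * ((a * (2 * a + 1)) * gb a x) :=
          mul_le_mul_of_nonneg_right (num_g hc0) k2
      _ = _ := by
          unfold W3
          ring

end

/-- the solution of the integral system -/
structure ISol (a L : ℝ) (β p γ : ℝ → ℝ) : Prop where
  eβ : ∀ T ∈ Ioo (0 : ℝ) 1, β T = f0 a T + Kb a L β p γ T
  ep : ∀ T ∈ Ioo (0 : ℝ) 1, p T = Kp a L β p γ T
  eγ : ∀ T ∈ Ioo (0 : ℝ) 1, γ T = Kg a L β p γ T

/-- **existence** of the solution of the integral system -/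
theorem exists_isol (ha : 17 / 2 ≤ a) (h0 : 0 ≤ L) (h1 : L ≤ 1 / 72) :
    ∃ (β p γ : ℝ → ℝ) (c : ℝ), 0 ≤ c ∧ Bd a β p γ c c (8 * c) ∧ ISol a L β p γ := by
  have ha2 : 2 ≤ a := by linarith
  have hc := contracting_Phi ha h0 h1
  set t := ContractingWith.fixedPoint (Phi ha h0 h1) hc with ht
  have hfix : Phi ha h0 h1 t = t := ContractingWith.fixedPoint_isFixedPt hc
  have f1 := congrArg Prod.fst hfix
  have f2 := congrArg (fun s => s.2.1) hfix
  have f3 := congrArg (fun s => s.2.2) hfix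
  have hB := Bd_ex ha2 t.1 t.2.1 t.2.2
  refine ⟨ex (bb a) t.1, ex (eb a) t.2.1, ex (W3 a) t.2.2, ‖t‖, norm_nonneg _, ?_, ?_⟩
  · have n1 : ‖t.1‖ ≤ ‖t‖ := norm_fst_le t
    have n2 : ‖t.2.1‖ ≤ ‖t‖ := (norm_fst_le t.2).trans (norm_snd_le t)
    have n3 : ‖t.2.2‖ ≤ ‖t‖ := (norm_snd_le t.2).trans (norm_snd_le t)
    exact ⟨hB.cβ, hB.cp, hB.cγ,
      fun x hx => (hB.bβ x hx).trans (mul_le_mul_of_nonneg_right n1 (bb_pos ha2 hx).le),
      fun x hx => (hB.bp x hx).trans (mul_le_mul_of_nonneg_right n2 (eb_pos ha2 hx).le),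
      fun x hx => (hB.bγ x hx).trans (by
        have h5 := (gb_pos ha2 hx).le
        have : 0 ≤ a * (2 * a + 1) := by positivity
        gcongr)⟩
  · refine ⟨fun T hT => ?_, fun T hT => ?_, fun T hT => ?_⟩
    · have h3 := bb_pos ha2 hT
      have h4 := DFunLike.congr_fun f1 (⟨T, hT⟩ : Ioo (0 : ℝ) 1)
      rw [Phi_1] at h4
      rw [ex_of t.1 hT, ← h4, mul_div_cancel₀ _ h3.ne']
    · have h3 := eb_pos ha2 hT
      have h4 := DFunLike.congr_fun f2 (⟨T, hT⟩ : Ioo (0 : ℝ) 1)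
      rw [Phi_2] at h4
      rw [ex_of t.2.1 hT, ← h4, mul_div_cancel₀ _ h3.ne']
    · have h3 := W3_pos ha2 hT
      have h4 := DFunLike.congr_fun f3 (⟨T, hT⟩ : Ioo (0 : ℝ) 1)
      rw [Phi_3] at h4
      rw [ex_of t.2.2 hT, ← h4, mul_div_cancel₀ _ h3.ne']

end Vale.Agent.P224.R2.H494
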