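import Vale.Agent.P224.R2.H494.Op2
import Mathlib.Topology.ContinuousMap.Bounded.Normed

/-!
Odd dimension: linearity of the operator and the fixed point.
-/

namespace Vale.Agent.P224.R2.H494

open MeasureTheory Set Filter Function Real Vale.Agent.P224.SM2
open scoped Topology BoundedContinuousFunction

variable {a L z η G z' η' G' : ℝ} {β p γ β' p' γ' : ℝ → ℝ}

lemma eh_sub (h : CB β) (h' : CB β') {T : ℝ} (hT : T ∈ Ioo (0 : ℝ) 1) :
    eh a (fun x => β x - β' x) T = eh a β T - eh a β' T := by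
  unfold eh
  rw [M_sub h h' a (Ioo_subset_Ioc_self hT)]
  ring

lemma rh_sub (h : WB a γ) (h' : WB a γ') {T : ℝ} (hT : T ∈ Ioo (0 : ℝ) 1) :
    rh a (fun x => γ x - γ' x) T = rh a γ T - rh a γ' T := by
  unfold rh
  rw [P_sub h h' (Ioo_subset_Icc_self hT)]
  ring

lemma sg_sub (T : ℝ) : sg (fun x => γ x - γ' x) T = sg γ T - sg γ' T := by
  unfold sg
  ring

lemma ep_sub (h : WB a γ) (h' : WB a γ') {T : ℝ} (hT : T ∈ Ioo (0 : ℝ) 1) :
    ep a (fun x => γ x - γ' x) T = ep a γ T - ep a γ' T := by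
  unfold ep
  rw [rh_sub h h' hT, sg_sub]
  ring

lemma om_sub (h : WB a γ) (h' : WB a γ') {T : ℝ} (hT : T ∈ Ioo (0 : ℝ) 1) :
    om a (fun x => γ x - γ' x) T = om a γ T - om a γ' T := by
  unfold om
  rw [ep_sub h h' hT, sg_sub]
  ring

lemma ff_sub (ha : 2 ≤ a) (h : Bd a β p γ z η G) (h' : Bd a β' p' γ' z' η' G') {T : ℝ}
    (hT : T ∈ Ioo (0 : ℝ) 1) :
    ff a L (fun x => β x - β' x) (fun x => p x - p' x) (fun x => γ x - γ' x) T
      = ff a L β p γ T - ff a L β' p' γ' T := by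
  unfold ff
  rw [eh_sub (h.nβ ha) (h'.nβ ha) hT, om_sub (h.wγ ha) (h'.wγ ha) hT]
  ring

lemma qq_sub (ha : 2 ≤ a) (h : Bd a β p γ z η G) (h' : Bd a β' p' γ' z' η' G') {T : ℝ}
    (hT : T ∈ Ioo (0 : ℝ) 1) :
    qq a L (fun x => β x - β' x) (fun x => p x - p' x) (fun x => γ x - γ' x) T
      = qq a L β p γ T - qq a L β' p' γ' T := by
  unfold qq
  rw [eh_sub (h.nβ ha) (h'.nβ ha) hT, om_sub (h.wγ ha) (h'.wγ ha) hT]
  ring

lemma ag_sub (ha : 2 ≤ a) (h : Bd a β p γ z η G) (h' : Bd a β' p' γ' z' η' G') {T : ℝ}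
    (hT : T ∈ Ioo (0 : ℝ) 1) :
    ag a L (fun x => β x - β' x) (fun x => p x - p' x) (fun x => γ x - γ' x) T
      = ag a L β p γ T - ag a L β' p' γ' T := by
  unfold ag
  rw [eh_sub (h.nβ ha) (h'.nβ ha) hT, rh_sub (h.wγ ha) (h'.wγ ha) hT]
  ring

section

variable (ha : 17 / 2 ≤ a) (h0 : 0 ≤ L) (h1 : L ≤ 1 / 72) (hz : 0 ≤ z) (hη : 0 ≤ η)
  (hG : 0 ≤ G) (h : Bd a β p γ z η G) (hz' : 0 ≤ z') (hη' : 0 ≤ η')
  (hG' : 0 ≤ G') (h' : Bd a β' p' γ' z' η' G')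

include ha h0 h1 hG h hG' h'

lemma Kp_sub {T : ℝ} (hT : T ∈ Ioo (0 : ℝ) 1) :
    Kp a L (fun x => β x - β' x) (fun x => p x - p' x) (fun x => γ x - γ' x) T
      = Kp a L β p γ T - Kp a L β' p' γ' T := by
  have hT' := Ioo_subset_Ioc_self hT
  unfold Kp
  rw [← M_sub (CB_qq ha h0 h1 hG h) (CB_qq ha h0 h1 hG' h') a hT']
  exact M_congr a hT' fun x hx => qq_sub (by linarith) h h' hx

lemma Kg_sub {T : ℝ} (hT : T ∈ Ioo (0 : ℝ) 1) :
    Kg a L (fun x => β x - β' x) (fun x => p x - p' x) (fun x => γ x - γ' x) T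
      = Kg a L β p γ T - Kg a L β' p' γ' T := by
  have hT' := Ioo_subset_Ioc_self hT
  unfold Kg
  rw [← M_sub (CB_ag ha h0 h1 hG h) (CB_ag ha h0 h1 hG' h') a hT']
  exact M_congr a hT' fun x hx => ag_sub (by linarith) h h' hx

include hz hη hz' hη'

lemma Kb_sub {T : ℝ} (hT : T ∈ Ioo (0 : ℝ) 1) :
    Kb a L (fun x => β x - β' x) (fun x => p x - p' x) (fun x => γ x - γ' x) T
      = Kb a L β p γ T - Kb a L β' p' γ' T := by
  have ha2 : 2 ≤ a := by linarith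
  have hT' := Ioo_subset_Ioc_self hT
  have e1 : M a (fun x => 1 / 2 * ((1 - x ^ 2) ^ a * (2 * a * P a (fun x => β x - β' x) x))) T
      = M a (fun x => 1 / 2 * ((1 - x ^ 2) ^ a * (2 * a * P a β x))) T
        - M a (fun x => 1 / 2 * ((1 - x ^ 2) ^ a * (2 * a * P a β' x))) T := by
    rw [← M_sub (CB_wP ha2 h) (CB_wP ha2 h') a hT']
    refine M_congr a hT' fun x hx => ?_
    rw [P_sub (h.wβ ha2) (h'.wβ ha2) (Ioo_subset_Icc_self hx)]
    ring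
  have e2 : M a (fun x => (1 + x ^ 2) * ff a L (fun x => β x - β' x) (fun x => p x - p' x)
      (fun x => γ x - γ' x) x) T = M a (fun x => (1 + x ^ 2) * ff a L β p γ x) T
        - M a (fun x => (1 + x ^ 2) * ff a L β' p' γ' x) T := by
    rw [← M_sub (CB_xff ha h0 h1 hz hη hG h) (CB_xff ha h0 h1 hz' hη' hG' h') a hT']
    refine M_congr a hT' fun x hx => ?_
    rw [ff_sub ha2 h h' hx]
    ring
  unfold Kb
  rw [e1, e2, ff_sub ha2 h h' hT]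
  ring

end

/-! ### positivity of the base functions -/

lemma M_pos {f : ℝ → ℝ} (hf : CB f) (hp : ∀ x ∈ Ioo (0 : ℝ) 1, 0 < f x) {T : ℝ}
    (hT : T ∈ Ioo (0 : ℝ) 1) : 0 < M a f T := by
  unfold M
  refine mul_pos (rpow_pos_of_pos hT.1 _) (intervalIntegral.intervalIntegral_pos_of_pos_on
    (intble_M hf a (Ioo_subset_Ioc_self hT)) (fun y hy => ?_) hT.2)
  have hy' : y ∈ Ioo (0 : ℝ) 1 := ⟨hT.1.trans hy.1, hy.2⟩
  exact mul_pos (rpow_pos_of_pos hy'.1 _) (hp y hy')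

lemma bb_pos (ha : 2 ≤ a) {T : ℝ} (hT : T ∈ Ioo (0 : ℝ) 1) : 0 < bb a T := by
  rw [← bb_eq ha (Ioo_subset_Ioc_self hT)]
  refine M_pos ((CB.const _).mul ((CB.omega (by linarith)).mul (CB_Vb ha))) (fun x hx => ?_) hT
  have := Vb_pos ha (T := x) ⟨hx.1.le, hx.2⟩
  have := one_sub_sq_pos hx
  positivity

lemma eb_pos (ha : 2 ≤ a) {T : ℝ} (hT : T ∈ Ioo (0 : ℝ) 1) : 0 < eb a T := by
  have h1 := bb_pos ha hT
  have h2 := bb_le_eb ha (Ioo_subset_Ioc_self hT)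
  have h3 : 0 < 2 * (2 * a - 1) := by linarith
  exact (mul_pos_iff_of_pos_left h3).1 (h1.trans_le h2)

lemma gb_pos (ha : 2 ≤ a) {T : ℝ} (hT : T ∈ Ioo (0 : ℝ) 1) : 0 < gb a T :=
  M_pos (CB_seb ha) (fun _ hx => mul_pos (sqrt_w_pos hx) (eb_pos ha hx)) hT

/-! ### the function space -/

abbrev XX := Ioo (0 : ℝ) 1 →ᵇ ℝ

/-- extension with a weight -/
noncomputable def ex (W : ℝ → ℝ) (u : XX) (T : ℝ) : ℝ :=
  if h : T ∈ Ioo (0 : ℝ) 1 then W T * u ⟨T, h⟩ else 0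

lemma ex_of {W : ℝ → ℝ} (u : XX) {T : ℝ} (h : T ∈ Ioo (0 : ℝ) 1) :
    ex W u T = W T * u ⟨T, h⟩ := by
  unfold ex
  rw [dif_pos h]

lemma contOn_ex {W : ℝ → ℝ} (hW : ContinuousOn W (Ioo 0 1)) (u : XX) :
    ContinuousOn (ex W u) (Ioo 0 1) := by
  rw [continuousOn_iff_continuous_domRestrict]
  have : (Ioo (0 : ℝ) 1).domRestrict (ex W u) = fun x => (Ioo (0 : ℝ) 1).domRestrict W x * u x := by
    ext x
    rw [domRestrict_apply, ex_of u x.2]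
    rfl
  rw [this]
  exact (continuousOn_iff_continuous_domRestrict.1 hW).mul u.continuous

lemma abs_ex_le {W : ℝ → ℝ} (hW : ∀ x ∈ Ioo (0 : ℝ) 1, 0 ≤ W x) (u : XX) {x : ℝ}
    (hx : x ∈ Ioo (0 : ℝ) 1) : |ex W u x| ≤ ‖u‖ * W x := by
  rw [ex_of u hx, abs_mul, abs_of_nonneg (hW x hx), mul_comm]
  exact mul_le_mul_of_nonneg_right (u.norm_coe_le_norm _) (hW x hx)

lemma ex_sub {W : ℝ → ℝ} (u v : XX) : (fun x => ex W u x - ex W v x) = ex W (u - v) := by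
  funext x
  unfold ex
  split_ifs with h
  · rw [BoundedContinuousFunction.sub_apply]
    ring
  · simp

/-- a weighted bounded function as an element of the space -/
noncomputable def mk (W f : ℝ → ℝ) (hW : ContinuousOn W (Ioo 0 1))
    (hp : ∀ x ∈ Ioo (0 : ℝ) 1, 0 < W x) (hf : ContinuousOn f (Ioo 0 1)) (C : ℝ)
    (hC : ∀ x ∈ Ioo (0 : ℝ) 1, |f x| ≤ C * W x) : XX :=
  BoundedContinuousFunction.ofNormedAddCommGroup (fun x : Ioo (0 : ℝ) 1 => f x / W x)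
    (continuousOn_iff_continuous_domRestrict.1 (hf.div hW fun x hx => (hp x hx).ne')) C
    fun x => by
      rw [Real.norm_eq_abs, abs_div, abs_of_pos (hp x x.2), div_le_iff₀ (hp x x.2)]
      exact hC x x.2

lemma mk_apply {W f : ℝ → ℝ} {hW : ContinuousOn W (Ioo 0 1)}
    {hp : ∀ x ∈ Ioo (0 : ℝ) 1, 0 < W x} {hf : ContinuousOn f (Ioo 0 1)} {C : ℝ}
    {hC : ∀ x ∈ Ioo (0 : ℝ) 1, |f x| ≤ C * W x} (x : Ioo (0 : ℝ) 1) :
    mk W f hW hp hf C hC x = f x / W x := rfl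

lemma ex_mk {W f : ℝ → ℝ} {hW : ContinuousOn W (Ioo 0 1)}
    {hp : ∀ x ∈ Ioo (0 : ℝ) 1, 0 < W x} {hf : ContinuousOn f (Ioo 0 1)} {C : ℝ}
    {hC : ∀ x ∈ Ioo (0 : ℝ) 1, |f x| ≤ C * W x} {x : ℝ} (hx : x ∈ Ioo (0 : ℝ) 1) :
    ex W (mk W f hW hp hf C hC) x = f x := by
  rw [ex_of _ hx, mk_apply]
  have := (hp x hx).ne'
  field_simp

end Vale.Agent.P224.R2.H494
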