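import Mathlib

/-!
Odd dimension: the averaging operators of the exact flow.
-/

namespace Vale.Agent.P224.R2.H494

open MeasureTheory Set Filter Function Real
open scoped Topology

/-- the averaging operator -/
noncomputable def M (a : ℝ) (f : ℝ → ℝ) (T : ℝ) : ℝ := T ^ (a - 1) * ∫ x in T..1, x ^ (-a) * f x

/-- the primitive operator -/
noncomputable def P (a : ℝ) (f : ℝ → ℝ) (T : ℝ) : ℝ := ∫ x in T..1, x * f x * (1 - x ^ 2) ^ (-a - 1)

/-- continuous and bounded on the open unit interval -/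
def CB (f : ℝ → ℝ) : Prop := ContinuousOn f (Ioo 0 1) ∧ ∃ C, ∀ x ∈ Ioo (0 : ℝ) 1, |f x| ≤ C

lemma one_sub_sq_pos {T : ℝ} (hT : T ∈ Ioo (0 : ℝ) 1) : 0 < 1 - T ^ 2 := by nlinarith [hT.1, hT.2]

lemma CB.cont {f : ℝ → ℝ} (h : CB f) : ContinuousOn f (Ioo 0 1) := h.1

lemma CB.intble {f : ℝ → ℝ} (h : CB f) {T : ℝ} (hT : T ∈ Icc (0 : ℝ) 1) :
    IntervalIntegrable f volume T 1 := by
  obtain ⟨C, hC⟩ := h.2
  rw [intervalIntegrable_iff_integrableOn_Ioo_of_le hT.2]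
  refine Integrable.of_bound (C := C) ?_ ?_
  · exact (h.1.mono (Ioo_subset_Ioo_left hT.1)).aestronglyMeasurable measurableSet_Ioo
  · filter_upwards [ae_restrict_mem measurableSet_Ioo] with x hx
    exact hC x (Ioo_subset_Ioo_left hT.1 hx)

lemma CB.const (c : ℝ) : CB fun _ => c := ⟨continuousOn_const, |c|, fun _ _ => le_rfl⟩

lemma CB.add {f g : ℝ → ℝ} (hf : CB f) (hg : CB g) : CB fun x => f x + g x := by
  obtain ⟨C, hC⟩ := hf.2
  obtain ⟨D, hD⟩ := hg.2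
  exact ⟨hf.1.add hg.1, C + D, fun x hx => (abs_add_le _ _).trans (add_le_add (hC x hx) (hD x hx))⟩

lemma CB.neg {f : ℝ → ℝ} (hf : CB f) : CB fun x => -f x := by
  obtain ⟨C, hC⟩ := hf.2
  exact ⟨hf.1.neg, C, fun x hx => by rw [abs_neg]; exact hC x hx⟩

lemma CB.sub {f g : ℝ → ℝ} (hf : CB f) (hg : CB g) : CB fun x => f x - g x := by
  simpa only [sub_eq_add_neg] using hf.add hg.neg

lemma CB.mul {f g : ℝ → ℝ} (hf : CB f) (hg : CB g) : CB fun x => f x * g x := by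
  obtain ⟨C, hC⟩ := hf.2
  obtain ⟨D, hD⟩ := hg.2
  refine ⟨hf.1.mul hg.1, C * D, fun x hx => ?_⟩
  rw [abs_mul]
  exact mul_le_mul (hC x hx) (hD x hx) (abs_nonneg _) ((abs_nonneg _).trans (hC x hx))

lemma CB.of_cont {f : ℝ → ℝ} (hf : ContinuousOn f (Icc 0 1)) : CB f := by
  obtain ⟨C, hC⟩ := isCompact_Icc.exists_bound_of_continuousOn hf
  exact ⟨hf.mono Ioo_subset_Icc_self, C, fun x hx => hC x (Ioo_subset_Icc_self hx)⟩

lemma CB.of_le {f g : ℝ → ℝ} (hf : ContinuousOn f (Ioo 0 1)) (hg : CB g)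
    (h : ∀ x ∈ Ioo (0 : ℝ) 1, |f x| ≤ g x) : CB f := by
  obtain ⟨C, hC⟩ := hg.2
  exact ⟨hf, C, fun x hx => (h x hx).trans ((le_abs_self _).trans (hC x hx))⟩

lemma CB.congr {f g : ℝ → ℝ} (hf : CB f) (h : ∀ x ∈ Ioo (0 : ℝ) 1, g x = f x) : CB g := by
  obtain ⟨C, hC⟩ := hf.2
  exact ⟨hf.1.congr h, C, fun x hx => by rw [h x hx]; exact hC x hx⟩

lemma CB.omega {b : ℝ} (hb : 0 ≤ b) : CB fun x => (1 - x ^ 2) ^ b :=
  CB.of_cont ((continuous_const.sub (continuous_id.pow 2)).rpow_const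
    fun _ => Or.inr hb).continuousOn

/-- integrability with the singular factor -/
lemma intble_M {f : ℝ → ℝ} (h : CB f) (a : ℝ) {T : ℝ} (hT : T ∈ Ioc (0 : ℝ) 1) :
    IntervalIntegrable (fun x => x ^ (-a) * f x) volume T 1 := by
  obtain ⟨C, hC⟩ := h.2
  have hc : ContinuousOn (fun x : ℝ => x ^ (-a)) (Icc T 1) :=
    continuousOn_id.rpow_const fun x hx => Or.inl (hT.1.trans_le hx.1).ne'
  obtain ⟨D, hD⟩ := isCompact_Icc.exists_bound_of_continuousOn hc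
  rw [intervalIntegrable_iff_integrableOn_Ioo_of_le hT.2]
  refine Integrable.of_bound (C := D * C) ?_ ?_
  · exact ((hc.mono Ioo_subset_Icc_self).mul
      (h.1.mono (Ioo_subset_Ioo_left hT.1.le))).aestronglyMeasurable measurableSet_Ioo
  · filter_upwards [ae_restrict_mem measurableSet_Ioo] with x hx
    rw [norm_mul]
    have h1 := hD x (Ioo_subset_Icc_self hx)
    exact mul_le_mul h1 (hC x (Ioo_subset_Ioo_left hT.1.le hx)) (abs_nonneg _)
      ((norm_nonneg _).trans h1)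

lemma M_add {f g : ℝ → ℝ} (hf : CB f) (hg : CB g) (a : ℝ) {T : ℝ} (hT : T ∈ Ioc (0 : ℝ) 1) :
    M a (fun x => f x + g x) T = M a f T + M a g T := by
  unfold M
  rw [← mul_add, ← intervalIntegral.integral_add (intble_M hf a hT) (intble_M hg a hT)]
  congr 1
  refine intervalIntegral.integral_congr fun x _ => ?_
  ring

lemma M_sub {f g : ℝ → ℝ} (hf : CB f) (hg : CB g) (a : ℝ) {T : ℝ} (hT : T ∈ Ioc (0 : ℝ) 1) :
    M a (fun x => f x - g x) T = M a f T - M a g T := by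
  unfold M
  rw [← mul_sub, ← intervalIntegral.integral_sub (intble_M hf a hT) (intble_M hg a hT)]
  congr 1
  refine intervalIntegral.integral_congr fun x _ => ?_
  ring

lemma M_const_mul {f : ℝ → ℝ} (c a T : ℝ) : M a (fun x => c * f x) T = c * M a f T := by
  have h1 : ∫ x in T..1, x ^ (-a) * (c * f x) = c * ∫ x in T..1, x ^ (-a) * f x := by
    rw [← intervalIntegral.integral_const_mul]
    refine intervalIntegral.integral_congr fun x _ => ?_
    ring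
  unfold M
  rw [h1]
  ring

lemma M_neg {f : ℝ → ℝ} (a T : ℝ) : M a (fun x => -f x) T = -M a f T := by
  have := M_const_mul (f := f) (-1) a T
  simpa using this

lemma M_congr {f g : ℝ → ℝ} (a : ℝ) {T : ℝ} (hT : T ∈ Ioc (0 : ℝ) 1)
    (h : ∀ x ∈ Ioo (0 : ℝ) 1, f x = g x) : M a f T = M a g T := by
  unfold M
  congr 1
  refine intervalIntegral.integral_congr_ae ?_
  have h1 : ∀ᵐ x : ℝ, x ≠ 1 := by simp [ae_iff]
  filter_upwards [h1] with x hx1 hx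
  rw [uIoc_of_le hT.2] at hx
  rw [h x ⟨hT.1.trans hx.1, lt_of_le_of_ne hx.2 hx1⟩]

lemma M_mono {f g : ℝ → ℝ} (hf : CB f) (hg : CB g) (a : ℝ) {T : ℝ} (hT : T ∈ Ioc (0 : ℝ) 1)
    (h : ∀ x ∈ Ioo (0 : ℝ) 1, f x ≤ g x) : M a f T ≤ M a g T := by
  unfold M
  refine mul_le_mul_of_nonneg_left ?_ (rpow_nonneg hT.1.le _)
  refine intervalIntegral.integral_mono_on_of_le_Ioo hT.2 (intble_M hf a hT) (intble_M hg a hT)
    fun x hx => ?_
  have hx0 : 0 < x := hT.1.trans hx.1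
  exact mul_le_mul_of_nonneg_left (h x ⟨hx0, hx.2⟩) (rpow_nonneg hx0.le _)

lemma M_nonneg {f : ℝ → ℝ} (a : ℝ) {T : ℝ} (hT : T ∈ Ioc (0 : ℝ) 1)
    (h : ∀ x ∈ Ioo (0 : ℝ) 1, 0 ≤ f x) (hf : CB f) : 0 ≤ M a f T := by
  have h1 := M_mono (CB.const 0) hf a hT h
  have h2 : M a (fun _ => (0 : ℝ)) T = 0 := by
    unfold M
    simp
  rwa [h2] at h1

lemma abs_M_le {f g : ℝ → ℝ} (hf : CB f) (hg : CB g) (a : ℝ) {T : ℝ} (hT : T ∈ Ioc (0 : ℝ) 1)
    (h : ∀ x ∈ Ioo (0 : ℝ) 1, |f x| ≤ g x) : |M a f T| ≤ M a g T := by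
  rw [abs_le]
  constructor
  · rw [← M_neg]
    exact M_mono hg.neg hf a hT fun x hx => by
      have := (abs_le.1 (h x hx)).1
      linarith
  · exact M_mono hf hg a hT fun x hx => (abs_le.1 (h x hx)).2

/-- the differential equation of the average -/
theorem hasDerivAt_M {f : ℝ → ℝ} (h : CB f) (a : ℝ) {T : ℝ} (hT : T ∈ Ioo (0 : ℝ) 1) :
    HasDerivAt (M a f) (((a - 1) * M a f T - f T) / T) T := by
  have hT0 := hT.1.ne'
  have hc : ContinuousOn (fun x => x ^ (-a) * f x) (Ioo 0 1) :=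
    (continuousOn_id.rpow_const fun x hx => Or.inl (show (0 : ℝ) < x from hx.1).ne').mul h.1
  have hca : ContinuousAt (fun x => x ^ (-a) * f x) T := hc.continuousAt (Ioo_mem_nhds hT.1 hT.2)
  have h1 := intervalIntegral.integral_hasDerivAt_left (intble_M h a ⟨hT.1, hT.2.le⟩)
    (hc.stronglyMeasurableAtFilter isOpen_Ioo T hT) hca
  have h2 := (hasDerivAt_rpow_const (x := T) (p := a - 1) (Or.inl hT0)).fun_mul h1
  refine h2.congr_deriv ?_
  unfold M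
  have e1 : T ^ (a - 1) * T ^ (-a) = T⁻¹ := by
    rw [← rpow_add hT.1, show a - 1 + -a = -1 by ring, rpow_neg_one]
  have e2 : T ^ (a - 1 - 1) = T ^ (a - 1) / T := by rw [rpow_sub_one hT0]
  rw [e2]
  have e3 : T ^ (a - 1) * -(T ^ (-a) * f T) = -(T⁻¹ * f T) := by
    calc T ^ (a - 1) * -(T ^ (-a) * f T) = -((T ^ (a - 1) * T ^ (-a)) * f T) := by ring
      _ = _ := by rw [e1]
  rw [e3]
  field_simp
  ring

/-- comparison from above -/
theorem M_le {f Γ Γ' : ℝ → ℝ} (h : CB f) (a : ℝ) (hΓ : ContinuousOn Γ (Ioc 0 1)) (h1 : 0 ≤ Γ 1)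
    (hd : ∀ T ∈ Ioo (0 : ℝ) 1, HasDerivAt Γ (Γ' T) T)
    (hle : ∀ T ∈ Ioo (0 : ℝ) 1, T * Γ' T ≤ (a - 1) * Γ T - f T) {T : ℝ}
    (hT : T ∈ Ioc (0 : ℝ) 1) : M a f T ≤ Γ T := by
  rcases eq_or_lt_of_le hT.2 with h0 | h0
  · rw [h0]
    unfold M
    simpa using h1
  -- the primitive
  set G : ℝ → ℝ := fun x => x ^ (1 - a) * Γ x + ∫ y in (1 : ℝ)..x, y ^ (-a) * f y with hG
  have hTI : T ∈ Ioo (0 : ℝ) 1 := ⟨hT.1, h0⟩
  have hc : ContinuousOn (fun x => x ^ (-a) * f x) (Ioo 0 1) :=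
    (continuousOn_id.rpow_const fun x hx => Or.inl (show (0 : ℝ) < x from hx.1).ne').mul h.1
  have hint := intble_M h a hT
  have hGd : ∀ x ∈ Ioo T 1, HasDerivAt G
      ((1 - a) * x ^ (1 - a - 1) * Γ x + x ^ (1 - a) * Γ' x + x ^ (-a) * f x) x := by
    intro x hx
    have hx' : x ∈ Ioo (0 : ℝ) 1 := ⟨hT.1.trans hx.1, hx.2⟩
    have e1 := (hasDerivAt_rpow_const (x := x) (p := 1 - a) (Or.inl hx'.1.ne')).fun_mul (hd x hx')
    have e2 : HasDerivAt (fun x => ∫ y in (1 : ℝ)..x, y ^ (-a) * f y) (x ^ (-a) * f x) x :=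
      intervalIntegral.integral_hasDerivAt_right
        (intble_M h a ⟨hx'.1, hx'.2.le⟩).symm
        (hc.stronglyMeasurableAtFilter isOpen_Ioo x hx')
        (hc.continuousAt (Ioo_mem_nhds hx'.1 hx'.2))
    exact e1.fun_add e2
  have hGc : ContinuousOn G (Icc T 1) := by
    refine ContinuousOn.add ?_ ?_
    · refine ContinuousOn.mul ?_ (hΓ.mono fun x hx => ⟨hT.1.trans_le hx.1, hx.2⟩)
      exact continuousOn_id.rpow_const fun x hx => Or.inl (hT.1.trans_le hx.1).ne'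
    · have := intervalIntegral.continuousOn_primitive_interval' (μ := volume)
        (f := fun y => y ^ (-a) * f y) (a := 1) (b₁ := T) (b₂ := 1) hint right_mem_uIcc
      rwa [uIcc_of_le hT.2] at this
  have hanti : AntitoneOn G (Icc T 1) := by
    refine antitoneOn_of_deriv_nonpos (convex_Icc _ _) hGc ?_ ?_
    · intro x hx
      rw [interior_Icc] at hx
      exact (hGd x hx).differentiableAt.differentiableWithinAt
    · intro x hx
      rw [interior_Icc] at hx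
      rw [(hGd x hx).deriv]
      have hx' : x ∈ Ioo (0 : ℝ) 1 := ⟨hT.1.trans hx.1, hx.2⟩
      have e1 : x ^ (1 - a - 1) = x ^ (-a) := by congr 1; ring
      have e2 : x ^ (1 - a) = x * x ^ (-a) := by
        rw [show 1 - a = 1 + -a by ring, rpow_add hx'.1, rpow_one]
      rw [e1, e2]
      have h3 := hle x hx'
      have h4 : 0 ≤ x ^ (-a) := rpow_nonneg hx'.1.le _
      have h5 := mul_nonneg h4 (sub_nonneg.2 h3)
      linarith
  have h6 := hanti (left_mem_Icc.2 hT.2) (right_mem_Icc.2 hT.2) hT.2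
  simp only [hG, intervalIntegral.integral_same, add_zero, one_rpow, one_mul] at h6
  rw [intervalIntegral.integral_symm] at h6
  have h7 : ∫ y in T..1, y ^ (-a) * f y ≤ T ^ (1 - a) * Γ T := by linarith
  unfold M
  calc T ^ (a - 1) * ∫ y in T..1, y ^ (-a) * f y
      ≤ T ^ (a - 1) * (T ^ (1 - a) * Γ T) :=
        mul_le_mul_of_nonneg_left h7 (rpow_nonneg hT.1.le _)
    _ = Γ T := by
        rw [← mul_assoc, ← rpow_add hT.1, show a - 1 + (1 - a) = 0 by ring, rpow_zero, one_mul]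

/-- comparison from below -/
theorem le_M {f Γ Γ' : ℝ → ℝ} (h : CB f) (a : ℝ) (hΓ : ContinuousOn Γ (Ioc 0 1)) (h1 : Γ 1 ≤ 0)
    (hd : ∀ T ∈ Ioo (0 : ℝ) 1, HasDerivAt Γ (Γ' T) T)
    (hle : ∀ T ∈ Ioo (0 : ℝ) 1, (a - 1) * Γ T - f T ≤ T * Γ' T) {T : ℝ}
    (hT : T ∈ Ioc (0 : ℝ) 1) : Γ T ≤ M a f T := by
  have h2 := M_le (Γ := fun x => -Γ x) (Γ' := fun x => -Γ' x) h.neg a hΓ.neg (by simpa using h1)
    (fun T hT => (hd T hT).neg) (fun T hT => by have := hle T hT; linarith) hT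
  rw [M_neg] at h2
  linarith

/-- solution of the differential equation -/
theorem M_eq {f Γ Γ' : ℝ → ℝ} (h : CB f) (a : ℝ) (hΓ : ContinuousOn Γ (Ioc 0 1)) (h1 : Γ 1 = 0)
    (hd : ∀ T ∈ Ioo (0 : ℝ) 1, HasDerivAt Γ (Γ' T) T)
    (he : ∀ T ∈ Ioo (0 : ℝ) 1, T * Γ' T = (a - 1) * Γ T - f T) {T : ℝ}
    (hT : T ∈ Ioc (0 : ℝ) 1) : M a f T = Γ T :=
  le_antisymm (M_le h a hΓ h1.ge hd (fun T hT => (he T hT).le) hT)
    (le_M h a hΓ h1.le hd (fun T hT => (he T hT).ge) hT)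

/-- the average is continuous -/
lemma continuousOn_M {f : ℝ → ℝ} (h : CB f) (a : ℝ) : ContinuousOn (M a f) (Ioc 0 1) := by
  intro T hT
  rcases eq_or_lt_of_le hT.2 with h0 | h0
  · -- at the end point
    rw [h0]
    have hint := intble_M h a (show (1 / 2 : ℝ) ∈ Ioc (0 : ℝ) 1 by norm_num)
    have h1 := intervalIntegral.continuousOn_primitive_interval' (μ := volume)
        (f := fun y => y ^ (-a) * f y) (a := 1) (b₁ := 1 / 2) (b₂ := 1) hint right_mem_uIcc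
    rw [uIcc_of_le (by norm_num)] at h1
    have h2 : ContinuousWithinAt (M a f) (Icc (1 / 2) 1) 1 := by
      have h3 : ContinuousWithinAt (fun x => x ^ (a - 1) *
          -∫ y in (1 : ℝ)..x, y ^ (-a) * f y) (Icc (1 / 2) 1) 1 := by
        refine ContinuousWithinAt.mul ?_ (h1 1 (by norm_num)).neg
        exact (continuousAt_rpow_const _ _ (Or.inl one_ne_zero)).continuousWithinAt
      refine h3.congr (fun x _ => ?_) ?_
      · unfold M
        rw [intervalIntegral.integral_symm 1 x]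
      · unfold M
        simp
    refine h2.mono_of_mem_nhdsWithin ?_
    rw [mem_nhdsWithin]
    exact ⟨Ioi (1 / 2), isOpen_Ioi, by norm_num [mem_Ioi],
      fun x hx => ⟨(show (1 / 2 : ℝ) < x from hx.1).le, hx.2.2⟩⟩
  · exact (hasDerivAt_M h a ⟨hT.1, h0⟩).continuousAt.continuousWithinAt

/-- the average is bounded -/
lemma M_bdd {f : ℝ → ℝ} (h : CB f) {a : ℝ} (ha : 1 < a) {C : ℝ}
    (hC : ∀ x ∈ Ioo (0 : ℝ) 1, |f x| ≤ C) {T : ℝ} (hT : T ∈ Ioc (0 : ℝ) 1) :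
    |M a f T| ≤ C / (a - 1) := by
  refine (abs_M_le h (CB.const C) a hT hC).trans ?_
  have ha1 : 0 < a - 1 := by linarith
  have hC0 : 0 ≤ C := (abs_nonneg _).trans (hC (1 / 2) (by norm_num))
  refine M_le (Γ := fun _ => C / (a - 1)) (Γ' := fun _ => 0) (CB.const C) a continuousOn_const
    (by positivity) (fun T _ => hasDerivAt_const _ _) (fun T _ => ?_) hT
  rw [mul_div_cancel₀ _ ha1.ne']
  simp

lemma CB.M {f : ℝ → ℝ} (h : CB f) {a : ℝ} (ha : 1 < a) : CB (M a f) := by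
  obtain ⟨C, hC⟩ := h.2
  exact ⟨(continuousOn_M h a).mono Ioo_subset_Ioc_self, C / (a - 1),
    fun x hx => M_bdd h ha hC (Ioo_subset_Ioc_self hx)⟩

lemma M_one (a : ℝ) (f : ℝ → ℝ) : M a f 1 = 0 := by
  unfold M
  simp

/-! ### the primitive operator -/

/-- bounded by a multiple of the weight -/
def WB (a : ℝ) (f : ℝ → ℝ) : Prop :=
  ContinuousOn f (Ioo 0 1) ∧ ∃ C, ∀ x ∈ Ioo (0 : ℝ) 1, |f x| ≤ C * (1 - x ^ 2) ^ (a + 1)

lemma WB.toCB {a : ℝ} (ha : 0 ≤ a) {f : ℝ → ℝ} (h : WB a f) : CB f := by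
  obtain ⟨C, hC⟩ := h.2
  exact CB.of_le h.1 ((CB.const C).mul (CB.omega (by linarith : 0 ≤ a + 1))) hC

lemma WB.cb {a : ℝ} {f : ℝ → ℝ} (h : WB a f) :
    CB fun x => x * f x * (1 - x ^ 2) ^ (-a - 1) := by
  obtain ⟨C, hC⟩ := h.2
  refine ⟨(continuousOn_id.mul h.1).mul ?_, C, fun x hx => ?_⟩
  · exact (Continuous.continuousOn (by fun_prop)).rpow_const
      fun x hx => Or.inl (one_sub_sq_pos hx).ne'
  · have hw := one_sub_sq_pos hx
    have h1 := hC x hx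
    rw [abs_mul, abs_mul, abs_of_pos hx.1, abs_of_nonneg (rpow_nonneg hw.le _)]
    have h2 : x * |f x| ≤ 1 * (C * (1 - x ^ 2) ^ (a + 1)) :=
      mul_le_mul hx.2.le h1 (abs_nonneg _) zero_le_one
    calc x * |f x| * (1 - x ^ 2) ^ (-a - 1)
        ≤ 1 * (C * (1 - x ^ 2) ^ (a + 1)) * (1 - x ^ 2) ^ (-a - 1) :=
          mul_le_mul_of_nonneg_right h2 (rpow_nonneg hw.le _)
      _ = C * ((1 - x ^ 2) ^ (a + 1) * (1 - x ^ 2) ^ (-a - 1)) := by ring
      _ = C := by rw [← rpow_add hw, show a + 1 + (-a - 1) = 0 by ring, rpow_zero, mul_one]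

lemma WB.add {a : ℝ} {f g : ℝ → ℝ} (hf : WB a f) (hg : WB a g) : WB a fun x => f x + g x := by
  obtain ⟨C, hC⟩ := hf.2
  obtain ⟨D, hD⟩ := hg.2
  refine ⟨hf.1.add hg.1, C + D, fun x hx => ?_⟩
  have := add_le_add (hC x hx) (hD x hx)
  calc |f x + g x| ≤ |f x| + |g x| := abs_add_le _ _
    _ ≤ _ := by linarith

lemma WB.neg {a : ℝ} {f : ℝ → ℝ} (hf : WB a f) : WB a fun x => -f x := by
  obtain ⟨C, hC⟩ := hf.2
  exact ⟨hf.1.neg, C, fun x hx => by rw [abs_neg]; exact hC x hx⟩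

lemma WB.sub {a : ℝ} {f g : ℝ → ℝ} (hf : WB a f) (hg : WB a g) : WB a fun x => f x - g x := by
  simpa only [sub_eq_add_neg] using hf.add hg.neg

lemma WB.cmul {a : ℝ} {f g : ℝ → ℝ} (hf : WB a f) (hg : CB g) : WB a fun x => g x * f x := by
  obtain ⟨C, hC⟩ := hf.2
  obtain ⟨D, hD⟩ := hg.2
  refine ⟨hg.1.mul hf.1, D * C, fun x hx => ?_⟩
  rw [abs_mul]
  calc |g x| * |f x| ≤ D * (C * (1 - x ^ 2) ^ (a + 1)) :=
        mul_le_mul (hD x hx) (hC x hx) (abs_nonneg _) ((abs_nonneg _).trans (hD x hx))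
    _ = _ := by ring

lemma P_add {a : ℝ} {f g : ℝ → ℝ} (hf : WB a f) (hg : WB a g) {T : ℝ} (hT : T ∈ Icc (0 : ℝ) 1) :
    P a (fun x => f x + g x) T = P a f T + P a g T := by
  unfold P
  rw [← intervalIntegral.integral_add (hf.cb.intble hT) (hg.cb.intble hT)]
  refine intervalIntegral.integral_congr fun x _ => ?_
  ring

lemma P_sub {a : ℝ} {f g : ℝ → ℝ} (hf : WB a f) (hg : WB a g) {T : ℝ} (hT : T ∈ Icc (0 : ℝ) 1) :
    P a (fun x => f x - g x) T = P a f T - P a g T := by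
  unfold P
  rw [← intervalIntegral.integral_sub (hf.cb.intble hT) (hg.cb.intble hT)]
  refine intervalIntegral.integral_congr fun x _ => ?_
  ring

lemma P_const_mul {f : ℝ → ℝ} (c a T : ℝ) : P a (fun x => c * f x) T = c * P a f T := by
  unfold P
  rw [← intervalIntegral.integral_const_mul]
  refine intervalIntegral.integral_congr fun x _ => ?_
  ring

lemma P_neg {f : ℝ → ℝ} (a T : ℝ) : P a (fun x => -f x) T = -P a f T := by
  have := P_const_mul (f := f) (-1) a T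
  simpa using this

lemma P_mono {a : ℝ} {f g : ℝ → ℝ} (hf : WB a f) (hg : WB a g) {T : ℝ} (hT : T ∈ Icc (0 : ℝ) 1)
    (h : ∀ x ∈ Ioo (0 : ℝ) 1, f x ≤ g x) : P a f T ≤ P a g T := by
  unfold P
  refine intervalIntegral.integral_mono_on_of_le_Ioo hT.2 (hf.cb.intble hT) (hg.cb.intble hT)
    fun x hx => ?_
  have hx' : x ∈ Ioo (0 : ℝ) 1 := ⟨hT.1.trans_lt hx.1, hx.2⟩
  exact mul_le_mul_of_nonneg_right (mul_le_mul_of_nonneg_left (h x hx') hx'.1.le)
    (rpow_nonneg (one_sub_sq_pos hx').le _)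

lemma P_nonneg {a : ℝ} {f : ℝ → ℝ} {T : ℝ} (hT : T ∈ Icc (0 : ℝ) 1)
    (h : ∀ x ∈ Ioo (0 : ℝ) 1, 0 ≤ f x) (hf : WB a f) : 0 ≤ P a f T := by
  have h0 : WB a fun _ => (0 : ℝ) := ⟨continuousOn_const, 0, fun x _ => by simp⟩
  have h1 := P_mono h0 hf hT h
  have h2 : P a (fun _ => (0 : ℝ)) T = 0 := by
    unfold P
    simp
  rwa [h2] at h1

lemma abs_P_le {a : ℝ} {f g : ℝ → ℝ} (hf : WB a f) (hg : WB a g) {T : ℝ}
    (hT : T ∈ Icc (0 : ℝ) 1) (h : ∀ x ∈ Ioo (0 : ℝ) 1, |f x| ≤ g x) : |P a f T| ≤ P a g T := by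
  rw [abs_le]
  constructor
  · rw [← P_neg]
    exact P_mono hg.neg hf hT fun x hx => by
      have := (abs_le.1 (h x hx)).1
      linarith
  · exact P_mono hf hg hT fun x hx => (abs_le.1 (h x hx)).2

theorem hasDerivAt_P {a : ℝ} {f : ℝ → ℝ} (h : WB a f) {T : ℝ} (hT : T ∈ Ioo (0 : ℝ) 1) :
    HasDerivAt (P a f) (-(T * f T * (1 - T ^ 2) ^ (-a - 1))) T := by
  have hc := h.cb.1
  exact intervalIntegral.integral_hasDerivAt_left (h.cb.intble ⟨hT.1.le, hT.2.le⟩)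
    (hc.stronglyMeasurableAtFilter isOpen_Ioo T hT) (hc.continuousAt (Ioo_mem_nhds hT.1 hT.2))

lemma continuousOn_P {a : ℝ} {f : ℝ → ℝ} (h : WB a f) : ContinuousOn (P a f) (Icc 0 1) := by
  have h1 := intervalIntegral.continuousOn_primitive_interval' (μ := volume)
    (f := fun x => x * f x * (1 - x ^ 2) ^ (-a - 1)) (a := 1) (b₁ := 0) (b₂ := 1)
    (h.cb.intble (by norm_num)) right_mem_uIcc
  rw [uIcc_of_le zero_le_one] at h1
  refine h1.neg.congr fun x _ => ?_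
  unfold P
  rw [intervalIntegral.integral_symm]
  rfl

lemma P_one (a : ℝ) (f : ℝ → ℝ) : P a f 1 = 0 := by
  unfold P
  simp

/-- comparison for the primitive -/
theorem P_le {a : ℝ} {f Γ Γ' : ℝ → ℝ} (h : WB a f) {l : ℝ} (hl : 0 ≤ l)
    (h1 : Tendsto Γ (𝓝[<] 1) (𝓝 l))
    (hd : ∀ T ∈ Ioo (0 : ℝ) 1, HasDerivAt Γ (Γ' T) T)
    (hle : ∀ T ∈ Ioo (0 : ℝ) 1, Γ' T ≤ -(T * f T * (1 - T ^ 2) ^ (-a - 1))) {T : ℝ}
    (hT : T ∈ Ioo (0 : ℝ) 1) : P a f T ≤ Γ T := by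
  have hdd : ∀ x ∈ Ioo (0 : ℝ) 1, HasDerivAt (fun x => Γ x - P a f x)
      (Γ' x - -(x * f x * (1 - x ^ 2) ^ (-a - 1))) x :=
    fun x hx => (hd x hx).fun_sub (hasDerivAt_P h hx)
  have hanti : AntitoneOn (fun x => Γ x - P a f x) (Ioo 0 1) := by
    refine antitoneOn_of_deriv_nonpos (convex_Ioo _ _)
      (fun x hx => (hdd x hx).continuousAt.continuousWithinAt) ?_ ?_
    · intro x hx
      rw [interior_Ioo] at hx
      exact (hdd x hx).differentiableAt.differentiableWithinAt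
    · intro x hx
      rw [interior_Ioo] at hx
      rw [(hdd x hx).deriv]
      linarith [hle x hx]
  have hP : Tendsto (P a f) (𝓝[<] 1) (𝓝 0) := by
    have h2 := (continuousOn_P h) 1 (right_mem_Icc.2 zero_le_one)
    rw [ContinuousWithinAt, P_one] at h2
    refine h2.mono_left ?_
    rw [← nhdsWithin_Ioo_eq_nhdsLT (show (0 : ℝ) < 1 by norm_num)]
    exact nhdsWithin_mono _ Ioo_subset_Icc_self
  have h3 : Tendsto (fun x => Γ x - P a f x) (𝓝[<] 1) (𝓝 (l - 0)) := h1.sub hP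
  have h4 : l - 0 ≤ Γ T - P a f T := by
    refine le_of_tendsto h3 ?_
    rw [← nhdsWithin_Ioo_eq_nhdsLT hT.2]
    filter_upwards [self_mem_nhdsWithin] with x hx
    exact hanti hT ⟨hT.1.trans hx.1, hx.2⟩ hx.1.le
  linarith

/-- primitive from the derivative -/
theorem P_eq {a : ℝ} {f Γ : ℝ → ℝ} (h : WB a f) (hΓ : ContinuousOn Γ (Icc 0 1))
    (hd : ∀ T ∈ Ioo (0 : ℝ) 1, HasDerivAt Γ (-(T * f T * (1 - T ^ 2) ^ (-a - 1))) T) {T : ℝ}
    (hT : T ∈ Icc (0 : ℝ) 1) : P a f T = Γ T - Γ 1 := by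
  rcases eq_or_lt_of_le hT.2 with h0 | h0
  · rw [h0, P_one]
    ring
  have h2 := intervalIntegral.integral_eq_sub_of_hasDerivAt_of_le (a := T) (b := 1)
    (f := fun x => -Γ x) (f' := fun x => x * f x * (1 - x ^ 2) ^ (-a - 1)) hT.2
    (hΓ.mono (Icc_subset_Icc_left hT.1)).neg
    (fun x hx => by
      have := (hd x ⟨hT.1.trans_lt hx.1, hx.2⟩).fun_neg
      simpa using this)
    (h.cb.intble hT)
  unfold P
  rw [h2]
  ring

end Vale.Agent.P224.R2.H494
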