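import Vale.Agent.P224.R2.H494.OCExp

/-!
Definitions for the comparison of the weights of the odd dimension.
-/

namespace Vale.Agent.P224.R2.H494.OC

open Vale.Agent.P224.R2.H627

set_option linter.unusedSimpArgs false

/-- coefficient of the additional weight -/
noncomputable def zA (t : ℝ) : ℝ := 21 / 4 + 21 / 2 * t
/-- coefficient of the additional weight -/
noncomputable def zB (t : ℝ) : ℝ := 33 / 4 + 17 * t
/-- lower bound of `T` -/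
noncomputable def Tlo (s : ℝ) : ℝ := s * (7071 / 10000 + 1767 / 10000 * s ^ 2 + 66 / 1000 * s ^ 4)
/-- upper bound of `T` -/
noncomputable def Thi (s : ℝ) : ℝ := s * (70711 / 100000 + 21 / 100 * s ^ 2)
noncomputable def sW (u s t : ℝ) : ℝ := s * vW s t + (1 - s) ^ 2 * u
noncomputable def cV (s t : ℝ) : ℝ := ((2 - s ^ 2) ^ 2 - 31 / 10 * s ^ 4) * vL s t
noncomputable def qA (s t : ℝ) : ℝ :=
  9 / 10 * t * (s * vW s t + (1 - s) ^ 2 * uL s t) - XA s t - 2 * t ^ 3 * ((1 - s) ^ 2 * uL s t)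
noncomputable def qG (s t : ℝ) : ℝ :=
  (7 / 10 * t - 11 / 5 * t ^ 3) * uL s t - (1 + s) ^ 2 * XBr s t
noncomputable def qB0 (u s t : ℝ) : ℝ :=
  (1 - 9 / 10 * t) * (1 + 3 * t / 2) * t
      * (3 * t ^ 2 * (2 - s ^ 2) ^ 2 - zB t * s ^ 2 * (2 - s ^ 2)) * sW u s t
    - (2 + t) * (2 - s ^ 2) ^ 2 * XC0 s t
    + (2 + t) * (1 + 3 * t / 2) * (9 / 10 * t - 2 * t ^ 3) * s ^ 3 * cV s t / 2
noncomputable def qB1 (u s t : ℝ) : ℝ :=
  (1 - 9 / 10 * t) * (1 + 3 * t / 2) * t * (zA t * (2 - s ^ 2) ^ 2) * sW u s t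
    - (2 + t) * (2 - s ^ 2) ^ 2 * XC1 s t
    - (2 + t) * (1 + 3 * t / 2) * 2 * (9 / 10 * t + 11 / 5 * t ^ 3) * (2 - s ^ 2) ^ 2
      * ((1 - s) ^ 2 * u)
    + (2 + t) * (1 + 3 * t / 2) * (9 / 10 * t - 2 * t ^ 3) * (2 - s ^ 2) * s * cV s t / 2
noncomputable def qH0 (u s t : ℝ) : ℝ :=
  2 * (1 + s) * (2 + t) * (2 - s ^ 2) ^ 2 * sW u s t
    - 17 * ((1 + t / 2) * (1 + t)) * s ^ 2 * ((1 - s) * u) * (2 + t) * (2 - s ^ 2) ^ 2
    + (1 + s) * (2 + t) * (1 + 3 * t / 2) * s ^ 3 * cV s t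
    - 2 * (1 + s) * (1 + 3 * t / 2) * t
      * (6 * t ^ 2 * (2 - s ^ 2) ^ 2 - zB t * s ^ 2 * (2 - s ^ 2)) * sW u s t
noncomputable def qH1 (u s t : ℝ) : ℝ :=
  -4 * (1 + s) * (2 + t) * (1 + 3 * t / 2) * (2 - s ^ 2) ^ 2 * ((1 - s) ^ 2 * u)
    + (1 + s) * (2 + t) * (1 + 3 * t / 2) * (2 - s ^ 2) * s * cV s t
    - 2 * (1 + s) * (1 + 3 * t / 2) * t * (zA t * (2 - s ^ 2) ^ 2) * sW u s t

end Vale.Agent.P224.R2.H494.OC
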