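import Vale.Agent.P224.R2.H494.OADef

/-!
A lower bound of T.
-/

namespace Vale.Agent.P224.R2.H494.OC

open Vale.Agent.P224.R2.H627

set_option linter.unusedSimpArgs false

/-- lower bound of `T` -/
noncomputable def Tl3 (s : ℝ) : ℝ := s * (7071 / 10000 + 17 / 100 * s ^ 2)

end Vale.Agent.P224.R2.H494.OC
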