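import Vale.Agent.P224.R2.H494.OCPU1
import Vale.Agent.P224.R2.H494.OCPU2
import Vale.Agent.P224.R2.H494.OCPL1
import Vale.Agent.P224.R2.H494.OCPL2
import Vale.Agent.P224.R2.H494.OCPH
import Vale.Agent.P224.R2.H627.DCond

/-!
The scalar conditions of the odd dimension in normalised form.
-/

namespace Vale.Agent.P224.R2.H494.OC

open Vale.Agent.P224.R2.H627

/-- the bounds of the normalised functions of the odd flow at a given level -/
structure OBd (T s t W E ρ P Q D : ℝ) : Prop where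
  b : Bds2 T s t W E ρ
  P0 : 0 ≤ P
  Q0 : 0 ≤ Q
  D0 : 0 ≤ D
  Pu : P ≤ (1 - s ^ 2) ^ 3 * pU s t
  Qu : Q ≤ (1 - s ^ 2) ^ 2 * qU s t
  Du : D ≤ (1 - s ^ 2) ^ 3 * dlU s

/-- the auxiliary numbers: `v = (2 h)^(-1/2)`, `G = (1 + h)^(1/2)` and the parameter `d` -/
structure Aux (T s t d v G : ℝ) : Prop where
  d0 : 0 ≤ d
  d1 : d ≤ 501 / 500 * t
  v0 : 0 < v
  v2 : v ^ 2 * (2 * (1 - s ^ 2)) = 1
  G0 : 0 < G
  G2 : G ^ 2 = 2 - s ^ 2
  TG : T * G = s

/-- first extra term -/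
noncomputable def xA (s t d v P Q : ℝ) : ℝ :=
  (1 + t / 2) * (2 * d * (v * P) + t * d * (v * (1 - s ^ 2) * Q))
    + (1 + t) * (1 + t / 2) * d ^ 2 * s * (P / (1 - s ^ 2))
/-- second extra term -/
noncomputable def xB (t d v P : ℝ) : ℝ := d * (1 + 3 * t / 2) * (v * P)
/-- third extra term -/
noncomputable def xC (T s t d v G P Q D : ℝ) : ℝ :=
  (1 + 3 * t / 2) * (d ^ 2 * t * (G + 2 * s + s * T) * (P / (1 - s ^ 2))
    + 3 / 2 * d * (1 + t) * (1 + T) * s ^ 2 * (v * P / (1 - s ^ 2))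
    + 1 / 2 * d * (1 + t) * s * (G + s) * (v * D / (1 - s ^ 2))
    + 1 / 4 * d ^ 2 * (2 + d) * t * (G + s) * Q)

section

variable {T s t W E ρ P Q D d v G X X1 : ℝ}

lemma Aux.h0 (ha : Aux T s t d v G) : 0 < 1 - s ^ 2 := by
  have h1 := ha.v2
  have h2 := sq_nonneg v
  by_contra hc
  push Not at hc
  have : v ^ 2 * (2 * (1 - s ^ 2)) ≤ 0 := mul_nonpos_of_nonneg_of_nonpos h2 (by linarith)
  linarith

lemma SH_pos (s : ℝ) (h : 0 ≤ 1 - s ^ 2) : 0 < SH s := by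
  unfold SH
  linarith

/-- the bound of `√(h / 2)` -/
lemma Aux.vh (ha : Aux T s t d v G) : v * (1 - s ^ 2) ≤ SH s := by
  have h0 := ha.h0
  have h1 := SH_pos s h0.le
  have hv := ha.v0
  rw [← pow_le_pow_iff_left₀ (by positivity) h1.le (two_ne_zero)]
  have e : (v * (1 - s ^ 2)) ^ 2 = (1 - s ^ 2) / 2 := by
    linear_combination (1 - s ^ 2) / 2 * ha.v2
  rw [e]
  unfold SH
  generalize 1 - s ^ 2 = h at h0
  nlinarith [sq_nonneg (4565 / 10000 * h - 2739 / 10000)]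

/-- the bound of `√(1 + h)` -/
lemma Aux.GS (ha : Aux T s t d v G) (hs0 : 0 ≤ s) (hs1 : s ≤ 1) : G ≤ S2 s := by
  have h2 : s ^ 2 ≤ 1 := pow_le_one₀ hs0 hs1
  have h1 : 0 ≤ S2 s := by
    unfold S2
    nlinarith
  rw [← pow_le_pow_iff_left₀ ha.G0.le h1 (two_ne_zero), ha.G2]
  unfold S2
  nlinarith [sq_nonneg (s ^ 2), sq_nonneg (1 - s ^ 2 / 4)]

/-- the bound of `T` -/
lemma Aux.TB (_ : Aux T s t d v G) (hT : T ^ 2 * (2 - s ^ 2) = s ^ 2) (hT0 : 0 < T) (hs0 : 0 < s)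
    (hs1 : s < 1) : T ≤ Tb s := by
  have h2 : s ^ 2 < 1 := pow_lt_one₀ hs0.le hs1 two_ne_zero
  have h2' : 0 < s ^ 2 := by positivity
  have h1 : 0 ≤ Tb s := by
    unfold Tb
    positivity
  rw [← pow_le_pow_iff_left₀ hT0.le h1 (two_ne_zero)]
  have h3 : 0 < 2 - s ^ 2 := by linarith
  have h4 : T ^ 2 * (2 - s ^ 2) ≤ Tb s ^ 2 * (2 - s ^ 2) := by
    rw [hT]
    unfold Tb
    have e : (s * (7072 / 10000 + 2928 / 10000 * s ^ 2)) ^ 2 * (2 - s ^ 2)
        = s ^ 2 + s ^ 2 * ((1 - s ^ 2) * ((2 * (7072 / 10000) ^ 2 - 1)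
          + ((2 * (7072 / 10000) ^ 2 - 1) + 4 * (7072 / 10000) * (2928 / 10000)
            - (7072 / 10000) ^ 2) * s ^ 2
          + (2928 / 10000) ^ 2 * (s ^ 2) ^ 2)) := by ring
    rw [e]
    have : 0 ≤ s ^ 2 * ((1 - s ^ 2) * ((2 * (7072 / 10000) ^ 2 - 1)
          + ((2 * (7072 / 10000) ^ 2 - 1) + 4 * (7072 / 10000) * (2928 / 10000)
            - (7072 / 10000) ^ 2) * s ^ 2
          + (2928 / 10000) ^ 2 * (s ^ 2) ^ 2)) := by
      refine mul_nonneg h2'.le (mul_nonneg (by linarith) ?_)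
      norm_num
      positivity
    linarith
  exact le_of_mul_le_mul_right h4 h3

section bounds

variable (hb : OBd T s t W E ρ P Q D) (ha : Aux T s t d v G)
include hb ha

lemma pU_nonneg : 0 ≤ pU s t := by
  have h0 := ha.h0
  exact nonneg_of_mul_nonneg_right (hb.P0.trans hb.Pu) (by positivity)

lemma qU_nonneg : 0 ≤ qU s t := by
  have h0 := ha.h0
  exact nonneg_of_mul_nonneg_right (hb.Q0.trans hb.Qu) (by positivity)

lemma dlU_nonneg : 0 ≤ dlU s := by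
  have h0 := ha.h0
  exact nonneg_of_mul_nonneg_right (hb.D0.trans hb.Du) (by positivity)

lemma vP_le : v * P ≤ (1 - s ^ 2) ^ 2 * SH s * pU s t := by
  have h0 := ha.h0
  have hv := ha.v0.le
  calc v * P ≤ v * ((1 - s ^ 2) ^ 3 * pU s t) := mul_le_mul_of_nonneg_left hb.Pu hv
    _ = (v * (1 - s ^ 2)) * ((1 - s ^ 2) ^ 2 * pU s t) := by ring
    _ ≤ SH s * ((1 - s ^ 2) ^ 2 * pU s t) := mul_le_mul_of_nonneg_right ha.vh
        (mul_nonneg (sq_nonneg _) (pU_nonneg hb ha))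
    _ = _ := by ring

lemma vPh_le : v * P / (1 - s ^ 2) ≤ (1 - s ^ 2) * SH s * pU s t := by
  rw [div_le_iff₀ ha.h0]
  refine (vP_le hb ha).trans (le_of_eq ?_)
  ring

lemma vDh_le : v * D / (1 - s ^ 2) ≤ (1 - s ^ 2) * SH s * dlU s := by
  have h0 := ha.h0
  have hv := ha.v0.le
  rw [div_le_iff₀ h0]
  calc v * D ≤ v * ((1 - s ^ 2) ^ 3 * dlU s) := mul_le_mul_of_nonneg_left hb.Du hv
    _ = (v * (1 - s ^ 2)) * ((1 - s ^ 2) ^ 2 * dlU s) := by ring
    _ ≤ SH s * ((1 - s ^ 2) ^ 2 * dlU s) := mul_le_mul_of_nonneg_right ha.vh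
        (mul_nonneg (sq_nonneg _) (dlU_nonneg hb ha))
    _ = _ := by ring

lemma vQ_le : v * (1 - s ^ 2) * Q ≤ (1 - s ^ 2) ^ 2 * SH s * qU s t := by
  have h0 := ha.h0
  have hv := ha.v0.le
  calc v * (1 - s ^ 2) * Q ≤ SH s * ((1 - s ^ 2) ^ 2 * qU s t) :=
        mul_le_mul ha.vh hb.Qu hb.Q0 (SH_pos s h0.le).le
    _ = _ := by ring

lemma Ph_le : P / (1 - s ^ 2) ≤ (1 - s ^ 2) ^ 2 * pU s t := by
  rw [div_le_iff₀ ha.h0]
  refine hb.Pu.trans (le_of_eq ?_)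
  ring

lemma xA_le : xA s t d v P Q ≤ XA s t := by
  have h0 := ha.h0
  have hv := ha.v0.le
  have d0 := ha.d0
  have d1 := ha.d1
  have t0 := hb.b.t0
  have s0 := hb.b.s0.le
  have P0 := hb.P0
  have Q0 := hb.Q0
  have k1 := vP_le hb ha
  have k2 := vQ_le hb ha
  have k3 := Ph_le hb ha
  have e : xA s t d v P Q = (1 + t / 2) * (2 * d * (v * P) + d * t * (v * (1 - s ^ 2) * Q))
      + (1 + t) * (1 + t / 2) * d ^ 2 * s * (P / (1 - s ^ 2)) := by
    unfold xA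
    ring
  rw [e]
  unfold XA
  gcongr

lemma xB_le : xB t d v P ≤ (1 - s ^ 2) ^ 2 * XBr s t := by
  have h0 := ha.h0
  have hv := ha.v0.le
  have d0 := ha.d0
  have d1 := ha.d1
  have t0 := hb.b.t0
  have P0 := hb.P0
  have k1 := vP_le hb ha
  unfold xB XBr
  calc d * (1 + 3 * t / 2) * (v * P)
      ≤ (501 / 500 * t) * (1 + 3 * t / 2) * ((1 - s ^ 2) ^ 2 * SH s * pU s t) := by gcongr
    _ = _ := by ring

lemma xC_le : xC T s t d v G P Q D ≤ XC0 s t + T * XC1 s t := by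
  have h0 := ha.h0
  have hv := ha.v0.le
  have d0 := ha.d0
  have d1 := ha.d1
  have t0 := hb.b.t0
  have t1 := hb.b.t1
  have s0 := hb.b.s0.le
  have T0 := hb.b.T0.le
  have P0 := hb.P0
  have Q0 := hb.Q0
  have D0 := hb.D0
  have G0 := ha.G0.le
  have k1 := vPh_le hb ha
  have k2 := vDh_le hb ha
  have k3 := Ph_le hb ha
  have k4 := ha.GS s0 hb.b.s1.le
  have k5 := ha.TB hb.b.Ts hb.b.T0 hb.b.s0 hb.b.s1
  have k6 := hb.Qu
  have k7 : 2 + d ≤ 9 / 4 := by linarith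
  have S20 : 0 ≤ S2 s := G0.trans k4
  have Tb0 : 0 ≤ Tb s := T0.trans k5
  have e : XC0 s t + T * XC1 s t = (1 + 3 * t / 2) * ((501 / 500 * t) ^ 2 * t
        * (S2 s + 2 * s + s * Tb s) * ((1 - s ^ 2) ^ 2 * pU s t)
      + 3 / 2 * (501 / 500 * t) * (1 + t) * (1 + T) * s ^ 2 * ((1 - s ^ 2) * SH s * pU s t)
      + 1 / 2 * (501 / 500 * t) * (1 + t) * s * (S2 s + s) * ((1 - s ^ 2) * SH s * dlU s)
      + 1 / 4 * (501 / 500 * t) ^ 2 * (9 / 4) * t * (S2 s + s) * ((1 - s ^ 2) ^ 2 * qU s t)) := by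
    unfold XC0 XC1
    ring
  rw [e]
  unfold xC
  gcongr

end bounds

/-- the normalised expression of alpha, with `u` for the last weight -/
noncomputable def FX (X u s t : ℝ) : ℝ :=
  s * vW s t + (1 - s) ^ 2 * u - XA s t - X * ((1 - s) ^ 2 * u + (1 - s ^ 2) ^ 2 * XBr s t)
/-- the normalised expression of the convexity condition -/
noncomputable def GX (X u T s t : ℝ) : ℝ :=
  (2 - s ^ 2) ^ 2 * (FX X u s t - XC0 s t - T * XC1 s t)
    + (1 + 3 * t / 2) / 2 * (s ^ 3 + T * ((2 - s ^ 2) * s)) * dE s t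
    - (1 + 3 * t / 2) * 2 * T * (2 - s ^ 2) ^ 2 * ((1 - s) ^ 2 * u)

/-- linear functions are nonnegative between nonnegative end values -/
lemma lin_nonneg {A B a b x : ℝ} (h1 : 0 ≤ A + B * a) (h2 : 0 ≤ A + B * b) (ha : a ≤ x)
    (hb : x ≤ b) : 0 ≤ A + B * x := by
  rcases le_total 0 B with h | h
  · have := mul_le_mul_of_nonneg_left ha h
    linarith
  · have := mul_le_mul_of_nonpos_left hb h
    linarith

/-- the conditions from the end values -/
theorem core (hb : OBd T s t W E ρ P Q D) (ha : Aux T s t d v G) (hX : X ≤ X1)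
    (hX1 : 0 ≤ X1)
    (f1 : 0 ≤ FX X1 (uL s t) s t) (f2 : 0 ≤ FX X1 (uU s t) s t)
    (g1 : 0 ≤ GX X1 (uL s t) 0 s t) (g2 : 0 ≤ GX X1 (uU s t) 0 s t)
    (g3 : 0 ≤ GX X1 (uL s t) (Tu s) s t) (g4 : 0 ≤ GX X1 (uU s t) (Tu s) s t) :
    0 ≤ s * W + ρ - xA s t d v P Q - X * (ρ + xB t d v P) ∧
    0 ≤ s * W + ρ - xA s t d v P Q - X * (ρ + xB t d v P)
      - (1 + 3 * t / 2) * T
        * (2 * ρ - (1 + T) * (s * (2 - s ^ 2) * E / 2) * (1 - 31 / 10 * T ^ 4))
      - xC T s t d v G P Q D := by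
  have kA := xA_le hb ha
  have kB := xB_le hb ha
  have kC := xC_le hb ha
  have hbb := hb.b
  have s0 := hbb.s0
  have s1 := hbb.s1
  have t0 := hbb.t0
  have T0 := hbb.T0
  have h3 := ha.h0
  have h2 : 0 < 2 - s ^ 2 := by linarith
  have Tu1 := le_Tu s0.le s1.le T0.le hbb.Ts
  have v0 := ha.v0
  have d0 := ha.d0
  have xB0 : 0 ≤ xB t d v P := by
    have := hb.P0
    unfold xB
    positivity
  have kX : X * (ρ + xB t d v P) ≤ X1 * (ρ + (1 - s ^ 2) ^ 2 * XBr s t) := by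
    have := hbb.R0
    calc X * (ρ + xB t d v P) ≤ X1 * (ρ + xB t d v P) :=
          mul_le_mul_of_nonneg_right hX (by linarith)
      _ ≤ _ := mul_le_mul_of_nonneg_left (by linarith) hX1
  have kW := mul_le_mul_of_nonneg_left hbb.Wl s0.le
  -- alpha
  have fa : 0 ≤ s * vW s t + ρ - XA s t - X1 * (ρ + (1 - s ^ 2) ^ 2 * XBr s t) := by
    have := lin_nonneg (A := s * vW s t - XA s t - X1 * ((1 - s ^ 2) ^ 2 * XBr s t))
      (B := 1 - X1) (x := ρ) (by unfold FX at f1; linarith) (by unfold FX at f2; linarith)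
      hbb.Rl hbb.Ru
    linarith
  refine ⟨by linarith, ?_⟩
  -- the level `T`
  have gT : ∀ u : ℝ, 0 ≤ GX X1 u 0 s t → 0 ≤ GX X1 u (Tu s) s t → 0 ≤ GX X1 u T s t := by
    intro u c1 c2
    have := lin_nonneg (A := GX X1 u 0 s t)
      (B := -(2 - s ^ 2) ^ 2 * XC1 s t + (1 + 3 * t / 2) / 2 * ((2 - s ^ 2) * s) * dE s t
        - (1 + 3 * t / 2) * 2 * (2 - s ^ 2) ^ 2 * ((1 - s) ^ 2 * u)) (x := T) (a := 0) (b := Tu s)
      (by simpa using c1) (by
        refine c2.trans (le_of_eq ?_)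
        unfold GX
        ring) T0.le Tu1
    refine this.trans (le_of_eq ?_)
    unfold GX
    ring
  have e1 := gT _ g1 g3
  have e2 := gT _ g2 g4
  have e3 : 0 ≤ (2 - s ^ 2) ^ 2 * (s * vW s t + ρ - XA s t
        - X1 * (ρ + (1 - s ^ 2) ^ 2 * XBr s t) - XC0 s t - T * XC1 s t)
      + (1 + 3 * t / 2) / 2 * (s ^ 3 + T * ((2 - s ^ 2) * s)) * dE s t
      - (1 + 3 * t / 2) * 2 * T * (2 - s ^ 2) ^ 2 * ρ := by
    have := lin_nonneg (A := (2 - s ^ 2) ^ 2 * (s * vW s t - XA s t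
        - X1 * ((1 - s ^ 2) ^ 2 * XBr s t) - XC0 s t - T * XC1 s t)
      + (1 + 3 * t / 2) / 2 * (s ^ 3 + T * ((2 - s ^ 2) * s)) * dE s t)
      (B := (2 - s ^ 2) ^ 2 * (1 - X1) - (1 + 3 * t / 2) * 2 * T * (2 - s ^ 2) ^ 2) (x := ρ)
      (by
        refine e1.trans (le_of_eq ?_)
        unfold GX FX
        ring) (by
        refine e2.trans (le_of_eq ?_)
        unfold GX FX
        ring) hbb.Rl hbb.Ru
    refine this.trans (le_of_eq ?_)
    ring
  -- the weight `E`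
  have eT : (2 - s ^ 2) ^ 2 * T ^ 4 = s ^ 4 := by
    have : (T ^ 2 * (2 - s ^ 2)) ^ 2 = (s ^ 2) ^ 2 := by rw [hbb.Ts]
    nlinarith
  have kE : dE s t ≤ (2 - s ^ 2) ^ 2 * (1 - 31 / 10 * T ^ 4) * E :=
    abs_E eT hbb.El hbb.Eu rfl rfl
  have e4 : (1 + 3 * t / 2) / 2 * (s ^ 3 + T * ((2 - s ^ 2) * s)) * dE s t
      ≤ (1 + 3 * t / 2) / 2 * (s ^ 3 + T * ((2 - s ^ 2) * s))
        * ((2 - s ^ 2) ^ 2 * (1 - 31 / 10 * T ^ 4) * E) :=
    mul_le_mul_of_nonneg_left kE (by positivity)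
  have e5 : s ^ 3 = T ^ 2 * (2 - s ^ 2) * s := by rw [hbb.Ts]; ring
  have e6 : 0 ≤ (2 - s ^ 2) ^ 2 * (s * vW s t + ρ - XA s t
        - X1 * (ρ + (1 - s ^ 2) ^ 2 * XBr s t) - (XC0 s t + T * XC1 s t)
      - (1 + 3 * t / 2) * T
        * (2 * ρ - (1 + T) * (s * (2 - s ^ 2) * E / 2) * (1 - 31 / 10 * T ^ 4))) := by
    refine (e3.trans (add_le_add (add_le_add le_rfl e4) le_rfl)).trans (le_of_eq ?_)
    rw [e5]
    ring
  have e7 := nonneg_of_mul_nonneg_right e6 (by positivity)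
  linarith

/-- the threshold law -/
def AdmO (t k l : ℝ) : Prop := l ≤ 94 / 5 - 128 / 5 * t ∨ k * l ≤ 63 / 5 - 73 / 5 * t

/-- the normalised conditions -/
theorem norm_both (hb : OBd T s t W E ρ P Q D) (ha : Aux T s t d v G) {l : ℝ}
    (hl : AdmO t (1 - T ^ 2) l) :
    0 ≤ s * W + ρ - xA s t d v P Q
      - l * ((1 + t / 2) * (1 + t)) * (s ^ 2 / (2 * (1 - s ^ 2))) * (ρ + xB t d v P) ∧
    0 ≤ s * W + ρ - xA s t d v P Q
      - l * ((1 + t / 2) * (1 + t)) * (s ^ 2 / (2 * (1 - s ^ 2))) * (ρ + xB t d v P)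
      - (1 + 3 * t / 2) * T
        * (2 * ρ - (1 + T) * (s * (2 - s ^ 2) * E / 2) * (1 - 31 / 10 * T ^ 4))
      - xC T s t d v G P Q D := by
  have hbb := hb.b
  have s0 := hbb.s0
  have s1 := hbb.s1
  have t0 := hbb.t0
  have t1 := hbb.t1
  have h3 := ha.h0
  have h4 : 0 < 1 - s := by linarith
  have h5 : 0 < 1 + s := by linarith
  have h6 : 0 < 2 - s ^ 2 := by linarith
  have hk := hbb.kap
  rcases hl with hl | hl
  · have c : 0 < 2 * (1 + s) := by positivity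
    set X1 := (94 / 5 - 128 / 5 * t) * ((1 + t / 2) * (1 + t)) * (s ^ 2 / (2 * (1 - s ^ 2)))
      with hX1
    have hL : 0 ≤ 94 / 5 - 128 / 5 * t := by linarith
    have eF : ∀ u, oU (94 / 5 - 128 / 5 * t) u s t = 2 * (1 + s) * FX X1 u s t := by
      intro u
      rw [hX1]
      unfold oU FX
      rw [show 1 - s ^ 2 = (1 - s) * (1 + s) by ring]
      field_simp
    have eG0 : ∀ u, oA (94 / 5 - 128 / 5 * t) u s t = 2 * (1 + s) * GX X1 u 0 s t := by
      intro u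
      unfold oA GX
      rw [eF]
      ring
    have eG : ∀ u, oA (94 / 5 - 128 / 5 * t) u s t + Tu s * oB u s t
        = 2 * (1 + s) * GX X1 u (Tu s) s t := by
      intro u
      unfold oA oB GX
      rw [eF]
      ring
    refine core hb ha (X1 := X1) ?_ (by positivity) ?_ ?_ ?_ ?_ ?_ ?_
    · rw [hX1]
      gcongr
    · have := oUL_nonneg s0.le s1.le t0 t1
      rw [eF] at this
      exact nonneg_of_mul_nonneg_right this c
    · have := oUU_nonneg s0.le s1.le t0 t1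
      rw [eF] at this
      exact nonneg_of_mul_nonneg_right this c
    · have := oAL_nonneg s0.le s1.le t0 t1
      rw [eG0] at this
      exact nonneg_of_mul_nonneg_right this c
    · have := oAU_nonneg s0.le s1.le t0 t1
      rw [eG0] at this
      exact nonneg_of_mul_nonneg_right this c
    · have := oATL_nonneg s0.le s1.le t0 t1
      rw [eG] at this
      exact nonneg_of_mul_nonneg_right this c
    · have := oATU_nonneg s0.le s1.le t0 t1
      rw [eG] at this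
      exact nonneg_of_mul_nonneg_right this c
  · have c : 0 < 4 * (1 + s) ^ 2 := by positivity
    set V := (2 - s ^ 2) / (2 * (1 - s ^ 2)) with hV
    have hV0 : 0 < V := by positivity
    have hl2 : l ≤ (63 / 5 - 73 / 5 * t) * V := by
      rw [hV, mul_div_assoc', le_div_iff₀ (by positivity), ← hk]
      have := mul_le_mul_of_nonneg_right hl h6.le
      linarith
    set X1 := (63 / 5 - 73 / 5 * t) * V * ((1 + t / 2) * (1 + t)) * (s ^ 2 / (2 * (1 - s ^ 2)))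
      with hX1
    have hL : 0 ≤ 63 / 5 - 73 / 5 * t := by linarith
    have eF : ∀ u, oV (63 / 5 - 73 / 5 * t) u s t = 4 * (1 + s) ^ 2 * FX X1 u s t := by
      intro u
      rw [hX1, hV]
      unfold oV FX
      rw [show 1 - s ^ 2 = (1 - s) * (1 + s) by ring]
      field_simp
      ring
    have eG0 : ∀ u, oA4 (63 / 5 - 73 / 5 * t) u s t = 4 * (1 + s) ^ 2 * GX X1 u 0 s t := by
      intro u
      unfold oA4 GX
      rw [eF]
      ring
    have eG : ∀ u, oA4 (63 / 5 - 73 / 5 * t) u s t + Tu s * oB4 u s t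
        = 4 * (1 + s) ^ 2 * GX X1 u (Tu s) s t := by
      intro u
      unfold oA4 oB4 GX
      rw [eF]
      ring
    refine core hb ha (X1 := X1) ?_ (by positivity) ?_ ?_ ?_ ?_ ?_ ?_
    · rw [hX1]
      gcongr
    · have := oVL_nonneg s0.le s1.le t0 t1
      rw [eF] at this
      exact nonneg_of_mul_nonneg_right this c
    · have := oVU_nonneg s0.le s1.le t0 t1
      rw [eF] at this
      exact nonneg_of_mul_nonneg_right this c
    · have := oGL_nonneg s0.le s1.le t0 t1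
      rw [eG0] at this
      exact nonneg_of_mul_nonneg_right this c
    · have := oGU_nonneg s0.le s1.le t0 t1
      rw [eG0] at this
      exact nonneg_of_mul_nonneg_right this c
    · have := oGTL_nonneg s0.le s1.le t0 t1
      rw [eG] at this
      exact nonneg_of_mul_nonneg_right this c
    · have := oGTU_nonneg s0.le s1.le t0 t1
      rw [eG] at this
      exact nonneg_of_mul_nonneg_right this c

/-- the condition of the first order -/
theorem norm_h57 (hb : OBd T s t W E ρ P Q D) (ha : Aux T s t d v G) : xB t d v P ≤ ρ := by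
  have h1 := oH_nonneg hb.b.s0.le hb.b.s1.le hb.b.t0 hb.b.t1
  have h2 := xB_le hb ha
  have h3 := hb.b.Rl
  linarith

end

end Vale.Agent.P224.R2.H494.OC
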