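import Vale.Agent.P224.R2.H494.OC1
import Vale.Agent.P224.R2.H742.IfO2
import Vale.Agent.P224.R2.H627.DCondM

/-!
The scalar conditions of the odd dimension for functions of `T` with a normal form.
-/

namespace Vale.Agent.P224.R2.H494.OC

open Set Vale.Agent.P224.R2.H627 Vale.Agent.P224.R2.H742

/-- the normal form of the weights -/
structure Nf (m : ℕ) (T s W E ρ P Q D v G K R y e r p q δ : ℝ) : Prop where
  K0 : 0 ≤ K
  R : R = v * G
  y : T * y = K * (s * W)
  r : m * r = K * ρ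
  e : m * e = K * ((1 - T ^ 2) * (s * (2 - s ^ 2) * E / 2))
  p : 2 * m * p = K * ((m + 1) * (P / G))
  q : 2 * m * q = K * ((m + 1) * ((1 - s ^ 2) * Q / G))
  δ : 2 * m * δ = K * ((m + 1) * (D / G))

/-- the upper bound of `bO` -/
noncomputable def bX (m d T R e r p q δ : ℝ) : ℝ :=
  m * (m + 1) * T * (2 * (1 - T) * r - e + 31 / 10 * T ^ 4 * e) + 8 * (1 + T) * d ^ 2 * p
    + 6 * R * d * (m + 2) * T ^ 2 * p + 2 * R * d * (m + 2) * T * δ + 2 * d ^ 2 * (2 + d) * q

section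

variable {m : ℕ} {T s d W E ρ P Q D v G K R y e r p q δ l : ℝ}

variable (hm : 17 ≤ m) (hT : T ∈ Ioo (0 : ℝ) 1) (hb : OBd T s (2 / m) W E ρ P Q D)
  (ha : Aux T s (2 / m) d v G) (hn : Nf m T s W E ρ P Q D v G K R y e r p q δ)

include hm ha in
lemma d_le1 : d ≤ 1 := by
  have h1 := ha.d1
  have hm0 : (17 : ℝ) ≤ m := by exact_mod_cast hm
  have : 2 / (m : ℝ) ≤ 2 / 17 := by gcongr
  linarith

include hm hb ha hn

lemma p_nonneg : 0 ≤ p := by
  have hm0 : (0 : ℝ) < m := by exact_mod_cast (by omega : 0 < m)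
  have h1 := hn.p
  have h2 := hn.K0
  have h3 := hb.P0
  have h4 := ha.G0
  have h5 : 0 ≤ 2 * m * p := by
    rw [h1]
    positivity
  exact nonneg_of_mul_nonneg_right h5 (by positivity)

lemma q_nonneg : 0 ≤ q := by
  have hm0 : (0 : ℝ) < m := by exact_mod_cast (by omega : 0 < m)
  have h1 := hn.q
  have h2 := hn.K0
  have h3 := hb.Q0
  have h4 := ha.G0
  have h6 := ha.h0
  have h5 : 0 ≤ 2 * m * q := by
    rw [h1]
    positivity
  exact nonneg_of_mul_nonneg_right h5 (by positivity)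

lemma Rp_eq : 2 * m * (R * p) = K * ((m + 1) * (v * P)) := by
  have h1 := hn.p
  have h4 := ha.G0.ne'
  rw [hn.R]
  calc 2 * m * (v * G * p) = v * G * (2 * m * p) := by ring
    _ = v * G * (K * ((m + 1) * (P / G))) := by rw [h1]
    _ = _ := by field_simp

lemma Rq_eq : 2 * m * (R * q) = K * ((m + 1) * (v * (1 - s ^ 2) * Q)) := by
  have h1 := hn.q
  have h4 := ha.G0.ne'
  rw [hn.R]
  calc 2 * m * (v * G * q) = v * G * (2 * m * q) := by ring
    _ = v * G * (K * ((m + 1) * ((1 - s ^ 2) * Q / G))) := by rw [h1]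
    _ = _ := by field_simp

lemma Rδ_eq : 2 * m * (R * δ) = K * ((m + 1) * (v * D)) := by
  have h1 := hn.δ
  have h4 := ha.G0.ne'
  rw [hn.R]
  calc 2 * m * (v * G * δ) = v * G * (2 * m * δ) := by ring
    _ = v * G * (K * ((m + 1) * (D / G))) := by rw [h1]
    _ = _ := by field_simp

lemma RRp_eq : 4 * m * (T * R ^ 2 * p) = K * ((m + 1) * (s * (P / (1 - s ^ 2)))) := by
  have h1 := Rp_eq hm hb ha hn
  have h4 := ha.G0.ne'
  have h5 := ha.v2
  have h6 := ha.h0.ne'
  have h7 := ha.TG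
  have e1 : P / (1 - s ^ 2) = 2 * v ^ 2 * P := by
    rw [div_eq_iff h6]
    linear_combination -P * h5
  rw [e1]
  have e2 : T * R = v * s := by
    rw [hn.R, ← h7]
    ring
  calc 4 * m * (T * R ^ 2 * p) = 2 * (T * R) * (2 * m * (R * p)) := by ring
    _ = 2 * (v * s) * (K * ((m + 1) * (v * P))) := by rw [h1, e2]
    _ = _ := by ring

/-- the condition of the first order -/
theorem dir_h57 : 2 * R * (m + 3) * d * p ≤ m * (m + 1) * r := by
  have hm0 : (0 : ℝ) < m := by exact_mod_cast (by omega : 0 < m)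
  have h1 := Rp_eq hm hb ha hn
  have h2 := norm_h57 hb ha
  have h3 := hn.r
  have h4 := mul_le_mul_of_nonneg_left h2 (show 0 ≤ K * (m + 1) from
    mul_nonneg hn.K0 (by positivity))
  have e1 : 2 * R * (m + 3) * d * p = K * (m + 1) * xB (2 / m) d v P := by
    unfold xB
    have : 2 * R * (m + 3) * d * p = (2 * m * (R * p)) * (d * (1 + 3 * (2 / m) / 2)) := by
      field_simp
    rw [this, h1]
    ring
  have e2 : (m : ℝ) * (m + 1) * r = K * (m + 1) * ρ := by
    linear_combination ((m : ℝ) + 1) * h3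
  rw [e1, e2]
  exact h4

include hT in
lemma Z_eq : T ^ 2 / (1 - T ^ 2) = s ^ 2 / (2 * (1 - s ^ 2)) := by
  have hk : 0 < 1 - T ^ 2 := by nlinarith [hT.1, hT.2]
  have h3 := ha.h0
  rw [div_eq_div_iff hk.ne' (by positivity)]
  nlinarith [hb.b.Ts]

include hT in
/-- the lower bound of `aO` by the normalised expression -/
theorem aO_ge : m * K * (s * W + ρ - xA s (2 / m) d v P Q
      - l * ((1 + 2 / m / 2) * (1 + 2 / m)) * (s ^ 2 / (2 * (1 - s ^ 2)))
        * (ρ + xB (2 / m) d v P))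
    ≤ aO m d T R l y r p q := by
  have hm0 : (0 : ℝ) < m := by exact_mod_cast (by omega : 0 < m)
  have hk : 0 < 1 - T ^ 2 := by nlinarith [hT.1, hT.2]
  have h1 := Rp_eq hm hb ha hn
  have h2 := Rq_eq hm hb ha hn
  have h3 := RRp_eq hm hb ha hn
  have hr := hn.r
  have hy := hn.y
  have hZ := Z_eq hm hT hb ha hn
  have hq := q_nonneg hm hb ha hn
  have hd0 := ha.d0
  have hR : 0 ≤ R := by
    rw [hn.R]
    exact mul_nonneg ha.v0.le ha.G0.le
  have c1 : R * p = K * ((m + 1) * (v * P)) / (2 * m) := by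
    rw [eq_div_iff (by positivity)]
    linarith
  have c2 : R * q = K * ((m + 1) * (v * (1 - s ^ 2) * Q)) / (2 * m) := by
    rw [eq_div_iff (by positivity)]
    linarith
  have c3 : T * R ^ 2 * p = K * ((m + 1) * (s * (P / (1 - s ^ 2)))) / (4 * m) := by
    rw [eq_div_iff (by positivity)]
    linarith
  have c4 : r = K * ρ / m := by
    rw [eq_div_iff hm0.ne']
    linarith
  have eg : gO m d T R r p = K * ((m + 1) * (m + 2) / m) * (T ^ 2 / (1 - T ^ 2))
      * (ρ + (m + 3) / m * (d * (v * P))) := by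
    have : gO m d T R r p = (m + 1) * (m + 2) * (T ^ 2 / (1 - T ^ 2)) * r
        + 2 * (m + 3) * (m + 2) * d / m * (T ^ 2 / (1 - T ^ 2)) * (R * p) := by
      unfold gO
      field_simp
    rw [this, c1, c4]
    field_simp
  have ea : aO m d T R l y r p q = m * (T * y) + m * (m * r) - 4 * d * m * (R * p)
      - 4 * d * (R * q) + 3 * d ^ 3 * (R * q) - 4 * (m + 2) * d ^ 2 * (T * R ^ 2 * p)
      - gO m d T R r p * l := by
    unfold aO
    ring
  have hx : 0 ≤ 3 * d ^ 3 * (R * q) := by positivity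
  rw [ea, hy, hr, eg, hZ, c1, c3]
  have c5 : 4 * d * (R * q) = K * ((m + 1) * (2 / m) * (d * (v * (1 - s ^ 2) * Q))) := by
    rw [c2]
    field_simp
    ring
  rw [c5]
  unfold xA xB
  have e1 : m * K * (s * W + ρ - ((1 + 2 / m / 2) * (2 * d * (v * P)
        + 2 / m * d * (v * (1 - s ^ 2) * Q))
      + (1 + 2 / m) * (1 + 2 / m / 2) * d ^ 2 * s * (P / (1 - s ^ 2)))
      - l * ((1 + 2 / m / 2) * (1 + 2 / m)) * (s ^ 2 / (2 * (1 - s ^ 2)))
        * (ρ + d * (1 + 3 * (2 / m) / 2) * (v * P)))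
      = m * (K * (s * W)) + m * (K * ρ) - 4 * d * m * (K * ((m + 1) * (v * P)) / (2 * m))
      - K * ((m + 1) * (2 / m) * (d * (v * (1 - s ^ 2) * Q)))
      - 4 * (m + 2) * d ^ 2 * (K * ((m + 1) * (s * (P / (1 - s ^ 2)))) / (4 * m))
      - K * ((m + 1) * (m + 2) / m) * (s ^ 2 / (2 * (1 - s ^ 2)))
      * (ρ + (m + 3) / m * (d * (v * P))) * l := by
    generalize s ^ 2 / (2 * (1 - s ^ 2)) = Z
    generalize P / (1 - s ^ 2) = PH
    generalize v * (1 - s ^ 2) * Q = QH
    field_simp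
    ring
  rw [e1]
  linarith

include hT in
/-- the exact form of `bX` -/
theorem bX_eq : ((m : ℝ) + 3) * bX m d T R e r p q δ
    = (m + 1) * (1 - T) * (m * K) * ((1 + 3 * (2 / m) / 2) * T
        * (2 * ρ - (1 + T) * (s * (2 - s ^ 2) * E / 2) * (1 - 31 / 10 * T ^ 4))
      + xC T s (2 / m) d v G P Q D) := by
  have hm0 : (0 : ℝ) < m := by exact_mod_cast (by omega : 0 < m)
  have h1 := Rp_eq hm hb ha hn
  have h2 := Rδ_eq hm hb ha hn
  have hp := hn.p
  have hq := hn.q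
  have hr := hn.r
  have he := hn.e
  have hG := ha.G0
  have hh := ha.h0
  have hk := hb.b.kap
  have hTG := ha.TG
  have hG2 := ha.G2
  have c1 : R * p = K * ((m + 1) * (v * P)) / (2 * m) := by
    rw [eq_div_iff (by positivity)]
    linarith
  have c2 : R * δ = K * ((m + 1) * (v * D)) / (2 * m) := by
    rw [eq_div_iff (by positivity)]
    linarith
  have c3 : p = K * ((m + 1) * (P / G)) / (2 * m) := by
    rw [eq_div_iff (by positivity)]
    linarith
  have c4 : q = K * ((m + 1) * ((1 - s ^ 2) * Q / G)) / (2 * m) := by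
    rw [eq_div_iff (by positivity)]
    linarith
  -- identities in `T`
  have i1 : 2 * (1 + T) * (P / G) = (1 - T) * (G + 2 * s + s * T) * (P / (1 - s ^ 2)) := by
    rw [mul_div_assoc', mul_div_assoc', div_eq_div_iff hG.ne' hh.ne']
    have e2 : (1 - T) * (G + 2 * s + s * T) * G = 2 * (1 + T) * (1 - s ^ 2) := by
      rw [← hTG]
      have : (1 - T) * (G + 2 * (T * G) + T * G * T) * G = (1 + T) * ((1 - T ^ 2) * G ^ 2) := by
        ring
      rw [this, hG2, hk, hTG]
      ring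
    linear_combination -P * e2
  have i2 : 2 * T ^ 2 * (v * P) = (1 - T ^ 2) * s ^ 2 * (v * P / (1 - s ^ 2)) := by
    rw [mul_div_assoc', eq_div_iff hh.ne']
    have e2 : (1 - T ^ 2) * s ^ 2 = 2 * T ^ 2 * (1 - s ^ 2) := by
      linear_combination -hb.b.Ts
    linear_combination -(v * P) * e2
  have i3 : 2 * T * (v * D) = (1 - T) * s * (G + s) * (v * D / (1 - s ^ 2)) := by
    rw [mul_div_assoc', eq_div_iff hh.ne']
    have e2 : (1 - T) * s * (G + s) = 2 * T * (1 - s ^ 2) := by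
      have : (1 - T) * s * (G + s) = T * ((1 - T ^ 2) * G ^ 2) := by
        rw [← hTG]
        ring
      rw [this, hG2, hk]
      ring
    linear_combination -(v * D) * e2
  have i4 : 2 * ((1 - s ^ 2) * Q / G) = (1 - T) * (G + s) * Q := by
    rw [mul_div_assoc', div_eq_iff hG.ne']
    have e2 : (1 - T) * (G + s) * G = 2 * (1 - s ^ 2) := by
      have : (1 - T) * (G + s) * G = (1 - T ^ 2) * G ^ 2 := by
        rw [← hTG]
        ring
      rw [this, hG2, hk]
    linear_combination -Q * e2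
  have eb : bX m d T R e r p q δ = (m + 1) * T * (2 * (1 - T) * (m * r)
        - (m * e) * (1 - 31 / 10 * T ^ 4)) + 8 * (1 + T) * d ^ 2 * p
      + 6 * d * (m + 2) * T ^ 2 * (R * p) + 2 * d * (m + 2) * T * (R * δ)
      + 2 * d ^ 2 * (2 + d) * q := by
    unfold bX
    ring
  rw [eb, hr, he, c1, c2, c3, c4]
  unfold xC
  have e3 : ((m : ℝ) + 3) * ((m + 1) * T * (2 * (1 - T) * (K * ρ)
        - K * ((1 - T ^ 2) * (s * (2 - s ^ 2) * E / 2)) * (1 - 31 / 10 * T ^ 4))
      + 8 * (1 + T) * d ^ 2 * (K * ((m + 1) * (P / G)) / (2 * m))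
      + 6 * d * (m + 2) * T ^ 2 * (K * ((m + 1) * (v * P)) / (2 * m))
      + 2 * d * (m + 2) * T * (K * ((m + 1) * (v * D)) / (2 * m))
      + 2 * d ^ 2 * (2 + d) * (K * ((m + 1) * ((1 - s ^ 2) * Q / G)) / (2 * m)))
      = K * (m + 1) * (m + 3) * (T * (2 * (1 - T) * ρ
        - ((1 - T ^ 2) * (s * (2 - s ^ 2) * E / 2)) * (1 - 31 / 10 * T ^ 4))
      + 2 / m * d ^ 2 * (2 * (1 + T) * (P / G))
      + 3 / 2 * d * (1 + 2 / m) * (2 * T ^ 2 * (v * P))
      + 1 / 2 * d * (1 + 2 / m) * (2 * T * (v * D))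
      + 1 / 4 * d ^ 2 * (2 + d) * (2 / m) * (2 * ((1 - s ^ 2) * Q / G))) := by
    generalize P / G = X1
    generalize (1 - s ^ 2) * Q / G = X2
    field_simp
    ring
  rw [e3, i1, i2, i3, i4]
  generalize P / (1 - s ^ 2) = X1
  generalize v * P / (1 - s ^ 2) = X2
  generalize v * D / (1 - s ^ 2) = X3
  field_simp
  ring

include hT in
/-- the direct conditions -/
theorem dir_both (hl : AdmO (2 / m) (1 - T ^ 2) l) :
    0 ≤ aO m d T R l y r p q ∧
    (m + 3) * bX m d T R e r p q δ ≤ (m + 1) * aO m d T R l y r p q * (1 - T) := by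
  have hm0 : (0 : ℝ) < m := by exact_mod_cast (by omega : 0 < m)
  have h1 := norm_both hb ha hl
  have h2 := aO_ge (l := l) hm hT hb ha hn
  have h3 := bX_eq hm hT hb ha hn
  have hmK : 0 ≤ m * K := mul_nonneg hm0.le hn.K0
  have h1T : 0 ≤ 1 - T := by linarith [hT.2]
  refine ⟨(mul_nonneg hmK h1.1).trans h2, ?_⟩
  rw [h3]
  have h4 := mul_nonneg (mul_nonneg (show (0 : ℝ) ≤ m + 1 by positivity) h1T)
    (mul_nonneg hmK h1.2)
  have h5 := mul_le_mul_of_nonneg_left h2 (mul_nonneg (show (0 : ℝ) ≤ m + 1 by positivity) h1T)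
  linarith

include hT in
/-- the bound of `bO` -/
theorem bO_le (hδ : |3 * p - q| ≤ δ) : bO m d T R e r p q ≤ bX m d T R e r p q δ := by
  have hm0 : (0 : ℝ) < m := by exact_mod_cast (by omega : 0 < m)
  have hp0 := p_nonneg hm hb ha hn
  have hR : 0 ≤ R := by
    rw [hn.R]
    exact mul_nonneg ha.v0.le ha.G0.le
  have h2 : √(2 : ℝ) * √2 = 2 := Real.mul_self_sqrt (by norm_num)
  have h1 := abs_of2 (m := m) (e := e) (r := r) (K := √2 * K) (by omega) hT hb.b
    (mul_nonneg (Real.sqrt_nonneg 2) hn.K0) (by rw [hn.e]; ring) (by rw [hn.r]; ring)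
  have h3 : |2 * (4 * d ^ 2 * p - m * (m + 1) * T * r) + (m + 1) * T * (m * e)|
      ≤ 8 * d ^ 2 * p + m * (m + 1) * (T * |2 * r - e|) := by
    have e1 : 2 * (4 * d ^ 2 * p - m * (m + 1) * T * r) + (m + 1) * T * (m * e)
        = 8 * d ^ 2 * p - (m * (m + 1) * T) * (2 * r - e) := by ring
    rw [e1]
    refine (abs_sub _ _).trans ?_
    rw [abs_of_nonneg (show 0 ≤ 8 * d ^ 2 * p by positivity), abs_mul,
      abs_of_nonneg (show (0 : ℝ) ≤ m * (m + 1) * T from
        mul_nonneg (by positivity) hT.1.le)]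
    have : |2 * r - e| * T = T * |2 * r - e| := mul_comm _ _
    nlinarith
  have hd0 := ha.d0
  have h4 : 2 * R * (d * (m + 2) * T) * |3 * p - q| ≤ 2 * R * (d * (m + 2) * T) * δ := by
    have := hT.1.le
    gcongr
  unfold bO bX
  linarith

end

end Vale.Agent.P224.R2.H494.OC
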