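import Vale.Agent.P224.R2.H494.OCPB
import Vale.Agent.P224.R2.H424.Abs7

/-!
Barriers of the odd function `P` of the flow of the odd dimension.
-/

namespace Vale.Agent.P224.R2.H494.OC

open Set Vale.Agent.P224.R2.H355 Vale.Agent.P224.R2.H876 Vale.Agent.P224.R2.H424
  Vale.Agent.P224.R2.H424.HS

/-- upper bound of `P1 / h ^ 2` in h -/
noncomputable def bU (h t : ℝ) : ℝ := 1 - 63 / 40 * t - 99 / 20 * t * h + 197 / 20 * t * h ^ 2
/-- upper bound of `P / h ^ 3` in h -/
noncomputable def bP (h t : ℝ) : ℝ := 1 / 3 - 21 / 40 * t - 99 / 80 * t * h + 197 / 100 * t * h ^ 2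
/-- bound of the difference in h -/
noncomputable def bD (h : ℝ) : ℝ := 67 / 50 - 9 / 5 * h + 59 / 50 * h ^ 2

section

variable {a L ω t : ℝ} (s : HSol a L) (hp : Par a L) (hat : a * t = 1)
include hp hat

omit s in
lemma t_pos : 0 < t := by
  have := hp.a0
  by_contra h
  push Not at h
  have : a * t ≤ 0 := mul_nonpos_of_nonneg_of_nonpos this.le h
  linarith

omit s in
lemma t_le : t ≤ 2 / 17 := by
  have h1 := hp.ha
  have h2 := t_pos hp hat
  nlinarith

omit s in
lemma L_le : L ≤ 289 / 288 * t ^ 2 := by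
  have h1 := hp.hL
  have h2 := t_pos hp hat
  have h3 := t_le hp hat
  have h4 : L * (4 - t ^ 2) ≤ 4 * t ^ 2 := by
    have h5 : L * (4 * a ^ 2 - 1) * t ^ 2 ≤ 4 * t ^ 2 :=
      mul_le_mul_of_nonneg_right h1 (sq_nonneg t)
    have h6 : L * (4 * a ^ 2 - 1) * t ^ 2 = L * (4 * (a * t) ^ 2 - t ^ 2) := by ring
    rw [h6, hat] at h5
    linarith
  have h5 : t ^ 2 ≤ 4 / 289 := by nlinarith
  have h6 := mul_le_mul_of_nonneg_left (show (4 : ℝ) - 4 / 289 ≤ 4 - t ^ 2 by linarith) hp.L0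
  nlinarith

omit s in
lemma w_ge {h : ℝ} (hh : h ∈ Icc (0 : ℝ) 1) : h * (1 - 251 / 1000 * t ^ 2) ≤ w L h := by
  have h0 := hh.1
  have h1 := hh.2
  have hL := L_le hp hat
  have hq : h / (1 + h) ≤ 1 / 2 := by
    rw [div_le_div_iff₀ (by linarith) (by norm_num)]
    linarith
  have hq0 : 0 ≤ h / (1 + h) := by positivity
  unfold w
  refine mul_le_mul_of_nonneg_left ?_ h0
  have h2 : L / 2 * (h / (1 + h)) ≤ L / 2 * (1 / 2) :=
    mul_le_mul_of_nonneg_left hq (by linarith [hp.L0])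
  have h3 : L / 2 * (1 / 2) ≤ 251 / 1000 * t ^ 2 := by nlinarith [sq_nonneg t]
  linarith

variable (hω : 0 < ω) (hω1 : ω ≤ 16 / 15)
  (hEu : ∀ h ∈ Icc (0 : ℝ) 1, ω * s.E h ≤ h * eUh h t)
  (hEl : ∀ h ∈ Icc (0 : ℝ) 1, h * eLh h t ≤ ω * s.E h)

omit hEl in
include hω hω1 hEu in
/-- upper barrier of `P1` -/
theorem P1_up : ∀ h ∈ Icc (0 : ℝ) 1, ω * s.P1 h ≤ h ^ 2 * bU h t := by
  have t0 := t_pos hp hat
  have t1 := t_le hp hat
  refine le_of_le (a := fun h => w L h * (1 - h ^ 2)) (c := fun h => a - h * w L h)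
    (f := fun h => ω * s.P1 h) (g := fun h => ω * s.P2 h) (F := fun h => h ^ 2 * bU h t)
    (G := fun h => 2 * h * bU h t + h ^ 2 * (-(99 / 20 * t) + 197 / 10 * t * h)) zero_le_one
    (continuousOn_const.mul s.cP.c1) (fun h hh => (ct1 s.cP hh).const_mul ω)
    (by unfold bU; fun_prop) (fun h _ => ?_) (by simp [w]) (by simp) (fun h hh => ?_)
    (fun h hh => ?_)
  · have h1 : HasDerivAt (fun h : ℝ => bU h t) (-(99 / 20 * t) + 197 / 10 * t * h) h := by
      unfold bU
      refine ((((hasDerivAt_id h).const_mul (99 / 20 * t)).const_sub (1 - 63 / 40 * t)).add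
        ((hasDerivAt_pow 2 h).const_mul (197 / 20 * t))).congr_deriv ?_
      simp
      ring
    refine ((hasDerivAt_pow 2 h).mul h1).congr_deriv ?_
    simp
  · have w0 := w_nonneg hp hh
    have w1 := w_le hp hh
    have ha := hp.ha
    nlinarith [hh.1, hh.2]
  · have h0 := hh.1
    have h1 := hh.2
    have w0 := w_nonneg hp hh
    have w1 := w_le hp hh
    have wg := w_ge hp hat hh
    have e := hP1 s hp hh
    have q0 := HS.P_nonneg s hp h hh
    have ge := (abs_le.1 (G_abs' s hp h hh)).1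
    have eu := hEu h hh
    have hL := L_le hp hat
    have hB := rB_nonneg h0 h1 t0.le t1
    have hU := mul_nonneg t0.le (rUt_nonneg h0 h1 t0.le t1)
    rw [← rU_exp] at hU
    have hb : (1 - 63 / 40 * t - 99 / 20 * t * h + 197 / 20 * t * h ^ 2) = bU h t := rfl
    rw [hb] at hB hU
    have hb0 : 0 ≤ bU h t := by
      unfold bU
      nlinarith [mul_nonneg t0.le (sq_nonneg (h - 1 / 4))]
    set b := bU h t with hbd
    set b' := -(99 / 20 * t) + 197 / 10 * t * h with hb'
    -- the difference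
    have gb : -(ω * s.G h) ≤ 13 / 20 * t ^ 2 * h ^ 3 := by
      have k1 : -s.G h ≤ 0.5854 * L * h ^ 3 := by linarith
      have k2 : 0.5854 * L * h ^ 3 ≤ 0.5854 * (289 / 288 * t ^ 2) * h ^ 3 := by gcongr
      have k3 := mul_le_mul_of_nonneg_left (k1.trans k2) hω.le
      have k4 : ω * (0.5854 * (289 / 288 * t ^ 2) * h ^ 3)
          ≤ 16 / 15 * (0.5854 * (289 / 288 * t ^ 2) * h ^ 3) :=
        mul_le_mul_of_nonneg_right hω1 (by positivity)
      have k5 : 0 ≤ t ^ 2 * h ^ 3 := by positivity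
      nlinarith
    have dD : ω * D s h ≤ h * eUh h t + 13 / 20 * t ^ 2 * h ^ 3 := by
      unfold D
      linarith
    -- the left hand side
    have lhs : t * (w L h * (1 - h ^ 2) * (ω * s.P2 h) + (a - h * w L h) * (ω * s.P1 h))
        ≤ h * (h * eUh h t + 13 / 20 * t ^ 2 * h ^ 3) := by
      have e1 : t * (w L h * (1 - h ^ 2) * (ω * s.P2 h) + (a - h * w L h) * (ω * s.P1 h))
          = h * (ω * D s h) - t * (w L h / 4 * (ω * s.P h)) := by
        linear_combination t * ω * e + (ω * (h * D s h)) * hat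
      rw [e1]
      have k1 : 0 ≤ t * (w L h / 4 * (ω * s.P h)) := by positivity
      have k2 := mul_le_mul_of_nonneg_left dD h0
      linarith
    have rhs : h ^ 2 * (t * (1 - 251 / 1000 * t ^ 2) * (1 - h ^ 2) * (2 * b + h * b')
          + b * (1 - t * h ^ 2))
        ≤ t * (w L h * (1 - h ^ 2) * (2 * h * b + h ^ 2 * b') + (a - h * w L h) * (h ^ 2 * b)) := by
      have hh2 : 0 ≤ 1 - h ^ 2 := by nlinarith
      have k1 : t * ((h * (1 - 251 / 1000 * t ^ 2)) * (1 - h ^ 2) * (h * (2 * b + h * b')))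
          ≤ t * (w L h * (1 - h ^ 2) * (h * (2 * b + h * b'))) := by
        have : 0 ≤ h * (2 * b + h * b') := mul_nonneg h0 hB
        gcongr
      have k2 : h * w L h * (h ^ 2 * b) ≤ h * h * (h ^ 2 * b) := by gcongr
      have k3 := mul_le_mul_of_nonneg_left k2 t0.le
      have k4 : t * (a - h * w L h) * (h ^ 2 * b) = h ^ 2 * b - t * (h * w L h * (h ^ 2 * b)) := by
        linear_combination (h ^ 2 * b) * hat
      linarith
    have key : t * (w L h * (1 - h ^ 2) * (ω * s.P2 h) + (a - h * w L h) * (ω * s.P1 h))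
        ≤ t * (w L h * (1 - h ^ 2) * (2 * h * b + h ^ 2 * b') + (a - h * w L h) * (h ^ 2 * b)) := by
      refine lhs.trans (le_trans ?_ rhs)
      have k1 := mul_nonneg (sq_nonneg h) hU
      linarith
    exact le_of_mul_le_mul_left key t0

omit hEl in
include hω hω1 hEu in
/-- upper barrier of `P` -/
theorem P_up : ∀ h ∈ Icc (0 : ℝ) 1, ω * s.P h ≤ h ^ 3 * bP h t := by
  refine le_of_deriv (f := fun h => ω * s.P h) (F := fun h => h ^ 3 * bP h t)
    (f' := fun h => ω * s.P1 h) (F' := fun h => h ^ 2 * bU h t)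
    (continuousOn_const.mul s.cP.c0) (by unfold bP; fun_prop)
    (fun h hh => (ct s.cP hh).const_mul ω) (fun h _ => ?_) (by simp [s.P0])
    (P1_up s hp hat hω hω1 hEu)
  have h1 : HasDerivAt (fun h : ℝ => bP h t) (-(99 / 80 * t) + 197 / 50 * t * h) h := by
    unfold bP
    refine ((((hasDerivAt_id h).const_mul (99 / 80 * t)).const_sub (1 / 3 - 21 / 40 * t)).add
      ((hasDerivAt_pow 2 h).const_mul (197 / 100 * t))).congr_deriv ?_
    simp
    ring
  refine ((hasDerivAt_pow 3 h).mul h1).congr_deriv ?_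
  unfold bP bU
  simp
  ring

include hω hω1 hEu hEl in
/-- lower barrier of `P1` -/
theorem P1_lo : ∀ h ∈ Icc (0 : ℝ) 1, 2 / 3 * h ^ 2 ≤ ω * s.P1 h := by
  have t0 := t_pos hp hat
  have t1 := t_le hp hat
  have hPu := P_up s hp hat hω hω1 hEu
  refine le_of_le (a := fun h => w L h * (1 - h ^ 2)) (c := fun h => a - h * w L h)
    (F := fun h => ω * s.P1 h) (G := fun h => ω * s.P2 h) (f := fun h => 2 / 3 * h ^ 2)
    (g := fun h => 4 / 3 * h) zero_le_one (by fun_prop) (fun h _ => ?_)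
    (continuousOn_const.mul s.cP.c1) (fun h hh => (ct1 s.cP hh).const_mul ω)
    (by simp [w]) (by simp) (fun h hh => ?_) (fun h hh => ?_)
  · refine ((hasDerivAt_pow 2 h).const_mul (2 / 3)).congr_deriv ?_
    simp
    ring
  · have w0 := w_nonneg hp hh
    have w1 := w_le hp hh
    have ha := hp.ha
    nlinarith [hh.1, hh.2]
  · have h0 := hh.1
    have h1 := hh.2
    have w0 := w_nonneg hp hh
    have w1 := w_le hp hh
    have wg := w_ge hp hat hh
    have e := hP1 s hp hh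
    have q1 := hPu h hh
    have ge := (abs_le.1 (G_abs' s hp h hh)).2
    have el := hEl h hh
    have hL := L_le hp hat
    have hR := rL_nonneg h0 h1 t0.le t1
    have hPp := rP_nonneg h0 h1 t0.le t1
    have gb : ω * s.G h ≤ 13 / 20 * t ^ 2 * h ^ 3 := by
      have k1 : s.G h ≤ 0.5854 * L * h ^ 3 := by linarith
      have k2 : 0.5854 * L * h ^ 3 ≤ 0.5854 * (289 / 288 * t ^ 2) * h ^ 3 := by gcongr
      have k3 := mul_le_mul_of_nonneg_left (k1.trans k2) hω.le
      have k4 : ω * (0.5854 * (289 / 288 * t ^ 2) * h ^ 3)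
          ≤ 16 / 15 * (0.5854 * (289 / 288 * t ^ 2) * h ^ 3) :=
        mul_le_mul_of_nonneg_right hω1 (by positivity)
      have k5 : 0 ≤ t ^ 2 * h ^ 3 := by positivity
      nlinarith
    have dD : h * eLh h t - 13 / 20 * t ^ 2 * h ^ 3 ≤ ω * D s h := by
      unfold D
      linarith
    have q2 : ω * s.P h ≤ 9 / 25 * h ^ 3 := by
      refine q1.trans ?_
      have : bP h t ≤ 9 / 25 := by
        unfold bP
        linarith
      nlinarith [pow_nonneg h0 3]
    have rhs : h * (h * eLh h t - 13 / 20 * t ^ 2 * h ^ 3) - 9 / 100 * t * h ^ 4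
        ≤ t * (w L h * (1 - h ^ 2) * (ω * s.P2 h) + (a - h * w L h) * (ω * s.P1 h)) := by
      have e1 : t * (w L h * (1 - h ^ 2) * (ω * s.P2 h) + (a - h * w L h) * (ω * s.P1 h))
          = h * (ω * D s h) - t * (w L h / 4 * (ω * s.P h)) := by
        linear_combination t * ω * e + (ω * (h * D s h)) * hat
      rw [e1]
      have k1 : w L h / 4 * (ω * s.P h) ≤ h / 4 * (9 / 25 * h ^ 3) := by
        have := HS.P_nonneg s hp h hh
        gcongr
      have k2 := mul_le_mul_of_nonneg_left k1 t0.le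
      have k3 := mul_le_mul_of_nonneg_left dD h0
      linarith
    have lhs : t * (w L h * (1 - h ^ 2) * (4 / 3 * h) + (a - h * w L h) * (2 / 3 * h ^ 2))
        ≤ h ^ 2 * (4 / 3 * t * (1 - h ^ 2)
          + 2 / 3 * (1 - (1 - 251 / 1000 * t ^ 2) * t * h ^ 2)) := by
      have hh2 : 0 ≤ 1 - h ^ 2 := by nlinarith
      have k1 : t * (w L h * (1 - h ^ 2) * (4 / 3 * h)) ≤ t * (h * (1 - h ^ 2) * (4 / 3 * h)) := by
        gcongr
      have k2 : h * (h * (1 - 251 / 1000 * t ^ 2)) * (2 / 3 * h ^ 2)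
          ≤ h * w L h * (2 / 3 * h ^ 2) := by gcongr
      have k3 := mul_le_mul_of_nonneg_left k2 t0.le
      have k4 : t * (a - h * w L h) * (2 / 3 * h ^ 2)
          = 2 / 3 * h ^ 2 - t * (h * w L h * (2 / 3 * h ^ 2)) := by
        linear_combination (2 / 3 * h ^ 2) * hat
      linarith
    have key : t * (w L h * (1 - h ^ 2) * (4 / 3 * h) + (a - h * w L h) * (2 / 3 * h ^ 2))
        ≤ t * (w L h * (1 - h ^ 2) * (ω * s.P2 h) + (a - h * w L h) * (ω * s.P1 h)) := by
      refine lhs.trans (le_trans ?_ rhs)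
      have k1 := mul_nonneg (sq_nonneg h) hR
      linarith
    exact le_of_mul_le_mul_left key t0

include hω hω1 hEu hEl in
/-- lower barrier of `P` -/
theorem P_lo : ∀ h ∈ Icc (0 : ℝ) 1, 2 / 9 * h ^ 3 ≤ ω * s.P h := by
  refine le_of_deriv (F := fun h => ω * s.P h) (f := fun h => 2 / 9 * h ^ 3)
    (F' := fun h => ω * s.P1 h) (f' := fun h => 2 / 3 * h ^ 2) (by fun_prop)
    (continuousOn_const.mul s.cP.c0) (fun h _ => ?_)
    (fun h hh => (ct s.cP hh).const_mul ω) (by simp [s.P0])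
    (P1_lo s hp hat hω hω1 hEu hEl)
  refine ((hasDerivAt_pow 3 h).const_mul (2 / 9)).congr_deriv ?_
  simp
  ring

include hω hω1 hEu hEl in
/-- the difference -/
theorem P_diff {h : ℝ} (hh : h ∈ Icc (0 : ℝ) 1) :
    ω * |3 * s.P h - h * (s.P h + 2 * (1 - h) * s.P1 h)| ≤ h ^ 3 * bD h := by
  have t0 := t_pos hp hat
  have t1 := t_le hp hat
  have h0 := hh.1
  have h1 := hh.2
  have pu := P_up s hp hat hω hω1 hEu h hh
  have pl := P_lo s hp hat hω hω1 hEu hEl h hh
  have p1u := P1_up s hp hat hω hω1 hEu h hh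
  have p1l := P1_lo s hp hat hω hω1 hEu hEl h hh
  have r1 := mul_nonneg (pow_nonneg h0 3) (rD1_nonneg h0 h1 t0.le t1)
  have r2 := mul_nonneg (pow_nonneg h0 3) (rD2_nonneg h0 h1 t0.le t1)
  have k1 := mul_le_mul_of_nonneg_left pu (show 0 ≤ 3 - h by linarith)
  have k2 := mul_le_mul_of_nonneg_left pl (show 0 ≤ 3 - h by linarith)
  have k3 := mul_le_mul_of_nonneg_left p1u (show 0 ≤ 2 * h * (1 - h) from
    mul_nonneg (by linarith) (by linarith))
  have k4 := mul_le_mul_of_nonneg_left p1l (show 0 ≤ 2 * h * (1 - h) from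
    mul_nonneg (by linarith) (by linarith))
  have e : ω * |3 * s.P h - h * (s.P h + 2 * (1 - h) * s.P1 h)|
      = |(3 - h) * (ω * s.P h) - 2 * h * (1 - h) * (ω * s.P1 h)| := by
    rw [← abs_of_pos hω, ← abs_mul, abs_of_pos hω]
    congr 1
    ring
  rw [e]
  unfold bP at k1
  unfold bU at k3
  unfold bD
  exact abs_le.2 ⟨by linarith, by linarith⟩

end

end Vale.Agent.P224.R2.H494.OC
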