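import Vale.Agent.P224.R2.H494.OC2
import Vale.Agent.P224.R2.H494.PBar
import Vale.Agent.P224.R2.H494.ZCl2
import Vale.Agent.P224.R2.H742.QFin

/-!
The normal form of the flow of the odd dimension and the scalar conditions.
-/

namespace Vale.Agent.P224.R2.H494.OC

open MeasureTheory Set Filter Function Real Vale.Agent.P224.SM2 Vale.Agent.P224.R2.H925
  Vale.Agent.P224.R2.H627 Vale.Agent.P224.R2.H820 Vale.Agent.P224.R2.H424
  Vale.Agent.P224.R2.H494.ZT Vale.Agent.P224.R2.H355 Vale.Agent.P224.R2.H742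
open scoped Topology

/-- the constant of the comparison -/
noncomputable def om (m : ℕ) : ℝ := Wf ((m : ℝ) / 2) (cn m) 1

/-- the radius -/
noncomputable def Rr (T : ℝ) : ℝ := 1 / √(1 - T ^ 2)

section

variable {m : ℕ} (hm : 17 ≤ m) {L : ℝ} (hL : L * ((m : ℝ) ^ 2 - 1) = 4)
  (s : ZSol ((m : ℝ) / 2) L)

include hm

lemma om_pos : 0 < om m := by
  have hmR : (17 : ℝ) ≤ m := by exact_mod_cast hm
  have hn := nrm_cn (m := m) (by omega)
  exact Wf_pos (hn.pos' (by linarith)) (by linarith)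

lemma om_le : om m ≤ 16 / 15 := by
  have hmR : (17 : ℝ) ≤ m := by exact_mod_cast hm
  have hn := nrm_cn (m := m) (by omega)
  refine (Wf_one_le (by linarith : (17 : ℝ) / 2 ≤ (m : ℝ) / 2) hn).trans ?_
  rw [div_le_div_iff₀ (by linarith) (by norm_num)]
  linarith

lemma K0_om : K0 ((m : ℝ) / 2) (cn m) * om m = √2 := by
  have := (om_pos hm).ne'
  unfold K0 om at *
  field_simp

include hL

lemma L_eq : L = 4 / ((m : ℝ) ^ 2 - 1) := by
  have hmR : (17 : ℝ) ≤ m := by exact_mod_cast hm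
  have hm1 : 0 < (m : ℝ) ^ 2 - 1 := by nlinarith
  rw [eq_div_iff hm1.ne']
  exact hL

lemma eta_le : 35 / 2 * L / (8 * ((m : ℝ) / 2)) ≤ 9 / 20 * (2 / m) ^ 2 := by
  have hmR : (17 : ℝ) ≤ m := by exact_mod_cast hm
  have hm1 : 0 < (m : ℝ) ^ 2 - 1 := by nlinarith
  rw [L_eq hm hL]
  have e : 35 / 2 * (4 / ((m : ℝ) ^ 2 - 1)) / (8 * ((m : ℝ) / 2))
      = 35 / (2 * m * ((m : ℝ) ^ 2 - 1)) := by
    field_simp
    norm_num
  have e2 : 9 / 20 * (2 / (m : ℝ)) ^ 2 = 9 / (5 * m ^ 2) := by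
    field_simp
    norm_num
  rw [e, e2, div_le_div_iff₀ (by positivity) (by positivity)]
  nlinarith [sq_nonneg ((m : ℝ) - 17)]

lemma etal_le : 31 / 2 * L / (8 * ((m : ℝ) / 2)) ≤ 9 / 20 * (2 / m) ^ 2 := by
  have hmR : (17 : ℝ) ≤ m := by exact_mod_cast hm
  have hp := par_of hm hL
  refine le_trans ?_ (eta_le hm hL)
  have := hp.L0
  gcongr
  norm_num

lemma eta_le3 : 35 / 2 * L / (8 * ((m : ℝ) / 2)) ≤ 11 / 5 * (2 / m) ^ 3 := by
  have hmR : (17 : ℝ) ≤ m := by exact_mod_cast hm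
  have hm1 : 0 < (m : ℝ) ^ 2 - 1 := by nlinarith
  rw [L_eq hm hL]
  have e : 35 / 2 * (4 / ((m : ℝ) ^ 2 - 1)) / (8 * ((m : ℝ) / 2))
      = 35 / (2 * m * ((m : ℝ) ^ 2 - 1)) := by
    field_simp
    norm_num
  have e2 : 11 / 5 * (2 / (m : ℝ)) ^ 3 = 88 / (5 * m ^ 3) := by
    field_simp
    norm_num
  rw [e, e2, div_le_div_iff₀ (by positivity) (by positivity)]
  have h2 : 289 ≤ (m : ℝ) ^ 2 := by nlinarith
  nlinarith [mul_nonneg (show (0 : ℝ) ≤ m by linarith) (sub_nonneg.2 h2)]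

lemma etal_le3 : 31 / 2 * L / (8 * ((m : ℝ) / 2)) ≤ 2 * (2 / m) ^ 3 := by
  have hmR : (17 : ℝ) ≤ m := by exact_mod_cast hm
  have hm1 : 0 < (m : ℝ) ^ 2 - 1 := by nlinarith
  rw [L_eq hm hL]
  have e : 31 / 2 * (4 / ((m : ℝ) ^ 2 - 1)) / (8 * ((m : ℝ) / 2))
      = 31 / (2 * m * ((m : ℝ) ^ 2 - 1)) := by
    field_simp
    norm_num
  have e2 : 2 * (2 / (m : ℝ)) ^ 3 = 16 / m ^ 3 := by
    field_simp
    norm_num
  rw [e, e2, div_le_div_iff₀ (by positivity) (by positivity)]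
  have h2 : 289 ≤ (m : ℝ) ^ 2 := by nlinarith
  nlinarith [mul_nonneg (show (0 : ℝ) ≤ m by linarith) (sub_nonneg.2 h2)]

lemma d_le {d : ℝ} (hd : 0 ≤ d) (hd2 : d ^ 2 = L) : d ≤ 501 / 500 * (2 / m) := by
  have hmR : (17 : ℝ) ≤ m := by exact_mod_cast hm
  have hm1 : 0 < (m : ℝ) ^ 2 - 1 := by nlinarith
  rw [← pow_le_pow_iff_left₀ hd (by positivity) two_ne_zero, hd2, L_eq hm hL]
  have e2 : (501 / 500 * (2 / (m : ℝ))) ^ 2 = 251001 / (62500 * m ^ 2) := by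
    field_simp
    norm_num
  rw [e2, div_le_div_iff₀ hm1 (by positivity)]
  nlinarith

/-- the weights W, E of the normal form are close to the weights of dimension m -/
lemma W_ge1 {T : ℝ} (hT : T ∈ Ioo (0 : ℝ) 1) :
    Wf ((m : ℝ) / 2) (cn m) T ≤ om m * (hsol (par_of hm hL).a0 s).W (hv T) := by
  have hmR : (17 : ℝ) ≤ m := by exact_mod_cast hm
  have hp := par_of hm hL
  have hn := nrm_cn (m := m) (by omega)
  have st := HS.stg (hsol hp.a0 s) hp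
  have h := W_ge st hp.L0 (hn.pos' hp.ha) (by linarith : (3 : ℝ) ≤ (m : ℝ) / 2) hT
  have ho := om_pos hm
  have h2 := mul_le_mul_of_nonneg_left h ho.le
  refine le_trans (le_of_eq ?_) h2
  unfold om at ho ⊢
  field_simp

lemma E_ge0 {T : ℝ} (hT : T ∈ Ioo (0 : ℝ) 1) :
    (1 - 31 / 2 * L / (8 * ((m : ℝ) / 2))) * Ef ((m : ℝ) / 2) (cn m) T
      ≤ om m * (hsol (par_of hm hL).a0 s).E (hv T) := by
  have hmR : (17 : ℝ) ≤ m := by exact_mod_cast hm
  have hp := par_of hm hL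
  have hn := nrm_cn (m := m) (by omega)
  have st := HS.stg (hsol hp.a0 s) hp
  have h := E_ge st hp.L0 (by norm_num) (by norm_num) (hn.pos' hp.ha) hp.ha hT
  have ho := om_pos hm
  have h2 := mul_le_mul_of_nonneg_left h ho.le
  refine le_trans ?_ h2
  have e : om m * (1 / Wf ((m : ℝ) / 2) (cn m) 1 * (1 - 31 / 2 * L / (8 * ((m : ℝ) / 2)))
      * Ef ((m : ℝ) / 2) (cn m) T)
      = (1 - 31 / 2 * L / (8 * ((m : ℝ) / 2))) * Ef ((m : ℝ) / 2) (cn m) T := by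
    unfold om at ho ⊢
    generalize (1 - 31 / 2 * L / (8 * ((m : ℝ) / 2))) = x
    field_simp
  rw [e]

lemma Ef0 {T : ℝ} (hT : T ∈ Ioo (0 : ℝ) 1) : 0 ≤ Ef ((m : ℝ) / 2) (cn m) T := by
  have hmR : (17 : ℝ) ≤ m := by exact_mod_cast hm
  have hp := par_of hm hL
  have hn := nrm_cn (m := m) (by omega)
  exact Ef_nonneg (hn.pos' hp.ha).le (by linarith : 2 ≤ (m : ℝ) / 2) hT

lemma Rf0 {T : ℝ} (hT : T ∈ Ioo (0 : ℝ) 1) : 0 ≤ √2 * Rf ((m : ℝ) / 2) (cn m) T := by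
  have hmR : (17 : ℝ) ≤ m := by exact_mod_cast hm
  have hp := par_of hm hL
  have hn := nrm_cn (m := m) (by omega)
  have hR := Rf_nonneg (hn.pos' hp.ha).le (by linarith : 2 ≤ (m : ℝ) / 2)
    (T := T) ⟨hT.1.le, hT.2.le⟩
  positivity

lemma E_ge1 {T : ℝ} (hT : T ∈ Ioo (0 : ℝ) 1) :
    (1 - 9 / 20 * (2 / m) ^ 2) * Ef ((m : ℝ) / 2) (cn m) T
      ≤ om m * (hsol (par_of hm hL).a0 s).E (hv T) := by
  refine le_trans ?_ (E_ge0 hm hL s hT)
  have h3 := mul_le_mul_of_nonneg_right (etal_le hm hL) (Ef0 hm hL hT)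
  linarith

lemma E_ge3 {T : ℝ} (hT : T ∈ Ioo (0 : ℝ) 1) :
    (1 - 2 * (2 / m) ^ 3) * Ef ((m : ℝ) / 2) (cn m) T
      ≤ om m * (hsol (par_of hm hL).a0 s).E (hv T) := by
  refine le_trans ?_ (E_ge0 hm hL s hT)
  have h3 := mul_le_mul_of_nonneg_right (etal_le3 hm hL) (Ef0 hm hL hT)
  linarith

lemma E_le1 {T : ℝ} (hT : T ∈ Ioo (0 : ℝ) 1) :
    om m * (hsol (par_of hm hL).a0 s).E (hv T)
      ≤ (1 + 9 / 20 * (2 / m) ^ 2) * Ef ((m : ℝ) / 2) (cn m) T := by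
  have hmR : (17 : ℝ) ≤ m := by exact_mod_cast hm
  have hp := par_of hm hL
  have hn := nrm_cn (m := m) (by omega)
  have st := HS.stg (hsol hp.a0 s) hp
  have h := E_le st hp.L0 (by norm_num) (by norm_num) (hn.pos' hp.ha)
    (by linarith : (5 : ℝ) ≤ (m : ℝ) / 2) hT
  have h4 := ηu_le (κ := 140) (φ := 7.4) hp.L0 (by norm_num) (by norm_num) hp.ha
  have ho := om_pos hm
  have h2 := mul_le_mul_of_nonneg_left h ho.le
  have hE := Ef_nonneg (hn.pos' hp.ha).le (by linarith : 2 ≤ (m : ℝ) / 2) hT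
  have h3 := mul_le_mul_of_nonneg_right (h4.trans (eta_le hm hL)) hE
  refine le_trans h2 ?_
  have e : om m * (1 / Wf ((m : ℝ) / 2) (cn m) 1 * (1 + ηu ((m : ℝ) / 2) L 7.4 140)
      * Ef ((m : ℝ) / 2) (cn m) T)
      = (1 + ηu ((m : ℝ) / 2) L 7.4 140) * Ef ((m : ℝ) / 2) (cn m) T := by
    unfold om at ho ⊢
    generalize (1 + ηu ((m : ℝ) / 2) L 7.4 140) = x
    field_simp
  rw [e]
  linarith

lemma J_ge0 {T : ℝ} (hT : T ∈ Ioo (0 : ℝ) 1) :
    (1 - 31 / 2 * L / (8 * ((m : ℝ) / 2))) * (√2 * Rf ((m : ℝ) / 2) (cn m) T)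
      ≤ om m * (m * JE s T) := by
  have hmR : (17 : ℝ) ≤ m := by exact_mod_cast hm
  have hp := par_of hm hL
  have hn := nrm_cn (m := m) (by omega)
  have st := HS.stg (hsol hp.a0 s) hp
  have h := JE_ge hp.ha hp.L0 (hn.pos' hp.ha) s (by norm_num) (by norm_num) (by norm_num)
    (by norm_num) st (T := T) ⟨hT.1.le, hT.2⟩
  have ho := om_pos hm
  have h2 := mul_le_mul_of_nonneg_left h (show 0 ≤ om m * m by positivity)
  have hKo := K0_om hm
  have e : om m * m * (K0 ((m : ℝ) / 2) (cn m) * (1 - ηl' ((m : ℝ) / 2) L)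
      * ∫ x in T..1, hF ((m : ℝ) / 2) (cn m) x)
      = (1 - 31 / 2 * L / (8 * ((m : ℝ) / 2))) * (√2 * Rf ((m : ℝ) / 2) (cn m) T) := by
    unfold Rf ηl'
    rw [← hKo]
    ring
  rw [e] at h2
  linarith

lemma J_ge1 {T : ℝ} (hT : T ∈ Ioo (0 : ℝ) 1) :
    (1 - 9 / 20 * (2 / m) ^ 2) * (√2 * Rf ((m : ℝ) / 2) (cn m) T) ≤ om m * (m * JE s T) := by
  refine le_trans ?_ (J_ge0 hm hL s hT)
  have h3 := mul_le_mul_of_nonneg_right (etal_le hm hL) (Rf0 hm hL hT)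
  linarith

lemma J_ge3 {T : ℝ} (hT : T ∈ Ioo (0 : ℝ) 1) :
    (1 - 2 * (2 / m) ^ 3) * (√2 * Rf ((m : ℝ) / 2) (cn m) T) ≤ om m * (m * JE s T) := by
  refine le_trans ?_ (J_ge0 hm hL s hT)
  have h3 := mul_le_mul_of_nonneg_right (etal_le3 hm hL) (Rf0 hm hL hT)
  linarith

lemma J_le0 {T : ℝ} (hT : T ∈ Ioo (0 : ℝ) 1) :
    om m * (m * JE s T)
      ≤ (1 + 35 / 2 * L / (8 * ((m : ℝ) / 2))) * (√2 * Rf ((m : ℝ) / 2) (cn m) T) := by
  have hmR : (17 : ℝ) ≤ m := by exact_mod_cast hm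
  have hp := par_of hm hL
  have hn := nrm_cn (m := m) (by omega)
  have st := HS.stg (hsol hp.a0 s) hp
  have h := JE_le hp.ha hp.L0 (hn.pos' hp.ha) s (by norm_num) (by norm_num) (by norm_num)
    (by norm_num) st (T := T) ⟨hT.1.le, hT.2⟩
  have ho := om_pos hm
  have h2 := mul_le_mul_of_nonneg_left h (show 0 ≤ om m * m by positivity)
  have hKo := K0_om hm
  have e : om m * m * (K0 ((m : ℝ) / 2) (cn m) * (1 + ηu' ((m : ℝ) / 2) L)
      * ∫ x in T..1, hF ((m : ℝ) / 2) (cn m) x)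
      = (1 + 35 / 2 * L / (8 * ((m : ℝ) / 2))) * (√2 * Rf ((m : ℝ) / 2) (cn m) T) := by
    unfold Rf ηu'
    rw [← hKo]
    ring
  rw [e] at h2
  linarith

lemma J_le1 {T : ℝ} (hT : T ∈ Ioo (0 : ℝ) 1) :
    om m * (m * JE s T) ≤ (1 + 9 / 20 * (2 / m) ^ 2) * (√2 * Rf ((m : ℝ) / 2) (cn m) T) := by
  refine le_trans (J_le0 hm hL s hT) ?_
  have h3 := mul_le_mul_of_nonneg_right (eta_le hm hL) (Rf0 hm hL hT)
  linarith

lemma J_le3 {T : ℝ} (hT : T ∈ Ioo (0 : ℝ) 1) :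
    om m * (m * JE s T) ≤ (1 + 11 / 5 * (2 / m) ^ 3) * (√2 * Rf ((m : ℝ) / 2) (cn m) T) := by
  refine le_trans (J_le0 hm hL s hT) ?_
  have h3 := mul_le_mul_of_nonneg_right (eta_le3 hm hL) (Rf0 hm hL hT)
  linarith

/-- the bounds of the functions W, E, r -/
theorem bds_Z {T : ℝ} (hT : T ∈ Ioo (0 : ℝ) 1) :
    Bds2 T (sv T) (2 / m) (om m * (hsol (par_of hm hL).a0 s).W (hv T))
      (om m * (hsol (par_of hm hL).a0 s).E (hv T)) (om m * (m * JE s T)) := by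
  have hmR : (17 : ℝ) ≤ m := by exact_mod_cast hm
  have hp := par_of hm hL
  have hn := nrm_cn (m := m) (by omega)
  refine bds2_close hm hT ?_ (E_ge1 hm hL s hT) (E_le1 hm hL s hT) (J_ge1 hm hL s hT)
    (J_le1 hm hL s hT)
  have h := W_ge1 hm hL s hT
  have hW := Wf_pos (T := T) (hn.pos' hp.ha) (by linarith : 2 ≤ (m : ℝ) / 2)
  have : 0 ≤ 9 / 20 * (2 / (m : ℝ)) ^ 2 * Wf ((m : ℝ) / 2) (cn m) T := by positivity
  linarith

lemma exT {h : ℝ} (hh : h ∈ Ioo (0 : ℝ) 1) : ∃ T ∈ Ioo (0 : ℝ) 1, hv T = h := by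
  have h0 := hh.1
  have h1 := hh.2
  have e0 : 0 < (1 - h) / (1 + h) := div_pos (by linarith) (by linarith)
  have e1 : (1 - h) / (1 + h) < 1 := by
    rw [div_lt_one (by linarith)]
    linarith
  refine ⟨√((1 - h) / (1 + h)), ⟨sqrt_pos.2 e0, ?_⟩, ?_⟩
  · rw [sqrt_lt' one_pos]
    linarith
  · unfold hv
    rw [sq_sqrt e0.le]
    have : (1 + h) ≠ 0 := by linarith
    field_simp
    ring

lemma E_up1 : ∀ h ∈ Icc (0 : ℝ) 1, om m * (hsol (par_of hm hL).a0 s).E h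
    ≤ h * eUh h (2 / m) := by
  have hc : closure (Ioo (0 : ℝ) 1) = Icc 0 1 := closure_Ioo zero_ne_one
  intro h hh
  rw [← hc] at hh
  refine ContinuousWithinAt.closure_le hh (f := fun h => om m * (hsol (par_of hm hL).a0 s).E h)
    (g := fun h => h * eUh h (2 / m)) ?_ ?_ ?_
  · refine ContinuousWithinAt.mono ?_ Ioo_subset_Icc_self
    exact (continuousOn_const.mul (hsol (par_of hm hL).a0 s).cE.c0) h (hc ▸ hh)
  · have : Continuous fun h : ℝ => h * eUh h (2 / m) := by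
      unfold eUh
      fun_prop
    exact this.continuousWithinAt
  · intro x hx
    obtain ⟨T, hT, rfl⟩ := exT hm hL hx
    have h2 := (bds_Z hm hL s hT).Eu
    refine h2.trans (le_of_eq ?_)
    have e : hv T = 1 - sv T ^ 2 := by rw [sv_sq]; ring
    rw [e]
    unfold vU eUh
    ring

lemma E_lo1 : ∀ h ∈ Icc (0 : ℝ) 1, h * eLh h (2 / m)
    ≤ om m * (hsol (par_of hm hL).a0 s).E h := by
  have hc : closure (Ioo (0 : ℝ) 1) = Icc 0 1 := closure_Ioo zero_ne_one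
  intro h hh
  rw [← hc] at hh
  refine ContinuousWithinAt.closure_le hh (g := fun h => om m * (hsol (par_of hm hL).a0 s).E h)
    (f := fun h => h * eLh h (2 / m)) ?_ ?_ ?_
  · have : Continuous fun h : ℝ => h * eLh h (2 / m) := by
      unfold eLh
      fun_prop
    exact this.continuousWithinAt
  · refine ContinuousWithinAt.mono ?_ Ioo_subset_Icc_self
    exact (continuousOn_const.mul (hsol (par_of hm hL).a0 s).cE.c0) h (hc ▸ hh)
  · intro x hx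
    obtain ⟨T, hT, rfl⟩ := exT hm hL hx
    have h2 := (bds_Z hm hL s hT).El
    refine le_trans (le_of_eq ?_) h2
    have e : hv T = 1 - sv T ^ 2 := by rw [sv_sq]; ring
    rw [e]
    unfold vL eLh
    ring

/-- the normal form of P -/
noncomputable def nP (T : ℝ) : ℝ := om m * (hsol (par_of hm hL).a0 s).P (hv T)
/-- the normal form of ε -/
noncomputable def nQ (T : ℝ) : ℝ := om m * ((hsol (par_of hm hL).a0 s).P (hv T)
  + 2 * (1 - hv T) * (hsol (par_of hm hL).a0 s).P1 (hv T))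
/-- the normal form of the difference -/
noncomputable def nD (T : ℝ) : ℝ := om m * |3 * (hsol (par_of hm hL).a0 s).P (hv T)
  - hv T * ((hsol (par_of hm hL).a0 s).P (hv T)
    + 2 * (1 - hv T) * (hsol (par_of hm hL).a0 s).P1 (hv T))|

/-- all the bounds of the normal form -/
theorem obd_Z {T : ℝ} (hT : T ∈ Ioo (0 : ℝ) 1) :
    OBd T (sv T) (2 / m) (om m * (hsol (par_of hm hL).a0 s).W (hv T))
      (om m * (hsol (par_of hm hL).a0 s).E (hv T)) (om m * (m * JE s T))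
      (nP hm hL s T) (nQ hm hL s T) (nD hm hL s T) := by
  have hmR : (17 : ℝ) ≤ m := by exact_mod_cast hm
  have hp := par_of hm hL
  have ho := om_pos hm
  have ho1 := om_le hm
  have hh : hv T ∈ Icc (0 : ℝ) 1 := H355.hv_mem hT
  have hat : (m : ℝ) / 2 * (2 / m) = 1 := by
    field_simp
  have p0 := HS.P_nonneg (hsol (par_of hm hL).a0 s) hp _ hh
  have p10 := HS.P1_nonneg (hsol (par_of hm hL).a0 s) hp _ hh
  have pu := P_up (hsol (par_of hm hL).a0 s) hp hat ho ho1 (E_up1 hm hL s) _ hh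
  have p1u := P1_up (hsol (par_of hm hL).a0 s) hp hat ho ho1 (E_up1 hm hL s) _ hh
  have pd := P_diff (hsol (par_of hm hL).a0 s) hp hat ho ho1 (E_up1 hm hL s) (E_lo1 hm hL s) hh
  have e : hv T = 1 - sv T ^ 2 := by rw [sv_sq]; ring
  have h0 := hh.1
  have h1 : 0 ≤ 1 - hv T := by linarith [hh.2]
  have eb : bP (hv T) (2 / m) = pU (sv T) (2 / m) := by
    rw [e]
    unfold bP pU
    ring
  have eb1 : bU (hv T) (2 / m) = aU (sv T) (2 / m) := by
    rw [e]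
    unfold bU aU
    ring
  have eb2 : bD (hv T) = dlU (sv T) := by
    rw [e]
    unfold bD dlU
    ring
  rw [eb] at pu
  rw [eb1] at p1u
  rw [eb2] at pd
  refine ⟨bds_Z hm hL s hT, ?_, ?_, ?_, ?_, ?_, ?_⟩
  · unfold nP
    positivity
  · unfold nQ
    positivity
  · unfold nD
    positivity
  · rw [← e]
    exact pu
  · unfold nQ qU
    rw [← e]
    have k := mul_le_mul_of_nonneg_left p1u (show 0 ≤ 2 * (1 - hv T) by positivity)
    have e3 : 2 * sv T ^ 2 = 2 * (1 - hv T) := by rw [e]; ring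
    rw [e3]
    linarith
  · rw [← e]
    exact pd

lemma aux_Z {d : ℝ} (hd : 0 ≤ d) (hd2 : d ^ 2 = L) {T : ℝ} (hT : T ∈ Ioo (0 : ℝ) 1) :
    Aux T (sv T) (2 / m) d (1 / √(2 * hv T)) √(1 + hv T) := by
  have h0 := hv_pos hT
  have e : hv T = 1 - sv T ^ 2 := by rw [sv_sq]; ring
  refine ⟨hd, d_le hm hL hd hd2, by positivity, ?_, by positivity, ?_, ?_⟩
  · rw [← e, div_pow, sq_sqrt (by positivity)]
    field_simp
  · rw [sq_sqrt (by linarith), e]
    ring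
  · rw [sqrt_hv]
    unfold sv
    ring

/-- the flow in normal form -/
theorem nf_Z {T : ℝ} (hT : T ∈ Ioo (0 : ℝ) 1) :
    Nf m T (sv T) (om m * (hsol (par_of hm hL).a0 s).W (hv T))
      (om m * (hsol (par_of hm hL).a0 s).E (hv T)) (om m * (m * JE s T))
      (nP hm hL s T) (nQ hm hL s T) (nD hm hL s T) (1 / √(2 * hv T)) √(1 + hv T)
      ((1 - T ^ 2) ^ ((m : ℝ) / 2 - 1) / om m) (1 / √(1 - T ^ 2))
      ((uZ s).y T) ((uZ s).e T) ((uZ s).r T) (-(uZ s).ρ T) (-(uZ s).ε T)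
      |3 * -(uZ s).ρ T - -(uZ s).ε T| := by
  have hmR : (17 : ℝ) ≤ m := by exact_mod_cast hm
  have hp := par_of hm hL
  have ho := om_pos hm
  have hk := w_pos hT
  have h0 := hv_pos hT
  have hT0 := hT.1
  have h2 := s_pos T
  have h3 := s_sq T
  have h4 : √(2 : ℝ) * √2 = 2 := mul_self_sqrt (by norm_num)
  have h5 : (0 : ℝ) < √2 := by positivity
  have e : hv T = 1 - sv T ^ 2 := by rw [sv_sq]; ring
  have hh : hv T = (1 - T ^ 2) / (1 + T ^ 2) := rfl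
  have h6 : (0 : ℝ) < 1 + T ^ 2 := by positivity
  have hwa : (1 - T ^ 2) ^ ((m : ℝ) / 2) = (1 - T ^ 2) ^ ((m : ℝ) / 2 - 1) * (1 - T ^ 2) := by
    rw [← rpow_add_one hk.ne']
    congr 1
    ring
  have hKp : 0 < (1 - T ^ 2) ^ ((m : ℝ) / 2 - 1) := by positivity
  have hsv : sv T = √2 * T / √(1 + T ^ 2) := by unfold sv; ring
  have e1 := one_add_hv T
  have hpq : 3 * -(uZ s).ρ T - -(uZ s).ε T
      = (m + 1) / (2 * m) * ((1 - T ^ 2) ^ ((m : ℝ) / 2 - 1) * √(1 + T ^ 2) / √2)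
        * (3 * (hsol (par_of hm hL).a0 s).P (hv T)
          - hv T * ((hsol (par_of hm hL).a0 s).P (hv T)
          + 2 * (1 - hv T) * (hsol (par_of hm hL).a0 s).P1 (hv T))) := by
    rw [rho_eq (par_of hm hL).a0 s T, eps_eq (par_of hm hL).a0 s T, hwa, hh]
    generalize (hsol (par_of hm hL).a0 s).P ((1 - T ^ 2) / (1 + T ^ 2)) = P
    generalize (hsol (par_of hm hL).a0 s).P1 ((1 - T ^ 2) / (1 + T ^ 2)) = P1
    generalize (1 - T ^ 2) ^ ((m : ℝ) / 2 - 1) = K at hKp ⊢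
    generalize √(1 + T ^ 2) = q at h2 h3 ⊢
    generalize √(2 : ℝ) = r at h4 h5 ⊢
    have h3' : 1 + T ^ 2 = q * q := h3.symm
    rw [h3']
    field_simp
    rw [show r ^ 2 = 2 by rw [sq, h4]]
    ring
  refine ⟨by positivity, ?_, ?_, ?_, ?_, ?_, ?_, ?_⟩
  · rw [one_div, one_div, ← sqrt_inv, ← sqrt_inv, ← sqrt_mul (by positivity)]
    congr 1
    rw [e1, hh]
    field_simp
  · have : (uZ s).y T = (1 - T ^ 2) ^ ((m : ℝ) / 2 - 1) * s.y (1 - T ^ 2) := rfl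
    rw [this, y_eq (par_of hm hL).a0 s T, hsv]
    field_simp
  · have : (uZ s).r T = (1 - T ^ 2) ^ ((m : ℝ) / 2 - 1) * JE s T := rfl
    rw [this]
    field_simp
  · rw [e_eq (par_of hm hL).a0 s T, hwa, hsv]
    have e2 : 2 - (√2 * T / √(1 + T ^ 2)) ^ 2 = 2 / (1 + T ^ 2) := by
      rw [← hsv, sv_sq, ← e1]
      ring
    rw [e2]
    field_simp
  · unfold nP
    rw [rho_eq (par_of hm hL).a0 s T, sqrt_hv]
    field_simp
    norm_num
  · unfold nQ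
    rw [eps_eq (par_of hm hL).a0 s T, sqrt_hv, ← e, hwa, hh]
    generalize (hsol (par_of hm hL).a0 s).P ((1 - T ^ 2) / (1 + T ^ 2)) = P
    generalize (hsol (par_of hm hL).a0 s).P1 ((1 - T ^ 2) / (1 + T ^ 2)) = P1
    generalize (1 - T ^ 2) ^ ((m : ℝ) / 2 - 1) = K at hKp ⊢
    generalize √(1 + T ^ 2) = q at h2 h3 ⊢
    generalize √(2 : ℝ) = r at h4 h5 ⊢
    have h3' : 1 + T ^ 2 = q * q := h3.symm
    rw [h3']
    field_simp
    rw [show r ^ 2 = 2 by rw [sq, h4]]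
    ring
  · rw [hpq, abs_mul, abs_of_nonneg (show 0 ≤ ((m : ℝ) + 1) / (2 * m)
      * ((1 - T ^ 2) ^ ((m : ℝ) / 2 - 1) * √(1 + T ^ 2) / √2) by positivity)]
    unfold nD
    rw [sqrt_hv]
    field_simp

end

end Vale.Agent.P224.R2.H494.OC
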