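import Vale.Agent.P224.R2.H494.OCExp

/-!
Polynomial inequalities for the barriers of P (generated, checked by the kernel).
-/

namespace Vale.Agent.P224.R2.H494.OC

open Vale.Agent.P224.R2.H627

set_option linter.unusedSimpArgs false

/-- upper bound of `E / h` -/
noncomputable def eUh (x t : ℝ) : ℝ :=
  (1) + t * (-(7 / 8) - 2 * x + 35 / 8 * x ^ 2) + t ^ 2 * (18 / 5 - 1639 / 100 * x + 6331 / 100 * x ^ 2 - 6089 / 50 * x ^ 3 + 7417 / 100 * x ^ 4)
/-- lower bound of `E / h` -/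
noncomputable def eLh (x t : ℝ) : ℝ :=
  (1) + t * (-(7 / 8) - 2 * x + 35 / 8 * x ^ 2) + t ^ 2 * (-(21 / 5) + 2867 / 50 * x - 25269 / 100 * x ^ 2 + 9783 / 20 * x ^ 3 - 23651 / 50 * x ^ 4 +
      9243 / 50 * x ^ 5)

lemma bern1 {p0 p1 c t : ℝ} (ht : 0 ≤ c * t) (ht1 : c * t ≤ 1) (hc : 0 < c) (h0 : 0 ≤ p0)
    (h1 : 0 ≤ p0 + 1 * (p1 / c ^ 1)) : 0 ≤ p0 + t * p1 := by
  have k0 := mul_nonneg (sub_nonneg.2 ht1) h0
  have k1 := mul_nonneg ht h1
  have e : p0 + t * p1 = (1 - c * t) * p0 + c * t * (p0 + 1 * (p1 / c ^ 1)) := by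
    field_simp
    ring
  rw [e]
  linarith

lemma rU_exp (x t : ℝ) : (1 - 63 / 40 * t - 99 / 20 * t * x + 197 / 20 * t * x ^ 2) * (1 - t * x ^ 2) + t * (1 - 251 / 1000 * t ^ 2) * (1 - x ^ 2) * (2 * (1 - 63 / 40 * t - 99 / 20 * t * x + 197 / 20 * t * x ^ 2) + x * (-(99 / 20 * t) + 197 / 10 * t * x)) - eUh x t - 13 / 20 * t ^ 2 * x ^ 2 = t * ((13 / 10 - 59 / 20 * x + 99 / 40 * x ^ 2) + t * (-(27 / 4) + 77 / 50 * x - 3967 / 200 * x ^ 2 + 7079 / 50 * x ^ 3 - 6171 / 50 * x ^ 4) + t ^ 2 * (-(251 / 500) + 251 / 500 * x ^ 2) + t ^ 3 * (15813 / 20000 + 74547 / 20000 * x - 213601 / 20000 * x ^ 2 - 74547 / 20000 * x ^ 3 + 49447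
      / 5000 * x ^ 4)) := by
  simp only [eUh]
  ring

lemma rUt_0 {x : ℝ} (h0 : 0 ≤ x) (h1 : x ≤ 1) : (0 : ℝ) ≤ 13 / 10 - 59 / 20 * x + 99 / 40 * x ^ 2 := by
  have h := chk_sound 9 [5200, -1180, 99]
    (by decide +kernel) (10 * x - 0) (by linarith) (by norm_num; linarith)
  have e : ev [5200, -1180, 99] (10 * x - 0)
      = 4000 * (13 / 10 - 59 / 20 * x + 99 / 40 * x ^ 2) := by
    simp only [ev]
    push_cast
    ring
  rw [e] at h
  exact nonneg_of_mul_nonneg_right h (by norm_num)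

lemma rUt_1 {x : ℝ} (h0 : 0 ≤ x) (h1 : x ≤ 1) : (0 : ℝ) ≤ 88 / 85 - 14737 / 5100 * x + 17311 / 10200 * x ^ 2 + 7079 / 1275 * x ^ 3 - 121 / 25 * x ^
      4 := by
  have h := chk_sound 9 [26400000, -7368500, 432775, 141580, -12342]
    (by decide +kernel) (10 * x - 0) (by linarith) (by norm_num; linarith)
  have e : ev [26400000, -7368500, 432775, 141580, -12342] (10 * x - 0)
      = 25500000 * (88 / 85 - 14737 / 5100 * x + 17311 / 10200 * x ^ 2 + 7079 / 1275 * x ^ 3 - 121 / 25 * x ^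
      4) := by
    simp only [ev]
    push_cast
    ring
  rw [e] at h
  exact nonneg_of_mul_nonneg_right h (by norm_num)

lemma rUt_2 {x : ℝ} (h0 : 0 ≤ x) (h1 : x ≤ 1) : (0 : ℝ) ≤ 166523 / 216750 - 14429 / 5100 * x + 266351 / 289000 * x ^ 2 + 14158 / 1275 * x ^ 3 - 242
      / 25 * x ^ 4 := by
  have h := chk_sound 9 [333046000, -122646500, 3995265, 4813720, -419628]
    (by decide +kernel) (10 * x - 0) (by linarith) (by norm_num; linarith)
  have e : ev [333046000, -122646500, 3995265, 4813720, -419628] (10 * x - 0)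
      = 433500000 * (166523 / 216750 - 14429 / 5100 * x + 266351 / 289000 * x ^ 2 + 14158 / 1275 * x ^ 3 - 242
      / 25 * x ^ 4) := by
    simp only [ev]
    push_cast
    ring
  rw [e] at h
  exact nonneg_of_mul_nonneg_right h (by norm_num)

lemma rUt_3 {x : ℝ} (h0 : 0 ≤ x) (h1 : x ≤ 1) : (0 : ℝ) ≤ 6143973 / 12282500 - 8483382 / 3070625 * x + 3218703 / 24565000 * x ^ 2 + 204508553 /
      12282500 * x ^ 3 - 44536028 / 3070625 * x ^ 4 := by
  have h := chk_sound 24 [4799978906250, -1060422750000, 2011689375, 10225427650, -356288224]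
    (by decide +kernel) (25 * x - 0) (by linarith) (by norm_num; linarith)
  have e : ev [4799978906250, -1060422750000, 2011689375, 10225427650, -356288224] (25 * x - 0)
      = 9595703125000 * (6143973 / 12282500 - 8483382 / 3070625 * x + 3218703 / 24565000 * x ^ 2 + 204508553 /
      12282500 * x ^ 3 - 44536028 / 3070625 * x ^ 4) := by
    simp only [ev]
    push_cast
    ring
  rw [e] at h
  exact nonneg_of_mul_nonneg_right h (by norm_num)

lemma rUt_nonneg {x t : ℝ} (h0 : 0 ≤ x) (h1 : x ≤ 1) (ht : 0 ≤ t) (ht1 : t ≤ 2 / 17) :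
    0 ≤ (13 / 10 - 59 / 20 * x + 99 / 40 * x ^ 2) + t * (-(27 / 4) + 77 / 50 * x - 3967 / 200 * x ^ 2 + 7079 / 50 * x ^ 3 - 6171 / 50 * x ^ 4) + t ^ 2 * (-(251 / 500) + 251 / 500 * x ^ 2) + t ^ 3 * (15813 / 20000 + 74547 / 20000 * x - 213601 / 20000 * x ^ 2 - 74547 / 20000 * x ^ 3 + 49447
      / 5000 * x ^ 4) := by
  refine bern3 (c := 17 / 2) (by linarith) (by linarith) (by norm_num) ?_ ?_ ?_ ?_
  · refine (rUt_0 h0 h1).trans (le_of_eq ?_)
    ring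
  · refine (rUt_1 h0 h1).trans (le_of_eq ?_)
    ring
  · refine (rUt_2 h0 h1).trans (le_of_eq ?_)
    ring
  · refine (rUt_3 h0 h1).trans (le_of_eq ?_)
    ring

lemma rL_exp (x t : ℝ) : eLh x t - 13 / 20 * t ^ 2 * x ^ 2 - 9 / 100 * t * x ^ 2 - 4 / 3 * t * (1 - x ^ 2) - 2 / 3 * (1 - (1 - 251 / 1000 * t ^ 2) * t * x ^ 2) = (1 / 3) + t * (-(53 / 24) - 2 * x + 1257 / 200 * x ^ 2) + t ^ 2 * (-(21 / 5) + 2867 / 50 * x - 12667 / 50 * x ^ 2 + 9783 / 20 * x ^ 3 - 23651 / 50 * x ^ 4 +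
      9243 / 50 * x ^ 5) + t ^ 3 * (-(251 / 1500 * x ^ 2)) := by
  simp only [eLh]
  ring

lemma rL_0 {x : ℝ} (h0 : 0 ≤ x) (h1 : x ≤ 1) : (0 : ℝ) ≤ 1 / 3 := by
  have h := chk_sound 9 [1]
    (by decide +kernel) (10 * x - 0) (by linarith) (by norm_num; linarith)
  have e : ev [1] (10 * x - 0)
      = 3 * (1 / 3) := by
    simp only [ev]
    push_cast
    ring
  rw [e] at h
  exact nonneg_of_mul_nonneg_right h (by norm_num)

lemma rL_1 {x : ℝ} (h0 : 0 ≤ x) (h1 : x ≤ 1) : (0 : ℝ) ≤ 151 / 612 - 4 / 51 * x + 419 / 1700 * x ^ 2 := by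
  have h := chk_sound 9 [377500, -12000, 3771]
    (by decide +kernel) (10 * x - 0) (by linarith) (by norm_num; linarith)
  have e : ev [377500, -12000, 3771] (10 * x - 0)
      = 1530000 * (151 / 612 - 4 / 51 * x + 419 / 1700 * x ^ 2) := by
    simp only [ev]
    push_cast
    ring
  rw [e] at h
  exact nonneg_of_mul_nonneg_right h (by norm_num)

lemma rL_2 {x : ℝ} (h0 : 0 ≤ x) (h1 : x ≤ 1) : (0 : ℝ) ≤ 3661 / 26010 + 778 / 7225 * x - 29299 / 43350 * x ^ 2 + 3261 / 1445 * x ^ 3 - 47302 /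
      21675 * x ^ 4 + 6162 / 7225 * x ^ 5 := by
  have h := chk_sound 9 [457625000, 35010000, -21974250, 7337250, -709530, 27729]
    (by decide +kernel) (10 * x - 0) (by linarith) (by norm_num; linarith)
  have e : ev [457625000, 35010000, -21974250, 7337250, -709530, 27729] (10 * x - 0)
      = 3251250000 * (3661 / 26010 + 778 / 7225 * x - 29299 / 43350 * x ^ 2 + 3261 / 1445 * x ^ 3 - 47302 /
      21675 * x ^ 4 + 6162 / 7225 * x ^ 5) := by
    simp only [ev]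
    push_cast
    ring
  rw [e] at h
  exact nonneg_of_mul_nonneg_right h (by norm_num)

lemma rL_3 {x : ℝ} (h0 : 0 ≤ x) (h1 : x ≤ 1) : (0 : ℝ) ≤ 89 / 5780 + 4034 / 7225 * x - 20393593 / 7369500 * x ^ 2 + 9783 / 1445 * x ^ 3 - 47302 /
      7225 * x ^ 4 + 18486 / 7225 * x ^ 5 := by
  have h := chk_sound 9 [283687500, 1028670000, -509839825, 124733250, -12062010, 471393]
    (by decide +kernel) (10 * x - 0) (by linarith) (by norm_num; linarith)
  have e : ev [283687500, 1028670000, -509839825, 124733250, -12062010, 471393] (10 * x - 0)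
      = 18423750000 * (89 / 5780 + 4034 / 7225 * x - 20393593 / 7369500 * x ^ 2 + 9783 / 1445 * x ^ 3 - 47302 /
      7225 * x ^ 4 + 18486 / 7225 * x ^ 5) := by
    simp only [ev]
    push_cast
    ring
  rw [e] at h
  exact nonneg_of_mul_nonneg_right h (by norm_num)

lemma rL_nonneg {x t : ℝ} (h0 : 0 ≤ x) (h1 : x ≤ 1) (ht : 0 ≤ t) (ht1 : t ≤ 2 / 17) :
    0 ≤ eLh x t - 13 / 20 * t ^ 2 * x ^ 2 - 9 / 100 * t * x ^ 2 - 4 / 3 * t * (1 - x ^ 2) - 2 / 3 * (1 - (1 - 251 / 1000 * t ^ 2) * t * x ^ 2) := by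
  rw [rL_exp]
  refine bern3 (c := 17 / 2) (by linarith) (by linarith) (by norm_num) ?_ ?_ ?_ ?_
  · refine (rL_0 h0 h1).trans (le_of_eq ?_)
    ring
  · refine (rL_1 h0 h1).trans (le_of_eq ?_)
    ring
  · refine (rL_2 h0 h1).trans (le_of_eq ?_)
    ring
  · refine (rL_3 h0 h1).trans (le_of_eq ?_)
    ring

lemma rD1_exp (x t : ℝ) : (67 / 50 - 9 / 5 * x + 59 / 50 * x ^ 2) - (3 - x) * (1 / 3 - 21 / 40 * t - 99 / 80 * t * x + 197 / 100 * t * x ^ 2) + 4 / 3 * (1 - x) = (251 / 150 - 14 / 5 * x + 59 / 50 * x ^ 2) + t * (63 / 40 + 51 / 16 * x - 2859 / 400 * x ^ 2 + 197 / 100 * x ^ 3) := by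
  ring

lemma rD1_0 {x : ℝ} (h0 : 0 ≤ x) (h1 : x ≤ 1) : (0 : ℝ) ≤ 251 / 150 - 14 / 5 * x + 59 / 50 * x ^ 2 := by
  have h := chk_sound 9 [25100, -4200, 177]
    (by decide +kernel) (10 * x - 0) (by linarith) (by norm_num; linarith)
  have e : ev [25100, -4200, 177] (10 * x - 0)
      = 15000 * (251 / 150 - 14 / 5 * x + 59 / 50 * x ^ 2) := by
    simp only [ev]
    push_cast
    ring
  rw [e] at h
  exact nonneg_of_mul_nonneg_right h (by norm_num)

lemma rD1_1 {x : ℝ} (h0 : 0 ≤ x) (h1 : x ≤ 1) : (0 : ℝ) ≤ 9479 / 5100 - 97 / 40 * x + 1153 / 3400 * x ^ 2 + 197 / 850 * x ^ 3 := by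
  have h := chk_sound 19 [37916000, -2473500, 17295, 591]
    (by decide +kernel) (20 * x - 0) (by linarith) (by norm_num; linarith)
  have e : ev [37916000, -2473500, 17295, 591] (20 * x - 0)
      = 20400000 * (9479 / 5100 - 97 / 40 * x + 1153 / 3400 * x ^ 2 + 197 / 850 * x ^ 3) := by
    simp only [ev]
    push_cast
    ring
  rw [e] at h
  exact nonneg_of_mul_nonneg_right h (by norm_num)

lemma rD1_nonneg {x t : ℝ} (h0 : 0 ≤ x) (h1 : x ≤ 1) (ht : 0 ≤ t) (ht1 : t ≤ 2 / 17) :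
    0 ≤ (67 / 50 - 9 / 5 * x + 59 / 50 * x ^ 2) - (3 - x) * (1 / 3 - 21 / 40 * t - 99 / 80 * t * x + 197 / 100 * t * x ^ 2) + 4 / 3 * (1 - x) := by
  rw [rD1_exp]
  refine bern1 (c := 17 / 2) (by linarith) (by linarith) (by norm_num) ?_ ?_
  · refine (rD1_0 h0 h1).trans (le_of_eq ?_)
    ring
  · refine (rD1_1 h0 h1).trans (le_of_eq ?_)
    ring

lemma rD2_exp (x t : ℝ) : (67 / 50 - 9 / 5 * x + 59 / 50 * x ^ 2) - 2 * (1 - x) * (1 - 63 / 40 * t - 99 / 20 * t * x + 197 / 20 * t * x ^ 2) + 2 / 9 * (3 - x) = (1 / 150 - 1 / 45 * x + 59 / 50 * x ^ 2) + t * (63 / 20 + 27 / 4 * x - 148 / 5 * x ^ 2 + 197 / 10 * x ^ 3) := by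
  ring

lemma rD2_0 {x : ℝ} (h0 : 0 ≤ x) (h1 : x ≤ 1) : (0 : ℝ) ≤ 1 / 150 - 1 / 45 * x + 59 / 50 * x ^ 2 := by
  have h := chk_sound 9 [300, -100, 531]
    (by decide +kernel) (10 * x - 0) (by linarith) (by norm_num; linarith)
  have e : ev [300, -100, 531] (10 * x - 0)
      = 45000 * (1 / 150 - 1 / 45 * x + 59 / 50 * x ^ 2) := by
    simp only [ev]
    push_cast
    ring
  rw [e] at h
  exact nonneg_of_mul_nonneg_right h (by norm_num)

lemma rD2_1 {x : ℝ} (h0 : 0 ≤ x) (h1 : x ≤ 1) : (0 : ℝ) ≤ 481 / 1275 + 1181 / 1530 * x - 1957 / 850 * x ^ 2 + 197 / 85 * x ^ 3 := by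
  have h := chk_sound 9 [288600, 59050, -17613, 1773]
    (by decide +kernel) (10 * x - 0) (by linarith) (by norm_num; linarith)
  have e : ev [288600, 59050, -17613, 1773] (10 * x - 0)
      = 765000 * (481 / 1275 + 1181 / 1530 * x - 1957 / 850 * x ^ 2 + 197 / 85 * x ^ 3) := by
    simp only [ev]
    push_cast
    ring
  rw [e] at h
  exact nonneg_of_mul_nonneg_right h (by norm_num)

lemma rD2_nonneg {x t : ℝ} (h0 : 0 ≤ x) (h1 : x ≤ 1) (ht : 0 ≤ t) (ht1 : t ≤ 2 / 17) :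
    0 ≤ (67 / 50 - 9 / 5 * x + 59 / 50 * x ^ 2) - 2 * (1 - x) * (1 - 63 / 40 * t - 99 / 20 * t * x + 197 / 20 * t * x ^ 2) + 2 / 9 * (3 - x) := by
  rw [rD2_exp]
  refine bern1 (c := 17 / 2) (by linarith) (by linarith) (by norm_num) ?_ ?_
  · refine (rD2_0 h0 h1).trans (le_of_eq ?_)
    ring
  · refine (rD2_1 h0 h1).trans (le_of_eq ?_)
    ring

lemma rB_exp (x t : ℝ) : 2 * (1 - 63 / 40 * t - 99 / 20 * t * x + 197 / 20 * t * x ^ 2) + x * (-(99 / 20 * t) + 197 / 10 * t * x) = (2) + t * (-(63 / 20) - 297 / 20 * x + 197 / 5 * x ^ 2) := by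
  ring

lemma rB_0 {x : ℝ} (h0 : 0 ≤ x) (h1 : x ≤ 1) : (0 : ℝ) ≤ 2 := by
  have h := chk_sound 9 [1]
    (by decide +kernel) (10 * x - 0) (by linarith) (by norm_num; linarith)
  have e : ev [1] (10 * x - 0)
      = 1 / 2 * (2) := by
    simp only [ev]
    push_cast
    ring
  rw [e] at h
  exact nonneg_of_mul_nonneg_right h (by norm_num)

lemma rB_1 {x : ℝ} (h0 : 0 ≤ x) (h1 : x ≤ 1) : (0 : ℝ) ≤ 277 / 170 - 297 / 170 * x + 394 / 85 * x ^ 2 := by
  have h := chk_sound 9 [13850, -1485, 394]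
    (by decide +kernel) (10 * x - 0) (by linarith) (by norm_num; linarith)
  have e : ev [13850, -1485, 394] (10 * x - 0)
      = 8500 * (277 / 170 - 297 / 170 * x + 394 / 85 * x ^ 2) := by
    simp only [ev]
    push_cast
    ring
  rw [e] at h
  exact nonneg_of_mul_nonneg_right h (by norm_num)

lemma rB_nonneg {x t : ℝ} (h0 : 0 ≤ x) (h1 : x ≤ 1) (ht : 0 ≤ t) (ht1 : t ≤ 2 / 17) :
    0 ≤ 2 * (1 - 63 / 40 * t - 99 / 20 * t * x + 197 / 20 * t * x ^ 2) + x * (-(99 / 20 * t) + 197 / 10 * t * x) := by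
  rw [rB_exp]
  refine bern1 (c := 17 / 2) (by linarith) (by linarith) (by norm_num) ?_ ?_
  · refine (rB_0 h0 h1).trans (le_of_eq ?_)
    ring
  · refine (rB_1 h0 h1).trans (le_of_eq ?_)
    ring

lemma rP_exp (x t : ℝ) : 9 / 25 - (1 / 3 - 21 / 40 * t - 99 / 80 * t * x + 197 / 100 * t * x ^ 2) = (2 / 75) + t * (21 / 40 + 99 / 80 * x - 197 / 100 * x ^ 2) := by
  ring

lemma rP_0 {x : ℝ} (h0 : 0 ≤ x) (h1 : x ≤ 1) : (0 : ℝ) ≤ 2 / 75 := by
  have h := chk_sound 9 [1]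
    (by decide +kernel) (10 * x - 0) (by linarith) (by norm_num; linarith)
  have e : ev [1] (10 * x - 0)
      = 75 / 2 * (2 / 75) := by
    simp only [ev]
    push_cast
    ring
  rw [e] at h
  exact nonneg_of_mul_nonneg_right h (by norm_num)

lemma rP_1 {x : ℝ} (h0 : 0 ≤ x) (h1 : x ≤ 1) : (0 : ℝ) ≤ 451 / 5100 + 99 / 680 * x - 197 / 850 * x ^ 2 := by
  have h := chk_sound 9 [45100, 7425, -1182]
    (by decide +kernel) (10 * x - 0) (by linarith) (by norm_num; linarith)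
  have e : ev [45100, 7425, -1182] (10 * x - 0)
      = 510000 * (451 / 5100 + 99 / 680 * x - 197 / 850 * x ^ 2) := by
    simp only [ev]
    push_cast
    ring
  rw [e] at h
  exact nonneg_of_mul_nonneg_right h (by norm_num)

lemma rP_nonneg {x t : ℝ} (h0 : 0 ≤ x) (h1 : x ≤ 1) (ht : 0 ≤ t) (ht1 : t ≤ 2 / 17) :
    0 ≤ 9 / 25 - (1 / 3 - 21 / 40 * t - 99 / 80 * t * x + 197 / 100 * t * x ^ 2) := by
  rw [rP_exp]
  refine bern1 (c := 17 / 2) (by linarith) (by linarith) (by norm_num) ?_ ?_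
  · refine (rP_0 h0 h1).trans (le_of_eq ?_)
    ring
  · refine (rP_1 h0 h1).trans (le_of_eq ?_)
    ring

end Vale.Agent.P224.R2.H494.OC
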