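import Vale.Agent.P224.R2.H494.Base2

/-!
Odd dimension: the linear operator of the exact flow and its bounds.
-/

namespace Vale.Agent.P224.R2.H494

open MeasureTheory Set Filter Function Real Vale.Agent.P224.SM2
open scoped Topology

/-- the denominator -/
noncomputable def De (L x : ℝ) : ℝ := 4 - L * (1 - x ^ 2)

noncomputable def eh (a : ℝ) (β : ℝ → ℝ) (T : ℝ) : ℝ := (β T + a * M a β T) / (2 * (2 * a - 1))

noncomputable def rh (a : ℝ) (γ : ℝ → ℝ) (T : ℝ) : ℝ := -((1 - T ^ 2) ^ (a - 1 / 2) * P a γ T)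

noncomputable def sg (γ : ℝ → ℝ) (T : ℝ) : ℝ := γ T / √(1 - T ^ 2)

noncomputable def ep (a : ℝ) (γ : ℝ → ℝ) (T : ℝ) : ℝ := rh a γ T - T ^ 2 * sg γ T

noncomputable def om (a : ℝ) (γ : ℝ → ℝ) (T : ℝ) : ℝ := (1 - T ^ 2) * sg γ T - 2 * ep a γ T

noncomputable def ff (a L : ℝ) (β p γ : ℝ → ℝ) (T : ℝ) : ℝ :=
  -((12 + L * (1 - T ^ 2)) / De L T * eh a β T) - 16 / De L T * p T
    + 4 * L / ((2 * a + 1) * De L T) * om a γ T

noncomputable def qq (a L : ℝ) (β p γ : ℝ → ℝ) (T : ℝ) : ℝ :=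
  L * a / (De L T * (2 * a + 1)) * (-om a γ T + (2 * a + 1) * (1 - T ^ 2) * (eh a β T + p T))

noncomputable def ag (a L : ℝ) (β p γ : ℝ → ℝ) (T : ℝ) : ℝ :=
  ((2 * a - 1) + 2 * L * a / De L T * (1 - T ^ 2)) * (rh a γ T / √(1 - T ^ 2))
    + 4 * a * (2 * a + 1) / De L T * (√(1 - T ^ 2) * (eh a β T + p T))
    - L * a / De L T * ((1 + T ^ 2) * γ T)

noncomputable def Kb (a L : ℝ) (β p γ : ℝ → ℝ) (T : ℝ) : ℝ :=
  M a (fun x => 1 / 2 * ((1 - x ^ 2) ^ a * (2 * a * P a β x))) T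
    - L * (2 * a - 1) / 2 * (a * M a (fun x => (1 + x ^ 2) * ff a L β p γ x) T
      - (1 - T ^ 2) * ff a L β p γ T)

noncomputable def Kp (a L : ℝ) (β p γ : ℝ → ℝ) (T : ℝ) : ℝ := M a (qq a L β p γ) T

noncomputable def Kg (a L : ℝ) (β p γ : ℝ → ℝ) (T : ℝ) : ℝ := M a (ag a L β p γ) T

/-- bounds with the base weights -/
structure Bd (a : ℝ) (β p γ : ℝ → ℝ) (z η G : ℝ) : Prop where
  cβ : ContinuousOn β (Ioo 0 1)
  cp : ContinuousOn p (Ioo 0 1)
  cγ : ContinuousOn γ (Ioo 0 1)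
  bβ : ∀ x ∈ Ioo (0 : ℝ) 1, |β x| ≤ z * bb a x
  bp : ∀ x ∈ Ioo (0 : ℝ) 1, |p x| ≤ η * eb a x
  bγ : ∀ x ∈ Ioo (0 : ℝ) 1, |γ x| ≤ G * (a * (2 * a + 1)) * gb a x

variable {a L z η G : ℝ} {β p γ : ℝ → ℝ}

lemma De_pos (h0 : 0 ≤ L) (h1 : L ≤ 1 / 72) {x : ℝ} (hx : x ∈ Ioo (0 : ℝ) 1) :
    287 / 72 ≤ De L x := by
  have h2 := one_sub_sq_pos hx
  have h3 := w_le_one (T := x)
  have h4 : L * (1 - x ^ 2) ≤ 1 / 72 * 1 := mul_le_mul h1 h3 h2.le (by norm_num)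
  unfold De
  linarith

lemma Bd.wβ (ha : 2 ≤ a) (h : Bd a β p γ z η G) : WB a β :=
  WB.of_le h.cβ ((WB_bb ha).const_mul z) h.bβ

lemma Bd.wp (ha : 2 ≤ a) (h : Bd a β p γ z η G) : WB a p :=
  WB.of_le h.cp ((WB_eb ha).const_mul η) h.bp

lemma Bd.wγ (ha : 2 ≤ a) (h : Bd a β p γ z η G) : WB a γ :=
  WB.of_le h.cγ ((WB_gb ha).const_mul (G * (a * (2 * a + 1)))) h.bγ

lemma Bd.nβ (ha : 2 ≤ a) (h : Bd a β p γ z η G) : CB β := (h.wβ ha).toCB (by linarith)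

lemma Bd.np (ha : 2 ≤ a) (h : Bd a β p γ z η G) : CB p := (h.wp ha).toCB (by linarith)

lemma Bd.nγ (ha : 2 ≤ a) (h : Bd a β p γ z η G) : CB γ := (h.wγ ha).toCB (by linarith)

lemma contOn_eh (ha : 2 ≤ a) (h : CB β) : ContinuousOn (eh a β) (Ioo 0 1) :=
  (h.1.add (continuousOn_const.mul (h.M (by linarith)).1)).div_const _

lemma abs_eh_le (ha : 2 ≤ a) (h : Bd a β p γ z η G) {T : ℝ} (hT : T ∈ Ioo (0 : ℝ) 1) :
    |eh a β T| ≤ z * eb a T := by
  have hT' := Ioo_subset_Ioc_self hT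
  rw [eb_eq ha hT']
  unfold eh
  have h1 : |M a β T| ≤ z * M a (bb a) T := by
    refine (abs_M_le (h.nβ ha) ((CB.const z).mul (CB_bb ha)) a hT' h.bβ).trans (le_of_eq ?_)
    exact M_const_mul _ _ _
  have h2 := h.bβ T hT
  have h3 : 0 < 2 * (2 * a - 1) := by linarith
  rw [abs_div, abs_of_pos h3, ← mul_div_assoc]
  refine div_le_div_of_nonneg_right ?_ h3.le
  calc |β T + a * M a β T| ≤ |β T| + |a * M a β T| := abs_add_le _ _
    _ = |β T| + a * |M a β T| := by rw [abs_mul, abs_of_pos (by linarith : 0 < a)]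
    _ ≤ z * bb a T + a * (z * M a (bb a) T) :=
        add_le_add h2 (mul_le_mul_of_nonneg_left h1 (by linarith))
    _ = _ := by ring

lemma contOn_rh (h : WB a γ) : ContinuousOn (rh a γ) (Ioo 0 1) := by
  refine ((ContinuousOn.rpow_const (Continuous.continuousOn (by fun_prop))
    fun x hx => Or.inl (one_sub_sq_pos hx).ne').mul ?_).neg
  exact (continuousOn_P h).mono Ioo_subset_Icc_self

lemma aux_aa (ha : 17 / 2 ≤ a) : a / (a - 1) ≤ 17 / 15 := by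
  rw [div_le_div_iff₀ (by linarith) (by norm_num)]
  linarith

lemma abs_rh_le (ha : 17 / 2 ≤ a) (hG : 0 ≤ G) (h : Bd a β p γ z η G) {T : ℝ}
    (hT : T ∈ Ioo (0 : ℝ) 1) :
    |rh a γ T| ≤ G * (a * (2 * a + 1)) / (5 * (a - 1)) * ((1 - T ^ 2) * eb a T) := by
  have ha2 : 2 ≤ a := by linarith
  have hw := one_sub_sq_pos hT
  have h1 : |P a γ T| ≤ G * (a * (2 * a + 1)) * P a (gb a) T := by
    refine (abs_P_le (h.wγ ha2) ((WB_gb ha2).const_mul _) (Ioo_subset_Icc_self hT) h.bγ).trans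
      (le_of_eq ?_)
    exact P_const_mul _ _ _
  have h2 := P_gb_le ha2 hT
  have hc : 0 ≤ G * (a * (2 * a + 1)) :=
    mul_nonneg hG (mul_nonneg (by linarith) (by linarith))
  unfold rh
  rw [abs_neg, abs_mul, abs_of_nonneg (rpow_nonneg hw.le _)]
  calc (1 - T ^ 2) ^ (a - 1 / 2) * |P a γ T|
      ≤ (1 - T ^ 2) ^ (a - 1 / 2) * (G * (a * (2 * a + 1))
        * ((1 - T ^ 2) ^ (3 / 2 - a) * eb a T / (5 * (a - 1)))) :=
        mul_le_mul_of_nonneg_left (h1.trans (mul_le_mul_of_nonneg_left h2 hc))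
          (rpow_nonneg hw.le _)
    _ = G * (a * (2 * a + 1)) / (5 * (a - 1))
        * (((1 - T ^ 2) ^ (a - 1 / 2) * (1 - T ^ 2) ^ (3 / 2 - a)) * eb a T) := by ring
    _ = _ := by
        rw [← rpow_add hw, show a - 1 / 2 + (3 / 2 - a) = 1 by ring, rpow_one]

lemma contOn_sqrt : ContinuousOn (fun T : ℝ => √(1 - T ^ 2)) (Ioo 0 1) :=
  Continuous.continuousOn (by fun_prop)

lemma sqrt_w_pos {T : ℝ} (hT : T ∈ Ioo (0 : ℝ) 1) : 0 < √(1 - T ^ 2) :=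
  sqrt_pos.2 (one_sub_sq_pos hT)

lemma contOn_sg (h : ContinuousOn γ (Ioo 0 1)) : ContinuousOn (sg γ) (Ioo 0 1) :=
  h.div contOn_sqrt fun _ hx => (sqrt_w_pos hx).ne'

lemma abs_sg_le (ha : 17 / 2 ≤ a) (hG : 0 ≤ G) (h : Bd a β p γ z η G) {T : ℝ}
    (hT : T ∈ Ioo (0 : ℝ) 1) :
    |sg γ T| ≤ G * (a * (2 * a + 1)) / (a - 1) * ((1 - T ^ 2) * eb a T) := by
  have ha2 : 2 ≤ a := by linarith
  have h1 := h.bγ T hT
  have h2 := gb_le ha2 (Ioo_subset_Ioc_self hT)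
  have hs := sqrt_w_pos hT
  have hc : 0 ≤ G * (a * (2 * a + 1)) :=
    mul_nonneg hG (mul_nonneg (by linarith) (by linarith))
  unfold sg
  rw [abs_div, abs_of_pos hs, div_le_iff₀ hs]
  calc |γ T| ≤ G * (a * (2 * a + 1)) * (√(1 - T ^ 2) * (1 - T ^ 2) * eb a T / (a - 1)) :=
        h1.trans (mul_le_mul_of_nonneg_left h2 hc)
    _ = _ := by ring

/-- the combination `ω g - 2 ε` -/
lemma abs_om_le (ha : 17 / 2 ≤ a) (hG : 0 ≤ G) (h : Bd a β p γ z η G) {T : ℝ}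
    (hT : T ∈ Ioo (0 : ℝ) 1) :
    |om a γ T| ≤ 68 / 25 * G * (2 * a + 1) * ((1 - T ^ 2) * eb a T) := by
  have h1 := abs_rh_le ha hG h hT
  have h2 := abs_sg_le ha hG h hT
  have hx : 0 ≤ (1 - T ^ 2) * eb a T :=
    mul_nonneg (one_sub_sq_pos hT).le (eb_nonneg (by linarith) (Ioo_subset_Ioc_self hT))
  have e : om a γ T = (1 + T ^ 2) * sg γ T - 2 * rh a γ T := by
    unfold om ep
    ring
  have hT2 : T ^ 2 ≤ 1 := by nlinarith [hT.1, hT.2]
  have h3 : |om a γ T| ≤ 2 * |sg γ T| + 2 * |rh a γ T| := by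
    rw [e]
    calc |(1 + T ^ 2) * sg γ T - 2 * rh a γ T|
        ≤ |(1 + T ^ 2) * sg γ T| + |2 * rh a γ T| := abs_sub _ _
      _ = (1 + T ^ 2) * |sg γ T| + 2 * |rh a γ T| := by
          rw [abs_mul, abs_mul, abs_of_nonneg (by positivity : (0 : ℝ) ≤ 1 + T ^ 2), abs_two]
      _ ≤ 2 * |sg γ T| + 2 * |rh a γ T| := by
          have := mul_le_mul_of_nonneg_right (by linarith : 1 + T ^ 2 ≤ 2) (abs_nonneg (sg γ T))
          linarith
  have h4 : 2 * (G * (a * (2 * a + 1)) / (a - 1)) + 2 * (G * (a * (2 * a + 1)) / (5 * (a - 1)))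
      ≤ 68 / 25 * G * (2 * a + 1) := by
    have h5 := aux_aa ha
    have ha1 : a - 1 ≠ 0 := by linarith
    have e2 : 2 * (G * (a * (2 * a + 1)) / (a - 1)) + 2 * (G * (a * (2 * a + 1)) / (5 * (a - 1)))
        = 12 / 5 * (G * (2 * a + 1)) * (a / (a - 1)) := by
      field_simp
      ring
    rw [e2]
    have h6 : 0 ≤ 12 / 5 * (G * (2 * a + 1)) :=
      mul_nonneg (by norm_num) (mul_nonneg hG (by linarith))
    have := mul_le_mul_of_nonneg_left h5 h6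
    linarith
  have h7 := mul_le_mul_of_nonneg_right h4 hx
  linarith

lemma contOn_ep (h : WB a γ) : ContinuousOn (ep a γ) (Ioo 0 1) :=
  (contOn_rh h).sub ((Continuous.continuousOn (by fun_prop)).mul (contOn_sg h.1))

lemma contOn_om (h : WB a γ) : ContinuousOn (om a γ) (Ioo 0 1) :=
  ((Continuous.continuousOn (by fun_prop)).mul (contOn_sg h.1)).sub
    (continuousOn_const.mul (contOn_ep h))

lemma contOn_De : ContinuousOn (De L) (Ioo 0 1) := by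
  unfold De
  exact Continuous.continuousOn (by fun_prop)

lemma De_ne (h0 : 0 ≤ L) (h1 : L ≤ 1 / 72) {x : ℝ} (hx : x ∈ Ioo (0 : ℝ) 1) : De L x ≠ 0 := by
  have := De_pos h0 h1 hx
  linarith

lemma contOn_ff (ha : 2 ≤ a) (h0 : 0 ≤ L) (h1 : L ≤ 1 / 72) (h : Bd a β p γ z η G) :
    ContinuousOn (ff a L β p γ) (Ioo 0 1) := by
  have hD := contOn_De (L := L)
  have hD0 : ∀ x ∈ Ioo (0 : ℝ) 1, De L x ≠ 0 := fun x hx => De_ne h0 h1 hx
  refine ((((Continuous.continuousOn (by fun_prop)).div hD hD0).mul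
    (contOn_eh ha (h.nβ ha))).neg.sub ((continuousOn_const.div hD hD0).mul h.cp)).add ?_
  refine (continuousOn_const.div (continuousOn_const.mul hD) fun x hx => ?_).mul
    (contOn_om (h.wγ ha))
  exact mul_ne_zero (by linarith) (hD0 x hx)

lemma abs_ff_le (ha : 17 / 2 ≤ a) (h0 : 0 ≤ L) (h1 : L ≤ 1 / 72) (hz : 0 ≤ z) (hη : 0 ≤ η)
    (hG : 0 ≤ G) (h : Bd a β p γ z η G) {T : ℝ} (hT : T ∈ Ioo (0 : ℝ) 1) :
    |ff a L β p γ T| ≤ (151 / 50 * z + 201 / 50 * η + 273 / 100 * L * G) * eb a T := by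
  have ha2 : 2 ≤ a := by linarith
  have hD := De_pos h0 h1 hT
  have hD0 : 0 < De L T := by linarith
  have hw := one_sub_sq_pos hT
  have hw1 := w_le_one (T := T)
  have he := eb_nonneg ha2 (Ioo_subset_Ioc_self hT)
  have b1 := abs_eh_le ha2 h hT
  have b2 := h.bp T hT
  have b3 := abs_om_le ha hG h hT
  have hLw : L * (1 - T ^ 2) ≤ 1 / 72 := by
    have := mul_le_mul h1 hw1 hw.le (by norm_num)
    linarith
  have hLw0 : 0 ≤ L * (1 - T ^ 2) := mul_nonneg h0 hw.le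
  have c1 : (12 + L * (1 - T ^ 2)) / De L T ≤ 151 / 50 := by
    rw [div_le_iff₀ hD0]
    nlinarith
  have c2 : 16 / De L T ≤ 201 / 50 := by
    rw [div_le_iff₀ hD0]
    linarith
  have hn : 0 < 2 * a + 1 := by linarith
  have c3 : 4 * L / ((2 * a + 1) * De L T) * (68 / 25 * G * (2 * a + 1) * ((1 - T ^ 2) * eb a T))
      ≤ 273 / 100 * L * G * eb a T := by
    have e : 4 * L / ((2 * a + 1) * De L T) * (68 / 25 * G * (2 * a + 1) * ((1 - T ^ 2) * eb a T))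
        = (4 / De L T) * (68 / 25 * (L * G * ((1 - T ^ 2) * eb a T))) := by
      have := hD0.ne'
      field_simp
    rw [e]
    have c4 : 4 / De L T ≤ 288 / 287 := by
      rw [div_le_div_iff₀ hD0 (by norm_num)]
      linarith
    have hLG : 0 ≤ L * G := mul_nonneg h0 hG
    have c5 : (1 - T ^ 2) * eb a T ≤ 1 * eb a T := mul_le_mul_of_nonneg_right hw1 he
    have c6 : 68 / 25 * (L * G * ((1 - T ^ 2) * eb a T)) ≤ 68 / 25 * (L * G * (1 * eb a T)) := by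
      gcongr
    have c7 : 0 ≤ 68 / 25 * (L * G * ((1 - T ^ 2) * eb a T)) := by positivity
    have c8 : 0 ≤ L * G * eb a T := by positivity
    calc 4 / De L T * (68 / 25 * (L * G * ((1 - T ^ 2) * eb a T)))
        ≤ 288 / 287 * (68 / 25 * (L * G * (1 * eb a T))) :=
          mul_le_mul c4 c6 c7 (by norm_num)
      _ ≤ _ := by linarith
  have hc : 0 ≤ 4 * L / ((2 * a + 1) * De L T) := by positivity
  have d1 : |(12 + L * (1 - T ^ 2)) / De L T * eh a β T| ≤ 151 / 50 * (z * eb a T) := by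
    rw [abs_mul, abs_of_nonneg (by positivity)]
    exact mul_le_mul c1 b1 (abs_nonneg _) (by norm_num)
  have d2 : |16 / De L T * p T| ≤ 201 / 50 * (η * eb a T) := by
    rw [abs_mul, abs_of_nonneg (by positivity)]
    exact mul_le_mul c2 b2 (abs_nonneg _) (by norm_num)
  have d3 : |4 * L / ((2 * a + 1) * De L T) * om a γ T| ≤ 273 / 100 * L * G * eb a T := by
    rw [abs_mul, abs_of_nonneg hc]
    exact (mul_le_mul_of_nonneg_left b3 hc).trans c3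
  unfold ff
  have t1 := abs_add_le (-((12 + L * (1 - T ^ 2)) / De L T * eh a β T) - 16 / De L T * p T)
    (4 * L / ((2 * a + 1) * De L T) * om a γ T)
  have t2 := abs_sub (-((12 + L * (1 - T ^ 2)) / De L T * eh a β T)) (16 / De L T * p T)
  rw [abs_neg] at t2
  linarith

end Vale.Agent.P224.R2.H494
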