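import Vale.Agent.P224.R2.H494.Op

/-!
Odd dimension: bounds of the linear operator of the exact flow.
-/

namespace Vale.Agent.P224.R2.H494

open MeasureTheory Set Filter Function Real Vale.Agent.P224.SM2
open scoped Topology

variable {a L z η G : ℝ} {β p γ : ℝ → ℝ}

lemma aux_cm (ha : 17 / 2 ≤ a) : (2 * a - 1) * a / (2 * (a - 1) ^ 2) ≤ 121 / 100 := by
  have ha1 : 0 < a - 1 := by linarith
  rw [div_le_div_iff₀ (by positivity) (by norm_num)]
  nlinarith

lemma aux_T2 {T : ℝ} (hT : T ∈ Ioo (0 : ℝ) 1) : T ^ 2 ≤ 1 := by nlinarith [hT.1, hT.2]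

lemma CB_ff (ha : 17 / 2 ≤ a) (h0 : 0 ≤ L) (h1 : L ≤ 1 / 72) (hz : 0 ≤ z) (hη : 0 ≤ η)
    (hG : 0 ≤ G) (h : Bd a β p γ z η G) : CB (ff a L β p γ) :=
  CB.of_le (contOn_ff (by linarith) h0 h1 h) ((CB.const _).mul (CB_eb (by linarith)))
    fun _ hx => abs_ff_le ha h0 h1 hz hη hG h hx

lemma CB_xff (ha : 17 / 2 ≤ a) (h0 : 0 ≤ L) (h1 : L ≤ 1 / 72) (hz : 0 ≤ z) (hη : 0 ≤ η)
    (hG : 0 ≤ G) (h : Bd a β p γ z η G) : CB fun x => (1 + x ^ 2) * ff a L β p γ x :=
  (CB.of_cont (f := fun x => 1 + x ^ 2) (Continuous.continuousOn (by fun_prop))).mul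
    (CB_ff ha h0 h1 hz hη hG h)

/-- the averaged part of the coupling -/
noncomputable def Jf (a : ℝ) (f : ℝ → ℝ) (T : ℝ) : ℝ :=
  a * M a (fun x => (1 + x ^ 2) * f x) T - (1 - T ^ 2) * f T

lemma abs_Jf_le (ha : 17 / 2 ≤ a) {f : ℝ → ℝ} {F : ℝ} (hF : 0 ≤ F) (hc : ContinuousOn f (Ioo 0 1))
    (hf : ∀ x ∈ Ioo (0 : ℝ) 1, |f x| ≤ F * eb a x) {T : ℝ} (hT : T ∈ Ioo (0 : ℝ) 1) :
    |Jf a f T| ≤ 2 * a / (a - 1) * F * eb a T := by
  have ha2 : 2 ≤ a := by linarith
  have hT' := Ioo_subset_Ioc_self hT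
  have hcb : CB f := CB.of_le hc ((CB.const F).mul (CB_eb ha2)) hf
  have hx1 : CB fun x : ℝ => 1 + x ^ 2 :=
    CB.of_cont (f := fun x => 1 + x ^ 2) (Continuous.continuousOn (by fun_prop))
  have h1 : |M a (fun x => (1 + x ^ 2) * f x) T| ≤ F * ((1 + T ^ 2) * eb a T / (a - 1)) := by
    refine (abs_M_le (g := fun x => F * ((1 + x ^ 2) * eb a x)) (hx1.mul hcb)
      ((CB.const F).mul (hx1.mul (CB_eb ha2))) a hT' fun x hx => ?_).trans ?_
    · rw [abs_mul, abs_of_nonneg (by positivity : (0 : ℝ) ≤ 1 + x ^ 2)]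
      have := mul_le_mul_of_nonneg_left (hf x hx) (by positivity : (0 : ℝ) ≤ 1 + x ^ 2)
      linarith
    · rw [M_const_mul]
      exact mul_le_mul_of_nonneg_left (M_eb_le ha2 hT') hF
  have h2 := hf T hT
  have hw := one_sub_sq_pos hT
  have he := eb_nonneg ha2 hT'
  unfold Jf
  have ha1 : 0 < a - 1 := by linarith
  calc |a * M a (fun x => (1 + x ^ 2) * f x) T - (1 - T ^ 2) * f T|
      ≤ |a * M a (fun x => (1 + x ^ 2) * f x) T| + |(1 - T ^ 2) * f T| := abs_sub _ _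
    _ = a * |M a (fun x => (1 + x ^ 2) * f x) T| + (1 - T ^ 2) * |f T| := by
        rw [abs_mul, abs_mul, abs_of_pos hw, abs_of_pos (by linarith : 0 < a)]
    _ ≤ a * (F * ((1 + T ^ 2) * eb a T / (a - 1))) + (1 - T ^ 2) * (F * eb a T) :=
        add_le_add (mul_le_mul_of_nonneg_left h1 (by linarith))
          (mul_le_mul_of_nonneg_left h2 hw.le)
    _ = (2 * a - 1 + T ^ 2) / (a - 1) * F * eb a T := by
        field_simp
        ring
    _ ≤ 2 * a / (a - 1) * F * eb a T := by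
        have h3 : (2 * a - 1 + T ^ 2) / (a - 1) ≤ 2 * a / (a - 1) := by
          have := aux_T2 hT
          exact div_le_div_of_nonneg_right (by linarith) ha1.le
        exact mul_le_mul_of_nonneg_right (mul_le_mul_of_nonneg_right h3 hF) he

lemma WBa_P {f : ℝ → ℝ} (ha : 2 ≤ a) (h : WB a f) :
    CB fun x => 1 / 2 * ((1 - x ^ 2) ^ a * (2 * a * P a f x)) :=
  (CB.const _).mul ((CB.omega (by linarith)).mul ((CB.const _).mul
    (CB.of_cont (continuousOn_P h))))

lemma CB_wP (ha : 2 ≤ a) (h : Bd a β p γ z η G) :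
    CB fun x => 1 / 2 * ((1 - x ^ 2) ^ a * (2 * a * P a β x)) := WBa_P ha (h.wβ ha)

/-- the even loop -/
lemma abs_even_le (ha : 2 ≤ a) (h : Bd a β p γ z η G) {T : ℝ} (hT : T ∈ Ioo (0 : ℝ) 1) :
    |M a (fun x => 1 / 2 * ((1 - x ^ 2) ^ a * (2 * a * P a β x))) T| ≤ 3 / 10 * z * bb a T := by
  have hT' := Ioo_subset_Ioc_self hT
  refine (abs_M_le (g := fun x => z * (3 / 10 * (1 / 2 * ((1 - x ^ 2) ^ a * Vb a x))))
    (CB_wP ha h) ((CB.const _).mul ((CB.const _).mul ((CB.const _).mul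
      ((CB.omega (by linarith)).mul (CB_Vb ha))))) a hT' fun x hx => ?_).trans (le_of_eq ?_)
  · have hz : 0 ≤ z * bb a x := (abs_nonneg _).trans (h.bβ x hx)
    have h1 : |P a β x| ≤ z * P a (bb a) x := by
      refine (abs_P_le (h.wβ ha) ((WB_bb ha).const_mul z) (Ioo_subset_Icc_self hx) h.bβ).trans
        (le_of_eq ?_)
      exact P_const_mul _ _ _
    have h2 := P_bb_le ha (Ioo_subset_Icc_self hx)
    have hk : 0 ≤ (1 - x ^ 2) ^ a := rpow_nonneg (one_sub_sq_pos hx).le _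
    have hz0 : 0 ≤ z := by
      by_contra hz0
      rw [not_le] at hz0
      have h3 : bb a (1 / 2) ≤ 0 := by
        have h4 := (abs_nonneg _).trans (h.bβ (1 / 2) (by norm_num))
        by_contra h5
        rw [not_le] at h5
        have := mul_neg_of_neg_of_pos hz0 h5
        linarith
      -- the base function is positive
      have h6 := eb_le_bb ha (T := 1 / 2) (by norm_num)
      have h7 : 0 < eb a (1 / 2) := by
        have h8 : 0 < bb a (1 / 2) := by
          rw [← bb_eq ha (by norm_num)]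
          unfold M
          refine mul_pos (by positivity) (intervalIntegral.intervalIntegral_pos_of_pos_on
            (intble_M ((CB.const _).mul ((CB.omega (by linarith)).mul (CB_Vb ha))) a
              (by norm_num)) (fun y hy => ?_) (by norm_num))
          have hy' : y ∈ Ioo (0 : ℝ) 1 := ⟨by linarith [hy.1], hy.2⟩
          have := Vb_pos ha (T := y) ⟨hy'.1.le, hy'.2⟩
          have := one_sub_sq_pos hy'
          have := hy'.1
          positivity
        linarith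
      have h9 : bb a (1 / 2) / (2 * a - 2) ≤ 0 :=
        div_nonpos_of_nonpos_of_nonneg h3 (by linarith)
      linarith
    rw [abs_mul, abs_mul, abs_mul, abs_of_nonneg hk, abs_of_nonneg (by linarith : 0 ≤ 2 * a),
      abs_of_nonneg (by norm_num : (0 : ℝ) ≤ 1 / 2)]
    have h4 : 2 * a * |P a β x| ≤ z * (3 / 10 * Vb a x) := by
      calc 2 * a * |P a β x| ≤ 2 * a * (z * P a (bb a) x) :=
            mul_le_mul_of_nonneg_left h1 (by linarith)
        _ = z * (2 * a * P a (bb a) x) := by ring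
        _ ≤ _ := mul_le_mul_of_nonneg_left h2 hz0
    have h5 := mul_le_mul_of_nonneg_left h4 hk
    linarith
  · rw [M_const_mul, M_const_mul, bb_eq ha hT']
    ring

theorem abs_Kb_le (ha : 17 / 2 ≤ a) (h0 : 0 ≤ L) (h1 : L ≤ 1 / 72) (hz : 0 ≤ z) (hη : 0 ≤ η)
    (hG : 0 ≤ G) (h : Bd a β p γ z η G) {T : ℝ} (hT : T ∈ Ioo (0 : ℝ) 1) :
    |Kb a L β p γ T| ≤ (3 / 10 * z
      + 121 / 100 * L * (151 / 50 * z + 201 / 50 * η + 273 / 100 * L * G)) * bb a T := by
  have ha2 : 2 ≤ a := by linarith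
  have hT' := Ioo_subset_Ioc_self hT
  have b1 := abs_even_le ha2 h hT
  have hF : 0 ≤ 151 / 50 * z + 201 / 50 * η + 273 / 100 * L * G := by positivity
  have b2 := abs_Jf_le ha hF (contOn_ff ha2 h0 h1 h)
    (fun x hx => abs_ff_le ha h0 h1 hz hη hG h hx) hT
  have b3 := eb_le_bb ha2 hT'
  have hb := bb_nonneg ha2 (Ioo_subset_Icc_self hT)
  set F := 151 / 50 * z + 201 / 50 * η + 273 / 100 * L * G with hFd
  have ha1 : 0 < a - 1 := by linarith
  have e : Kb a L β p γ T = M a (fun x => 1 / 2 * ((1 - x ^ 2) ^ a * (2 * a * P a β x))) T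
      - L * (2 * a - 1) / 2 * Jf a (ff a L β p γ) T := rfl
  rw [e]
  have hc : 0 ≤ L * (2 * a - 1) / 2 :=
    div_nonneg (mul_nonneg h0 (by linarith)) (by norm_num)
  have b4 : |L * (2 * a - 1) / 2 * Jf a (ff a L β p γ) T| ≤ 121 / 100 * L * F * bb a T := by
    rw [abs_mul, abs_of_nonneg hc]
    calc L * (2 * a - 1) / 2 * |Jf a (ff a L β p γ) T|
        ≤ L * (2 * a - 1) / 2 * (2 * a / (a - 1) * F * eb a T) :=
          mul_le_mul_of_nonneg_left b2 hc
      _ ≤ L * (2 * a - 1) / 2 * (2 * a / (a - 1) * F * (bb a T / (2 * a - 2))) := by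
          have : 0 ≤ 2 * a / (a - 1) * F := by positivity
          exact mul_le_mul_of_nonneg_left (mul_le_mul_of_nonneg_left b3 this) hc
      _ = (2 * a - 1) * a / (2 * (a - 1) ^ 2) * (L * F * bb a T) := by
          rw [show 2 * a - 2 = 2 * (a - 1) by ring]
          field_simp
      _ ≤ 121 / 100 * (L * F * bb a T) :=
          mul_le_mul_of_nonneg_right (aux_cm ha) (by positivity)
      _ = _ := by ring
  calc |M a (fun x => 1 / 2 * ((1 - x ^ 2) ^ a * (2 * a * P a β x))) T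
      - L * (2 * a - 1) / 2 * Jf a (ff a L β p γ) T| ≤ _ := abs_sub _ _
    _ ≤ 3 / 10 * z * bb a T + 121 / 100 * L * F * bb a T := add_le_add b1 b4
    _ = _ := by ring

lemma contOn_qq (ha : 2 ≤ a) (h0 : 0 ≤ L) (h1 : L ≤ 1 / 72) (h : Bd a β p γ z η G) :
    ContinuousOn (qq a L β p γ) (Ioo 0 1) := by
  have hD := contOn_De (L := L)
  have hD0 : ∀ x ∈ Ioo (0 : ℝ) 1, De L x ≠ 0 := fun x hx => De_ne h0 h1 hx
  refine (continuousOn_const.div (hD.mul continuousOn_const) fun x hx =>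
    mul_ne_zero (hD0 x hx) (by linarith)).mul ?_
  exact (contOn_om (h.wγ ha)).neg.add ((Continuous.continuousOn (by fun_prop)).mul
    ((contOn_eh ha (h.nβ ha)).add h.cp))

lemma abs_qq_le (ha : 17 / 2 ≤ a) (h0 : 0 ≤ L) (h1 : L ≤ 1 / 72)
    (hG : 0 ≤ G) (h : Bd a β p γ z η G) {T : ℝ} (hT : T ∈ Ioo (0 : ℝ) 1) :
    |qq a L β p γ T| ≤ 72 / 287 * L * a * (z + η + 68 / 25 * G) * ((1 - T ^ 2) * eb a T) := by
  have ha2 : 2 ≤ a := by linarith
  have hD := De_pos h0 h1 hT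
  have hD0 : 0 < De L T := by linarith
  have hw := one_sub_sq_pos hT
  have he := eb_nonneg ha2 (Ioo_subset_Ioc_self hT)
  have b1 := abs_eh_le ha2 h hT
  have b2 := h.bp T hT
  have b3 := abs_om_le ha hG h hT
  have hn : 0 < 2 * a + 1 := by linarith
  have hc : 0 ≤ L * a / (De L T * (2 * a + 1)) := by positivity
  have hzη : 0 ≤ (z + η) * eb a T := by
    have := (abs_nonneg _).trans b1
    have := (abs_nonneg _).trans b2
    linarith
  unfold qq
  rw [abs_mul, abs_of_nonneg hc]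
  have b4 : |-om a γ T + (2 * a + 1) * (1 - T ^ 2) * (eh a β T + p T)|
      ≤ (2 * a + 1) * ((z + η + 68 / 25 * G) * ((1 - T ^ 2) * eb a T)) := by
    calc |-om a γ T + (2 * a + 1) * (1 - T ^ 2) * (eh a β T + p T)|
        ≤ |-om a γ T| + |(2 * a + 1) * (1 - T ^ 2) * (eh a β T + p T)| := abs_add_le _ _
      _ = |om a γ T| + (2 * a + 1) * (1 - T ^ 2) * |eh a β T + p T| := by
          rw [abs_neg, abs_mul, abs_of_nonneg (by positivity :
            0 ≤ (2 * a + 1) * (1 - T ^ 2))]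
      _ ≤ 68 / 25 * G * (2 * a + 1) * ((1 - T ^ 2) * eb a T)
          + (2 * a + 1) * (1 - T ^ 2) * (z * eb a T + η * eb a T) := by
          refine add_le_add b3 (mul_le_mul_of_nonneg_left ?_ (by positivity))
          exact (abs_add_le _ _).trans (add_le_add b1 b2)
      _ = _ := by ring
  have hX : 0 ≤ (z + η + 68 / 25 * G) * ((1 - T ^ 2) * eb a T) := by
    have : 0 ≤ G * ((1 - T ^ 2) * eb a T) := by positivity
    have : 0 ≤ (1 - T ^ 2) * ((z + η) * eb a T) := mul_nonneg hw.le hzη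
    linarith
  calc L * a / (De L T * (2 * a + 1)) * |-om a γ T + (2 * a + 1) * (1 - T ^ 2) * (eh a β T + p T)|
      ≤ L * a / (De L T * (2 * a + 1))
        * ((2 * a + 1) * ((z + η + 68 / 25 * G) * ((1 - T ^ 2) * eb a T))) :=
        mul_le_mul_of_nonneg_left b4 hc
    _ = 1 / De L T * (L * a * ((z + η + 68 / 25 * G) * ((1 - T ^ 2) * eb a T))) := by
        field_simp
    _ ≤ 72 / 287 * (L * a * ((z + η + 68 / 25 * G) * ((1 - T ^ 2) * eb a T))) := by
        refine mul_le_mul_of_nonneg_right ?_ (by positivity)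
        rw [div_le_div_iff₀ hD0 (by norm_num)]
        linarith
    _ = _ := by ring

lemma CB_weba (ha : 2 ≤ a) : CB fun x => (1 - x ^ 2) * eb a x :=
  (CB.of_cont (f := fun x => 1 - x ^ 2) (Continuous.continuousOn (by fun_prop))).mul (CB_eb ha)

lemma CB_qq (ha : 17 / 2 ≤ a) (h0 : 0 ≤ L) (h1 : L ≤ 1 / 72)
    (hG : 0 ≤ G) (h : Bd a β p γ z η G) : CB (qq a L β p γ) :=
  CB.of_le (contOn_qq (by linarith) h0 h1 h) ((CB.const _).mul (CB_weba (by linarith)))
    fun _ hx => abs_qq_le ha h0 h1 hG h hx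

/-- sharper form with the factor `w` -/
theorem abs_Kp_le (ha : 17 / 2 ≤ a) (h0 : 0 ≤ L) (h1 : L ≤ 1 / 72) (hz : 0 ≤ z) (hη : 0 ≤ η)
    (hG : 0 ≤ G) (h : Bd a β p γ z η G) {T : ℝ} (hT : T ∈ Ioo (0 : ℝ) 1) :
    |Kp a L β p γ T| ≤ 57 / 200 * L * (z + η + 68 / 25 * G) * ((1 - T ^ 2) * eb a T) := by
  have ha2 : 2 ≤ a := by linarith
  have hT' := Ioo_subset_Ioc_self hT
  have hw := one_sub_sq_pos hT
  have he := eb_nonneg ha2 hT'
  have ha1 : 0 < a - 1 := by linarith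
  have b1 := abs_M_le (CB_qq ha h0 h1 hG h)
    ((CB.const (72 / 287 * L * a * (z + η + 68 / 25 * G))).mul (CB_weba ha2)) a hT'
    fun x hx => abs_qq_le ha h0 h1 hG h hx
  rw [M_const_mul] at b1
  have hc : 0 ≤ 72 / 287 * L * a * (z + η + 68 / 25 * G) := by positivity
  have b2 := mul_le_mul_of_nonneg_left (M_web_le ha2 hT') hc
  unfold Kp
  refine b1.trans (b2.trans ?_)
  have e : 72 / 287 * L * a * (z + η + 68 / 25 * G) * ((1 - T ^ 2) * eb a T / (a - 1))
      = 72 / 287 * (a / (a - 1)) * (L * (z + η + 68 / 25 * G) * ((1 - T ^ 2) * eb a T)) := by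
    ring
  rw [e]
  have h5 := aux_aa ha
  have h6 : 0 ≤ L * (z + η + 68 / 25 * G) * ((1 - T ^ 2) * eb a T) := by positivity
  have h7 : 72 / 287 * (a / (a - 1)) ≤ 57 / 200 := by linarith
  have := mul_le_mul_of_nonneg_right h7 h6
  linarith

lemma contOn_ag (ha : 2 ≤ a) (h0 : 0 ≤ L) (h1 : L ≤ 1 / 72) (h : Bd a β p γ z η G) :
    ContinuousOn (ag a L β p γ) (Ioo 0 1) := by
  have hD := contOn_De (L := L)
  have hD0 : ∀ x ∈ Ioo (0 : ℝ) 1, De L x ≠ 0 := fun x hx => De_ne h0 h1 hx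
  have hq : ∀ c : ℝ, ContinuousOn (fun x => c / De L x) (Ioo 0 1) :=
    fun c => continuousOn_const.div hD hD0
  refine ContinuousOn.sub (ContinuousOn.add ?_ ?_) ?_
  · exact (continuousOn_const.add ((hq _).mul (Continuous.continuousOn (by fun_prop)))).mul
      ((contOn_rh (h.wγ ha)).div contOn_sqrt fun _ hx => (sqrt_w_pos hx).ne')
  · exact (hq _).mul (contOn_sqrt.mul ((contOn_eh ha (h.nβ ha)).add h.cp))
  · exact (hq _).mul ((Continuous.continuousOn (by fun_prop)).mul h.cγ)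

lemma abs_ag_le (ha : 17 / 2 ≤ a) (h0 : 0 ≤ L) (h1 : L ≤ 1 / 72)
    (hG : 0 ≤ G) (h : Bd a β p γ z η G) {T : ℝ} (hT : T ∈ Ioo (0 : ℝ) 1) :
    |ag a L β p γ T| ≤ (437 / 1000 * G + 251 / 250 * (z + η)) * (a * (2 * a + 1))
      * (√(1 - T ^ 2) * eb a T) := by
  have ha2 : 2 ≤ a := by linarith
  have hD := De_pos h0 h1 hT
  have hD0 : 0 < De L T := by linarith
  have hw := one_sub_sq_pos hT
  have hw1 := w_le_one (T := T)
  have hs := sqrt_w_pos hT
  have hss : √(1 - T ^ 2) * √(1 - T ^ 2) = 1 - T ^ 2 := mul_self_sqrt hw.le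
  have he := eb_nonneg ha2 (Ioo_subset_Ioc_self hT)
  have b1 := abs_eh_le ha2 h hT
  have b2 := h.bp T hT
  have b3 := abs_rh_le ha hG h hT
  have b4 := h.bγ T hT
  have b5 := gb_le ha2 (Ioo_subset_Ioc_self hT)
  have hn : 0 < 2 * a + 1 := by linarith
  have ha1 : 0 < a - 1 := by linarith
  have haa := aux_aa ha
  have hD1 : 1 / De L T ≤ 72 / 287 := by
    rw [div_le_div_iff₀ hD0 (by norm_num)]
    linarith
  have hD2 : 0 ≤ 1 / De L T := by positivity
  set E := √(1 - T ^ 2) * eb a T with hE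
  have hE0 : 0 ≤ E := by positivity
  -- the first term
  have c1 : |((2 * a - 1) + 2 * L * a / De L T * (1 - T ^ 2)) * (rh a γ T / √(1 - T ^ 2))|
      ≤ 429 / 1000 * G * (a * (2 * a + 1)) * E := by
    have k0 : 0 ≤ (2 * a - 1) + 2 * L * a / De L T * (1 - T ^ 2) := by
      have : 0 ≤ 2 * L * a / De L T * (1 - T ^ 2) := by positivity
      linarith
    rw [abs_mul, abs_of_nonneg k0, abs_div, abs_of_pos hs]
    have k1 : |rh a γ T| / √(1 - T ^ 2) ≤ G * (a * (2 * a + 1)) / (5 * (a - 1)) * E := by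
      rw [div_le_iff₀ hs]
      refine b3.trans (le_of_eq ?_)
      have e : (1 - T ^ 2) * eb a T = E * √(1 - T ^ 2) := by
        rw [hE, mul_right_comm, hss]
      rw [e]
      ring
    have k2 : (2 * a - 1) + 2 * L * a / De L T * (1 - T ^ 2) ≤ (2 * a - 1) + a / 143 := by
      have : 2 * L * a / De L T * (1 - T ^ 2) ≤ a / 143 := by
        have e : 2 * L * a / De L T * (1 - T ^ 2) = (1 / De L T) * (2 * a * (L * (1 - T ^ 2))) := by
          ring
        rw [e]
        have hLw : L * (1 - T ^ 2) ≤ 1 / 72 := by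
          have := mul_le_mul h1 hw1 hw.le (by norm_num)
          linarith
        have hLw0 : 0 ≤ L * (1 - T ^ 2) := mul_nonneg h0 hw.le
        have := mul_le_mul hD1 (mul_le_mul_of_nonneg_left hLw (by linarith : 0 ≤ 2 * a))
          (by positivity) (by norm_num)
        linarith
      linarith
    have k3 : ((2 * a - 1) + a / 143) / (5 * (a - 1)) ≤ 429 / 1000 := by
      rw [div_le_div_iff₀ (by positivity) (by norm_num)]
      linarith
    have hGa : 0 ≤ G * (a * (2 * a + 1)) * E := by positivity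
    calc ((2 * a - 1) + 2 * L * a / De L T * (1 - T ^ 2)) * (|rh a γ T| / √(1 - T ^ 2))
        ≤ ((2 * a - 1) + a / 143) * (G * (a * (2 * a + 1)) / (5 * (a - 1)) * E) :=
          mul_le_mul k2 k1 (by positivity) (by linarith)
      _ = ((2 * a - 1) + a / 143) / (5 * (a - 1)) * (G * (a * (2 * a + 1)) * E) := by ring
      _ ≤ 429 / 1000 * (G * (a * (2 * a + 1)) * E) := mul_le_mul_of_nonneg_right k3 hGa
      _ = _ := by ring
  -- the second term
  have c2 : |4 * a * (2 * a + 1) / De L T * (√(1 - T ^ 2) * (eh a β T + p T))|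
      ≤ 251 / 250 * (z + η) * (a * (2 * a + 1)) * E := by
    rw [abs_mul, abs_mul, abs_of_pos hs, abs_of_nonneg (by positivity :
      0 ≤ 4 * a * (2 * a + 1) / De L T)]
    have k1 : |eh a β T + p T| ≤ (z + η) * eb a T := by
      have := (abs_add_le (eh a β T) (p T)).trans (add_le_add b1 b2)
      linarith
    have hzη : 0 ≤ (z + η) * eb a T := (abs_nonneg _).trans k1
    calc 4 * a * (2 * a + 1) / De L T * (√(1 - T ^ 2) * |eh a β T + p T|)
        ≤ 4 * a * (2 * a + 1) / De L T * (√(1 - T ^ 2) * ((z + η) * eb a T)) := by gcongr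
      _ = (1 / De L T) * (4 * (a * (2 * a + 1)) * (√(1 - T ^ 2) * ((z + η) * eb a T))) := by ring
      _ ≤ 72 / 287 * (4 * (a * (2 * a + 1)) * (√(1 - T ^ 2) * ((z + η) * eb a T))) :=
          mul_le_mul_of_nonneg_right hD1 (by positivity)
      _ = 288 / 287 * ((a * (2 * a + 1)) * (√(1 - T ^ 2) * ((z + η) * eb a T))) := by ring
      _ ≤ 251 / 250 * ((a * (2 * a + 1)) * (√(1 - T ^ 2) * ((z + η) * eb a T))) :=
          mul_le_mul_of_nonneg_right (by norm_num) (by positivity)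
      _ = _ := by rw [hE]; ring
  -- the third term
  have c3 : |L * a / De L T * ((1 + T ^ 2) * γ T)| ≤ 8 / 1000 * G * (a * (2 * a + 1)) * E := by
    have hT2 := aux_T2 hT
    rw [abs_mul, abs_mul, abs_of_nonneg (by positivity : 0 ≤ L * a / De L T),
      abs_of_nonneg (by positivity : (0 : ℝ) ≤ 1 + T ^ 2)]
    have k1 : |γ T| ≤ G * (a * (2 * a + 1)) * (E / (a - 1)) := by
      refine b4.trans (mul_le_mul_of_nonneg_left ?_ (by positivity))
      refine b5.trans ?_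
      refine div_le_div_of_nonneg_right ?_ ha1.le
      rw [hE]
      have : √(1 - T ^ 2) * (1 - T ^ 2) ≤ √(1 - T ^ 2) * 1 :=
        mul_le_mul_of_nonneg_left hw1 hs.le
      have := mul_le_mul_of_nonneg_right this he
      linarith
    calc L * a / De L T * ((1 + T ^ 2) * |γ T|)
        ≤ L * a / De L T * (2 * (G * (a * (2 * a + 1)) * (E / (a - 1)))) := by
          refine mul_le_mul_of_nonneg_left ?_ (by positivity)
          exact mul_le_mul (by linarith) k1 (abs_nonneg _) (by norm_num)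
      _ = (1 / De L T) * ((a / (a - 1)) * (L * (2 * (G * (a * (2 * a + 1)) * E)))) := by ring
      _ ≤ 72 / 287 * (17 / 15 * (1 / 72 * (2 * (G * (a * (2 * a + 1)) * E)))) := by
          gcongr
      _ = 34 / 4305 * (G * (a * (2 * a + 1)) * E) := by ring
      _ ≤ 8 / 1000 * (G * (a * (2 * a + 1)) * E) :=
          mul_le_mul_of_nonneg_right (by norm_num) (by positivity)
      _ = _ := by ring
  unfold ag
  have t1 := abs_sub (((2 * a - 1) + 2 * L * a / De L T * (1 - T ^ 2))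
    * (rh a γ T / √(1 - T ^ 2)) + 4 * a * (2 * a + 1) / De L T
      * (√(1 - T ^ 2) * (eh a β T + p T))) (L * a / De L T * ((1 + T ^ 2) * γ T))
  have t2 := abs_add_le (((2 * a - 1) + 2 * L * a / De L T * (1 - T ^ 2))
    * (rh a γ T / √(1 - T ^ 2))) (4 * a * (2 * a + 1) / De L T
      * (√(1 - T ^ 2) * (eh a β T + p T)))
  linarith

lemma CB_ag (ha : 17 / 2 ≤ a) (h0 : 0 ≤ L) (h1 : L ≤ 1 / 72)
    (hG : 0 ≤ G) (h : Bd a β p γ z η G) : CB (ag a L β p γ) :=
  CB.of_le (contOn_ag (by linarith) h0 h1 h) ((CB.const _).mul (CB_seb (by linarith)))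
    fun _ hx => abs_ag_le ha h0 h1 hG h hx

theorem abs_Kg_le (ha : 17 / 2 ≤ a) (h0 : 0 ≤ L) (h1 : L ≤ 1 / 72)
    (hG : 0 ≤ G) (h : Bd a β p γ z η G) {T : ℝ} (hT : T ∈ Ioo (0 : ℝ) 1) :
    |Kg a L β p γ T| ≤ (437 / 1000 * G + 251 / 250 * (z + η)) * (a * (2 * a + 1)) * gb a T := by
  have ha2 : 2 ≤ a := by linarith
  have b1 := abs_M_le (CB_ag ha h0 h1 hG h) ((CB.const ((437 / 1000 * G + 251 / 250 * (z + η))
    * (a * (2 * a + 1)))).mul (CB_seb ha2)) a (Ioo_subset_Ioc_self hT)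
    fun x hx => abs_ag_le ha h0 h1 hG h hx
  rw [M_const_mul] at b1
  exact b1

end Vale.Agent.P224.R2.H494
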