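import Vale.Agent.P224.R2.H178.BoxO
import Vale.Agent.P224.R2.H579.ELaw

/-!
The small deviation: the first square bounds the deviation by `6 / m` when the defect is at most
`167 / m ^ 3` (abstract part).
-/

namespace Vale.Agent.P224.R2.H494

open MeasureTheory Set Filter Function Real Finset Matrix Vale.Agent.P224.R2.H582
  Vale.Agent.P224.R2.H728

set_option linter.unusedSectionVars false

/-- the algebra of the first pass -/
lemma sd_alg1 {m E γ H u F τ : ℝ} (hm : 400 ≤ m) (hE0 : 0 ≤ E) (hE : E ≤ 9 / 100)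
    (hγ : γ ≤ 474 / 1000) (hu0 : 0 ≤ u) (huh : u ≤ H) (hH : H ≤ 167 / m ^ 3)
    (hτ : τ ≤ 1 / 10 * H)
    (hin : m / ((m + 2) * (m + 4)) * F - E * (2 * (kq m + u / (m + 2))) - τ
      ≤ γ * u + 1 / (3 * m ^ 3)) : F ≤ 27 / 40 / m := by
  have hm0 : 0 < m := by linarith
  have hH0 : 0 ≤ H := hu0.trans huh
  have hk : kq m ≤ 16 / 7 / m ^ 2 := by
    unfold kq
    rw [div_div]
    refine div_le_div_of_nonneg_left (by norm_num) (by positivity) ?_
    nlinarith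
  have hk0 : 0 ≤ kq m := by unfold kq; positivity
  have e1 : E * (2 * (kq m + u / (m + 2))) ≤ 9 / 100 * (2 * (16 / 7 / m ^ 2 + H / m)) := by
    have k1 : u / (m + 2) ≤ H / m := div_le_div₀ hH0 huh hm0 (by linarith)
    have k2 : 0 ≤ u / (m + 2) := by positivity
    exact mul_le_mul hE (by linarith) (by linarith) (by norm_num)
  have e2 : γ * u ≤ 474 / 1000 * H :=
    (mul_le_mul_of_nonneg_right hγ hu0).trans (mul_le_mul_of_nonneg_left huh (by norm_num))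
  have e3 : m / ((m + 2) * (m + 4)) * F
      ≤ 9 / 100 * (2 * (16 / 7 / m ^ 2 + H / m)) + 574 / 1000 * H + 1 / (3 * m ^ 3) := by
    linarith
  by_contra hc
  push Not at hc
  have e4 : m / ((m + 2) * (m + 4)) * (27 / 40 / m) < m / ((m + 2) * (m + 4)) * F :=
    mul_lt_mul_of_pos_left hc (by positivity)
  set s := 1 / m with hs
  have hs0 : 0 < s := by positivity
  have hs1 : s ≤ 1 / 400 := by
    rw [hs]
    exact div_le_div_of_nonneg_left (by norm_num) (by norm_num) hm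
  have g1 : H / m ≤ 167 * s ^ 4 := by
    have : H / m ≤ 167 / m ^ 3 / m := div_le_div_of_nonneg_right hH hm0.le
    refine this.trans (le_of_eq ?_)
    rw [hs]
    field_simp
  have g2 : H ≤ 167 * s ^ 3 := by
    refine hH.trans (le_of_eq ?_)
    rw [hs]
    field_simp
  have g3 : 16 / 7 / m ^ 2 = 16 / 7 * s ^ 2 := by
    rw [hs]
    field_simp
  have g4 : 1 / (3 * m ^ 3) = 1 / 3 * s ^ 3 := by
    rw [hs]
    field_simp
  have g5 : m / ((m + 2) * (m + 4)) * (27 / 40 / m) = 27 / 40 * s ^ 2 / ((1 + 2 * s) * (1 + 4 * s)) := by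
    rw [hs]
    field_simp
  rw [g3, g4] at e3
  rw [g5] at e4
  have e5 : 27 / 40 * s ^ 2 / ((1 + 2 * s) * (1 + 4 * s))
      < 9 / 100 * (2 * (16 / 7 * s ^ 2 + 167 * s ^ 4)) + 574 / 1000 * (167 * s ^ 3)
        + 1 / 3 * s ^ 3 := by linarith
  rw [div_lt_iff₀ (by positivity)] at e5
  have e6 : (1 + 2 * s) * (1 + 4 * s) ≤ 1016 / 1000 := by nlinarith
  have e7 : 9 / 100 * (2 * (16 / 7 * s ^ 2 + 167 * s ^ 4)) + 574 / 1000 * (167 * s ^ 3)
        + 1 / 3 * s ^ 3 = s ^ 2 * (72 / 175 + (95858 / 1000 + 1 / 3) * s + 3006 / 100 * s ^ 2) := by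
    ring
  rw [e7] at e5
  have e8 : 72 / 175 + (95858 / 1000 + 1 / 3) * s + 3006 / 100 * s ^ 2 ≤ 653 / 1000 := by nlinarith
  have e9 : s ^ 2 * (72 / 175 + (95858 / 1000 + 1 / 3) * s + 3006 / 100 * s ^ 2)
      * ((1 + 2 * s) * (1 + 4 * s)) ≤ s ^ 2 * (653 / 1000) * (1016 / 1000) :=
    mul_le_mul (mul_le_mul_of_nonneg_left e8 (sq_nonneg s)) e6 (by positivity) (by positivity)
  have e10 : 0 < s ^ 2 := by positivity
  nlinarith

/-- the algebra of the second pass -/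
lemma sd_alg2 {m E γ H u F τ n X : ℝ} (hm : 400 ≤ m) (hE0 : 0 ≤ E) (hE : E ≤ 9 / 100)
    (hγ : γ ≤ 474 / 1000) (hu0 : 0 ≤ u) (hH0 : 0 ≤ H) (huh : u ≤ 14 / m ^ 2 * H)
    (hH : H ≤ 167 / m ^ 3) (hτ : τ ≤ 1 / 10 * H) (hn : n ≤ 1 / 10) (hX : X ≤ 1 / 100 * H)
    (hX0 : 0 ≤ X) (hn0 : 0 ≤ n)
    (hin : m / ((m + 2) * (m + 4)) * F - E * (2 * (kq m * H + u / (m + 2)) + 2 * n * H + X) - τ
      ≤ γ * u + 1 / (3 * m ^ 3)) : F ≤ (6 / m) ^ 2 := by
  have hm0 : 0 < m := by linarith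
  have hk : kq m ≤ 1 / 10000 := by
    unfold kq
    rw [div_le_iff₀ (by positivity)]
    nlinarith
  have hk0 : 0 ≤ kq m := by unfold kq; positivity
  set s := 1 / m with hs
  have hs0 : 0 < s := by positivity
  have hs1 : s ≤ 1 / 400 := by
    rw [hs]
    exact div_le_div_of_nonneg_left (by norm_num) (by norm_num) hm
  have g0 : 14 / m ^ 2 = 14 * s ^ 2 := by
    rw [hs]
    field_simp
  rw [g0] at huh
  have g6 : 14 * s ^ 2 ≤ 1 / 10000 := by nlinarith
  have hu1 : u ≤ 1 / 10000 * H := huh.trans (mul_le_mul_of_nonneg_right g6 hH0)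
  have k1 : u / (m + 2) ≤ u := by
    refine div_le_self hu0 ?_
    linarith
  have k2 : kq m * H ≤ 1 / 10000 * H := mul_le_mul_of_nonneg_right hk hH0
  have k3 : 0 ≤ u / (m + 2) := by positivity
  have k4 : 0 ≤ kq m * H := mul_nonneg hk0 hH0
  have k5 : n * H ≤ 1 / 10 * H := mul_le_mul_of_nonneg_right hn hH0
  have k6 : 0 ≤ n * H := mul_nonneg hn0 hH0
  have e1 : E * (2 * (kq m * H + u / (m + 2)) + 2 * n * H + X)
      ≤ 9 / 100 * (2 * (1 / 10000 * H + 1 / 10000 * H) + 2 * (1 / 10 * H) + 1 / 100 * H) := by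
    refine mul_le_mul hE (by linarith) (by linarith) (by norm_num)
  have e2 : γ * u ≤ 474 / 1000 * (1 / 10000 * H) :=
    (mul_le_mul_of_nonneg_right hγ hu0).trans (mul_le_mul_of_nonneg_left hu1 (by norm_num))
  have e3 : m / ((m + 2) * (m + 4)) * F ≤ 12 / 100 * H + 1 / (3 * m ^ 3) := by
    linarith
  have g2 : H ≤ 167 * s ^ 3 := by
    refine hH.trans (le_of_eq ?_)
    rw [hs]
    field_simp
  have g4 : 1 / (3 * m ^ 3) = 1 / 3 * s ^ 3 := by
    rw [hs]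
    field_simp
  have g5 : m / ((m + 2) * (m + 4)) = s / ((1 + 2 * s) * (1 + 4 * s)) := by
    rw [hs]
    field_simp
  rw [g4, g5] at e3
  have e4 : s / ((1 + 2 * s) * (1 + 4 * s)) * F ≤ 21 * s ^ 3 := by
    have : 0 ≤ s ^ 3 := by positivity
    linarith
  have e5 : (1 + 2 * s) * (1 + 4 * s) ≤ 1016 / 1000 := by nlinarith
  have e6 : s * F ≤ 21 * s ^ 3 * ((1 + 2 * s) * (1 + 4 * s)) := by
    rw [div_mul_eq_mul_div, div_le_iff₀ (by positivity)] at e4
    exact e4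
  have e7 : 21 * s ^ 3 * ((1 + 2 * s) * (1 + 4 * s)) ≤ 21 * s ^ 3 * (1016 / 1000) :=
    mul_le_mul_of_nonneg_left e5 (by positivity)
  have e8 : s * F ≤ s * (36 * s ^ 2) := by
    have : 0 ≤ s ^ 3 := by positivity
    nlinarith
  have e9 : F ≤ 36 * s ^ 2 := le_of_mul_le_mul_left e8 hs0
  refine e9.trans (le_of_eq ?_)
  rw [hs]
  field_simp
  norm_num

end Vale.Agent.P224.R2.H494
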