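import Vale.Agent.P224.R2.H494.SD1

/-!
The small deviation in terms of the moments.
-/

namespace Vale.Agent.P224.R2.H494

open MeasureTheory Set Filter Function Real Finset Matrix Vale.Agent.P224.R2.H582
  Vale.Agent.P224.R2.H728 Vale.Agent.P224.R2.H579 Vale.Agent.P224.R2.H178

set_option linter.unusedSectionVars false

/-- the numbers of the mean normal law after the first pass -/
lemma sd_num {m : ℝ} (hm : 400 ≤ m) :
    ∃ δ ρ : ℝ, 0 ≤ δ ∧ δ ≤ 411 / 10000 ∧ δ ^ 2 = 27 / 40 / m ∧ 44 / 10 ≤ ρ ∧ ρ ^ 2 = m / 20 ∧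
      (m + 2) * ((δ + 167 / m ^ 3) / (1 - δ)) ≤ m / 20 - 1 := by
  have hm0 : 0 < m := by linarith
  have hs : 1 / m ≤ 1 / 400 := div_le_div_of_nonneg_left (by norm_num) (by norm_num) hm
  have h1 : √(27 / 40 / m) ^ 2 = 27 / 40 / m := Real.sq_sqrt (by positivity)
  have h2 : √(m / 20) ^ 2 = m / 20 := Real.sq_sqrt (by positivity)
  have h3 : √(27 / 40 / m) ≤ 411 / 10000 := by
    rw [Real.sqrt_le_left (by norm_num)]
    have : 27 / 40 / m = 27 / 40 * (1 / m) := by ring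
    rw [this]
    linarith
  have h4 : 44 / 10 ≤ √(m / 20) := by
    apply Real.le_sqrt_of_sq_le
    linarith
  refine ⟨√(27 / 40 / m), √(m / 20), Real.sqrt_nonneg _, h3, h1, h4, h2, ?_⟩
  have h5 : 167 / m ^ 3 ≤ 3 / 10 ^ 6 := by
    rw [div_le_iff₀ (by positivity)]
    have : (400 : ℝ) ^ 3 ≤ m ^ 3 := pow_le_pow_left₀ (by norm_num) hm 3
    linarith
  have h6 : (√(27 / 40 / m) + 167 / m ^ 3) / (1 - √(27 / 40 / m))
      ≤ (411 / 10000 + 3 / 10 ^ 6) / (1 - 411 / 10000) := by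
    have h7 : 0 ≤ √(27 / 40 / m) := Real.sqrt_nonneg _
    exact div_le_div₀ (by norm_num) (by linarith) (by norm_num) (by linarith)
  have h8 := mul_le_mul_of_nonneg_left h6 (by linarith : 0 ≤ m + 2)
  refine h8.trans ?_
  have h9 : (411 / 10000 + 3 / 10 ^ 6 : ℝ) / (1 - 411 / 10000) ≤ 4287 / 100000 := by norm_num
  have h10 := mul_le_mul_of_nonneg_left h9 (by linarith : 0 ≤ m + 2)
  refine h10.trans ?_
  linarith

/-- the constants of the box -/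
lemma sd_b0 {m : ℝ} (hm : 400 ≤ m) : 0 ≤ 167 / m ^ 3 ∧ 167 / m ^ 3 ≤ 3 / 10 ^ 6 ∧
    m * (167 / m ^ 3) ≤ 12 / 10 ^ 4 := by
  have hm0 : 0 < m := by linarith
  refine ⟨by positivity, ?_, ?_⟩
  · rw [div_le_iff₀ (by positivity)]
    have : (400 : ℝ) ^ 3 ≤ m ^ 3 := pow_le_pow_left₀ (by norm_num) hm 3
    linarith
  · have e : m * (167 / m ^ 3) = 167 / m ^ 2 := by
      field_simp
    rw [e, div_le_iff₀ (by positivity)]
    have : (400 : ℝ) ^ 2 ≤ m ^ 2 := pow_le_pow_left₀ (by norm_num) hm 2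
    linarith

/-- the constant of the mean normal law -/
lemma sd_b1 {m ρ : ℝ} (hm : 400 ≤ m) (a4 : 44 / 10 ≤ ρ) (a5 : ρ ^ 2 = m / 20) :
    0 ≤ (1 + ρ) / (98 / 100) ∧ ((1 + ρ) / (98 / 100)) ^ 2 ≤ 8 / 100 * m ∧
      (1 + ρ) / (98 / 100) * ρ ≤ 64 / 1000 * m ∧ (1 + ρ) / (98 / 100) ≤ 146 / 10000 * m ∧
      ρ ≤ m / 88 := by
  have hρ0 : 0 < ρ := by linarith
  have hρρ : ρ * (44 / 10) ≤ m / 20 := by
    rw [← a5, pow_two]
    exact mul_le_mul_of_nonneg_left a4 hρ0.le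
  have k0 : 0 ≤ (1 + ρ) / (98 / 100) := by positivity
  have hKρ : (1 + ρ) / (98 / 100) * ρ ≤ 64 / 1000 * m := by
    have e : (1 + ρ) / (98 / 100) * ρ = (ρ + ρ ^ 2) / (98 / 100) := by ring
    rw [e, div_le_iff₀ (by norm_num), a5]
    linarith
  refine ⟨k0, ?_, hKρ, ?_, by linarith⟩
  · rw [div_pow, div_le_iff₀ (by norm_num)]
    have e : (1 + ρ) ^ 2 = 1 + 2 * ρ + ρ ^ 2 := by ring
    rw [e, a5]
    linarith
  · have := mul_le_mul_of_nonneg_left a4 k0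
    linarith

/-- the factor of the contraction term -/
lemma sd_b2 {m ρ : ℝ} (hm : 400 ≤ m) (hρ0 : 0 ≤ ρ) (hρm : ρ ≤ m / 88) :
    0 ≤ 8 / (m * (m + 1)) ∧ 8 / (m * (m + 1)) * (m * m) ≤ 8 ∧ 8 / (m * (m + 1)) * m ≤ 1 / 50 ∧
      8 / (m * (m + 1)) * (ρ * (m / 20)) ≤ 1 / 100 ∧ 8 / (m * (m + 1)) * (m / 20) ≤ 1 / 1000 ∧
      8 / (m * (m + 1)) * ρ ≤ 1 / 1000 := by
  have hm0 : 0 < m := by linarith
  have hG0 : 0 ≤ 8 / (m * (m + 1)) := by positivity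
  have h1 : 8 / (m * (m + 1)) * (m * m) ≤ 8 := by
    rw [div_mul_eq_mul_div, div_le_iff₀ (by positivity)]
    nlinarith
  have h2 : 8 / (m * (m + 1)) * m ≤ 1 / 50 := by
    have e : 8 / (m * (m + 1)) * m * 400 ≤ 8 / (m * (m + 1)) * m * m :=
      mul_le_mul_of_nonneg_left hm (by positivity)
    linarith
  refine ⟨hG0, h1, h2, ?_, by linarith, ?_⟩
  · have k1 : ρ * (m / 20) ≤ m / 88 * (m / 20) := mul_le_mul_of_nonneg_right hρm (by positivity)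
    have k2 := mul_le_mul_of_nonneg_left k1 hG0
    linarith
  · have k1 := mul_le_mul_of_nonneg_left hρm hG0
    linarith

/-- the condition of the box -/
lemma sd_b3 {m ρ k : ℝ} (hm : 400 ≤ m) (a4 : 44 / 10 ≤ ρ) (a5 : ρ ^ 2 = m / 20) (hk0 : 0 ≤ k)
    (hk : k ≤ 1 / 10000) {η Ke : ℝ} (hη : η = 167 / m ^ 3) (hKe : Ke = (1 + ρ) / (98 / 100)) :
    (2 * η + 8 / (m * (m + 1)) * (Ke * η) * (ρ * (m / 20))) * (1 / 10)
      + (2 * (k * η + (Ke * η) ^ 2 / (m + 2))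
        + 8 / (m * (m + 1)) * (Ke * η) * (2 * (m / 20) * (1 / 100 + (Ke * η) / (m + 2)) + ρ * η))
      ≤ (m + 2) * (1 / 10) ^ 2 := by
  have hm0 : 0 < m := by linarith
  obtain ⟨b1, b2, b3⟩ := sd_b0 hm
  obtain ⟨c1, c2, c3, c4, c5⟩ := sd_b1 hm a4 a5
  obtain ⟨d1, d2, d3, d4, d5, d6⟩ := sd_b2 hm (by linarith) c5
  rw [← hη] at b1 b2 b3
  rw [← hKe] at c1 c2 c3 c4
  set G := 8 / (m * (m + 1)) with hG
  have ha0 : 0 ≤ Ke * η := mul_nonneg c1 b1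
  have ha : Ke * η ≤ 2 / 10 ^ 5 := by
    have := mul_le_mul_of_nonneg_right c4 b1
    linarith
  have ham : Ke * η / (m + 2) ≤ Ke * η := div_le_self ha0 (by linarith)
  have ham0 : 0 ≤ Ke * η / (m + 2) := by positivity
  have p1 : G * (Ke * η) * (ρ * (m / 20)) ≤ 1 / 100 * (2 / 10 ^ 5) := by
    have e : G * (Ke * η) * (ρ * (m / 20)) = G * (ρ * (m / 20)) * (Ke * η) := by ring
    rw [e]
    exact mul_le_mul d4 ha ha0 (by norm_num)
  have p2 : k * η ≤ 1 / 10000 * (3 / 10 ^ 6) := mul_le_mul hk b2 b1 (by norm_num)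
  have p3 : (Ke * η) ^ 2 / (m + 2) ≤ (2 / 10 ^ 5) ^ 2 := by
    refine (div_le_self (by positivity) (by linarith)).trans ?_
    exact pow_le_pow_left₀ ha0 ha 2
  have p4 : G * (Ke * η) * (2 * (m / 20) * (1 / 100 + Ke * η / (m + 2)) + ρ * η)
      ≤ 1 / 1000 * (2 / 10 ^ 5) * (2 * (1 / 100 + 2 / 10 ^ 5))
        + 1 / 1000 * (2 / 10 ^ 5) * (3 / 10 ^ 6) := by
    have e : G * (Ke * η) * (2 * (m / 20) * (1 / 100 + Ke * η / (m + 2)) + ρ * η)
        = G * (m / 20) * (Ke * η) * (2 * (1 / 100 + Ke * η / (m + 2)))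
          + G * ρ * (Ke * η) * η := by ring
    rw [e]
    have r1 : G * (m / 20) * (Ke * η) ≤ 1 / 1000 * (2 / 10 ^ 5) :=
      mul_le_mul d5 ha ha0 (by norm_num)
    have r2 : G * ρ * (Ke * η) ≤ 1 / 1000 * (2 / 10 ^ 5) :=
      mul_le_mul d6 ha ha0 (by norm_num)
    exact add_le_add (mul_le_mul r1 (by linarith) (by linarith) (by norm_num))
      (mul_le_mul r2 b2 b1 (by norm_num))
  norm_num at p1 p2 p3 p4
  linarith

/-- the contraction term in the box -/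
lemma sd_b4 {m ρ : ℝ} (hm : 400 ≤ m) (a4 : 44 / 10 ≤ ρ) (a5 : ρ ^ 2 = m / 20)
    {η Ke : ℝ} (hη : η = 167 / m ^ 3) (hKe : Ke = (1 + ρ) / (98 / 100)) :
    Cx m ρ (m / 20) (1 / 10) (1 / 100) (Ke * η) η * Ke ≤ 1 / 100 := by
  have hm0 : 0 < m := by linarith
  obtain ⟨b1, b2, b3⟩ := sd_b0 hm
  obtain ⟨c1, c2, c3, c4, c5⟩ := sd_b1 hm a4 a5
  obtain ⟨d1, d2, d3, d4, d5, d6⟩ := sd_b2 hm (by linarith) c5
  rw [← hη] at b1 b2 b3
  rw [← hKe] at c1 c2 c3 c4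
  unfold Cx
  set G := 8 / (m * (m + 1)) with hG
  have ha0 : 0 ≤ Ke * η := mul_nonneg c1 b1
  have ha : Ke * η ≤ 2 / 10 ^ 5 := by
    have := mul_le_mul_of_nonneg_right c4 b1
    linarith
  have ham : Ke * η / (m + 2) ≤ Ke * η := div_le_self ha0 (by linarith)
  have ham0 : 0 ≤ Ke * η / (m + 2) := by positivity
  have e : G * (ρ * (m / 20) * (1 / 10) + 2 * (m / 20) * (1 / 100 + Ke * η / (m + 2)) + ρ * η)
      * Ke = G * (Ke * ρ * (m / 200)) + G * (Ke * (m / 10)) * (1 / 100 + Ke * η / (m + 2))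
        + G * (Ke * ρ) * η := by ring
  rw [e]
  have r1 : G * (Ke * ρ * (m / 200)) ≤ 8 * (64 / 1000 / 200) := by
    have k1 : Ke * ρ * (m / 200) ≤ 64 / 1000 * m * (m / 200) :=
      mul_le_mul_of_nonneg_right c3 (by positivity)
    have k2 := mul_le_mul_of_nonneg_left k1 d1
    linarith
  have r2 : G * (Ke * (m / 10)) ≤ 8 * (146 / 10000 / 10) := by
    have k1 : Ke * (m / 10) ≤ 146 / 10000 * m * (m / 10) :=
      mul_le_mul_of_nonneg_right c4 (by positivity)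
    have k2 := mul_le_mul_of_nonneg_left k1 d1
    linarith
  have r3 : G * (Ke * (m / 10)) * (1 / 100 + Ke * η / (m + 2))
      ≤ 8 * (146 / 10000 / 10) * (1 / 100 + 2 / 10 ^ 5) :=
    mul_le_mul r2 (by linarith) (by linarith) (by norm_num)
  have r4 : G * (Ke * ρ) ≤ 1 / 50 * (64 / 1000) := by
    have k2 := mul_le_mul_of_nonneg_left c3 d1
    linarith
  have r5 : G * (Ke * ρ) * η ≤ 1 / 50 * (64 / 1000) * (3 / 10 ^ 6) :=
    mul_le_mul r4 b2 b1 (by norm_num)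
  norm_num at r1 r3 r5
  linarith

/-- the mean normal in the box -/
lemma sd_b5 {m ρ : ℝ} (hm : 400 ≤ m) (a4 : 44 / 10 ≤ ρ) (a5 : ρ ^ 2 = m / 20)
    {η Ke : ℝ} (hη : η = 167 / m ^ 3) (hKe : Ke = (1 + ρ) / (98 / 100)) :
    Ke ^ 2 * η ≤ 14 / m ^ 2 := by
  have hm0 : 0 < m := by linarith
  obtain ⟨b1, b2, b3⟩ := sd_b0 hm
  obtain ⟨c1, c2, c3, c4, c5⟩ := sd_b1 hm a4 a5
  rw [← hη] at b1
  rw [← hKe] at c2
  refine (mul_le_mul_of_nonneg_right c2 b1).trans ?_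
  have e : 8 / 100 * m * η = 1336 / 100 / m ^ 2 := by
    rw [hη]
    field_simp
    norm_num
  rw [e]
  exact div_le_div_of_nonneg_right (by norm_num) (by positivity)

section

variable {ι Ω : Type*} [Fintype ι] [DecidableEq ι] [MeasurableSpace Ω] {μ : Measure Ω}
  {m : ℝ} {x N : ι → Ω → ℝ} {j : ι → ℝ}

/-- the mean normal after the first pass -/
theorem sd_el (h : T0Data μ m x N) (hm : 400 ≤ m) (hL : LSq μ (diagonal j) x N) {δ ρ : ℝ}
    (hδ : 0 ≤ δ) (hδU : δ ≤ 411 / 10000) (hδ2 : δ ^ 2 = 27 / 40 / m) (hρ : 44 / 10 ≤ ρ)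
    (hρ2 : ρ ^ 2 = m / 20) (hw : (m + 2) * ((δ + 167 / m ^ 3) / (1 - δ)) ≤ m / 20 - 1)
    (hf : fro (De μ x N) ≤ 27 / 40 / m) (hH : hh μ (diagonal j) x N ≤ 167 / m ^ 3) :
    √(uu μ N) ≤ (1 + ρ) / (98 / 100) * hh μ (diagonal j) x N ∧ (∀ a, |j a| ≤ ρ) ∧
      ∑ b, (j b ^ 2 - 1) ^ 2 ≤ (m / 20) ^ 2 := by
  have hm0 : 0 < m := by linarith
  have hf' : fro (De μ x N) ≤ δ ^ 2 := hf.trans hδ2.ge
  have hδ1 : δ < 1 := by linarith
  have h1δ : 0 < 1 - δ := by linarith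
  have hH0 : 0 ≤ hh μ (diagonal j) x N := h.hh_nonneg _
  set η := 167 / m ^ 3 with hηd
  have hη0 : 0 ≤ η := by positivity
  have hη : η ≤ 3 / 10 ^ 6 := by
    rw [hηd, div_le_iff₀ (by positivity)]
    have : (400 : ℝ) ^ 3 ≤ m ^ 3 := pow_le_pow_left₀ (by norm_num) hm 3
    linarith
  have hρ0 : 0 < ρ := by linarith
  -- the norm of the weights
  have w1 := h.w_fro hm0.le hL hδ hδ1 hf'
  have w2 : (m + 2) * ((δ + hh μ (diagonal j) x N) / (1 - δ)) ≤ m / 20 := by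
    have k1 : (δ + hh μ (diagonal j) x N) / (1 - δ) ≤ (δ + η) / (1 - δ) :=
      div_le_div_of_nonneg_right (by linarith) h1δ.le
    have k2 := mul_le_mul_of_nonneg_left k1 (by linarith : 0 ≤ m + 2)
    linarith
  have w3 : 0 ≤ (m + 2) * ((δ + hh μ (diagonal j) x N) / (1 - δ)) := by positivity
  have hω : ∑ b, (j b ^ 2 - 1) ^ 2 ≤ (m / 20) ^ 2 := w1.trans (pow_le_pow_left₀ w3 w2 2)
  -- the weights
  have hρ3 : 1 + (m + 2) * (δ / (1 - δ)) ≤ ρ ^ 2 := by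
    have k1 : δ / (1 - δ) ≤ (δ + η) / (1 - δ) :=
      div_le_div_of_nonneg_right (by linarith) h1δ.le
    have k2 := mul_le_mul_of_nonneg_left k1 (by linarith : 0 ≤ m + 2)
    rw [hρ2]
    linarith
  have hj := abs_j_le h hm0.le hL hδ hδ1 hf' hρ0.le hρ3
  have hρm : ρ ^ 2 + 2 * ρ ≤ (m + 2) / 2 := by
    have k1 : ρ * (44 / 10) ≤ ρ * ρ := mul_le_mul_of_nonneg_left hρ hρ0.le
    nlinarith
  -- the trace
  set T := 83 / 100 / (m + 1) with hTd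
  have hT0 : 0 ≤ T := by positivity
  have hmT : (m + 1) * T = 83 / 100 := by
    rw [hTd]
    field_simp
  have hT : |∑ b, j b| ≤ (m + 1) * T := by
    refine tr_le h hm0 hL hδ hf' (by positivity : 0 ≤ m / 20) hω hT0 ?_
    rw [hmT, hδ2]
    have e : 27 / 40 / m * (m + 2 + δ * (m / 20)) = 27 / 40 * (1 + 2 * (1 / m) + δ / 20) := by
      field_simp
    rw [e]
    have hs : 1 / m ≤ 1 / 400 := div_le_div_of_nonneg_left (by norm_num) (by norm_num) hm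
    linarith
  -- the loss
  have hE : Ew δ η ≤ 18 / 10000 := by
    unfold Ew
    have k1 : δ + η ≤ 411 / 10000 + 3 / 10 ^ 6 := by linarith
    have k2 : (δ + η) ^ 2 ≤ (411 / 10000 + 3 / 10 ^ 6) ^ 2 := pow_le_pow_left₀ (by linarith) k1 2
    have k3 : η * (δ + η) ≤ 3 / 10 ^ 6 * (411 / 10000 + 3 / 10 ^ 6) :=
      mul_le_mul hη k1 (by linarith) (by norm_num)
    have k4 : ((δ + η) ^ 2 + η * (δ + η)) / (1 - δ)
        ≤ ((411 / 10000 + 3 / 10 ^ 6) ^ 2 + 3 / 10 ^ 6 * (411 / 10000 + 3 / 10 ^ 6))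
          / (1 - 411 / 10000) :=
      div_le_div₀ (by norm_num) (by linarith) (by norm_num) (by linarith)
    have k5 : ((411 / 10000 + 3 / 10 ^ 6) ^ 2 + 3 / 10 ^ 6 * (411 / 10000 + 3 / 10 ^ 6))
          / (1 - 411 / 10000) ≤ (177 / 100000 : ℝ) := by norm_num
    linarith
  have hE0 : 0 ≤ Ew δ η := Ew_nonneg hδ hδ1 hη0
  have hm1 : 0 < m + 1 := by linarith
  have hm1' : m + 1 ≠ 0 := hm1.ne'
  have q1 : (m - 4) / ((m + 1) * (m + 4)) ≤ 1 / (m + 1) := by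
    rw [div_le_div_iff₀ (by positivity) hm1]
    nlinarith
  have q2 : 1 / (m + 1) ≤ 1 / 401 :=
    div_le_div_of_nonneg_left (by norm_num) (by norm_num) (by linarith)
  have q3 : m / (m + 1) = 1 - 1 / (m + 1) := by
    field_simp
    ring
  have q4 : T = 83 / 100 * (1 / (m + 1)) := by
    rw [hTd]
    ring
  have q5 : (m + 2) / (m + 1) = 1 + 1 / (m + 1) := by
    field_simp
    ring
  have q6 : 0 < 1 / (m + 1) := by positivity
  have q7 : 98 / 100 / (m + 1) ≤ (m - 4) / ((m + 1) * (m + 4)) := by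
    rw [div_le_div_iff₀ hm1 (by positivity)]
    have : 98 / 100 * (m + 4) ≤ m - 4 := by linarith
    nlinarith
  have hc : T / 2 + 4 * Ew δ η / (m + 1) ≤ (m - 4) / ((m + 1) * (m + 4)) := by
    refine le_trans ?_ q7
    have e : T / 2 + 4 * Ew δ η / (m + 1) = (83 / 200 + 4 * Ew δ η) / (m + 1) := by
      rw [hTd]
      field_simp
      ring
    rw [e]
    exact div_le_div_of_nonneg_right (by linarith) hm1.le
  have q8 : 2 * Ew δ η * (m + 2) / (m + 1) ≤ 2 * (18 / 10000) * (1 + 1 / 401) := by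
    have e : 2 * Ew δ η * (m + 2) / (m + 1) = 2 * Ew δ η * ((m + 2) / (m + 1)) := by ring
    rw [e, q5]
    exact mul_le_mul (by linarith) (by linarith) (by linarith) (by norm_num)
  have hL98 : 98 / 100 ≤ m / (m + 1) - (m - 4) / ((m + 1) * (m + 4)) - T / 2
      - 2 * Ew δ η * (m + 2) / (m + 1) := by
    rw [q3]
    linarith
  have key := e_law_closed h hm0 hL hδ hδ1 hf' hH hρ0 hρ3 hρm hT hc (by linarith)
  refine ⟨?_, hj, hω⟩
  have hsu : 0 ≤ √(∑ a, m1 μ N a ^ 2) := Real.sqrt_nonneg _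
  have k1 := mul_le_mul_of_nonneg_right hL98 hsu
  have e : (1 + ρ) / (98 / 100) * hh μ (diagonal j) x N
      = (1 + ρ) * hh μ (diagonal j) x N / (98 / 100) := by ring
  rw [e, le_div_iff₀ (by norm_num)]
  have e2 : uu μ N = ∑ a, m1 μ N a ^ 2 := rfl
  rw [e2]
  linarith

/-- **The small deviation.** -/
theorem small_abs (h : T0Data μ m x N) (hm : 400 ≤ m) (hL : LSq μ (diagonal j) x N) {E γ τ : ℝ}
    (hE0 : 0 ≤ E) (hE : E ≤ 9 / 100) (hγ : γ ≤ 474 / 1000)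
    (huh : uu μ N ≤ hh μ (diagonal j) x N) (hH : hh μ (diagonal j) x N ≤ 167 / m ^ 3)
    (hτ : τ ≤ 1 / 10 * hh μ (diagonal j) x N)
    (hin : m / ((m + 2) * (m + 4)) * Qcs μ x N + E * Qcss μ m x N - τ
      ≤ γ * uu μ N + 1 / (3 * m ^ 3)) :
    √(fro (De μ x N)) ≤ 6 / m := by
  have hm0 : 0 < m := by linarith only [hm]
  have hQ0 := h.Qpt_nonneg hm0.le
  have hQe := h.Qcs_eq hm0.le
  have hW : 0 ≤ m / ((m + 2) * (m + 4)) := by positivity
  have hWF : m / ((m + 2) * (m + 4)) * fro (De μ x N) ≤ m / ((m + 2) * (m + 4)) * Qcs μ x N :=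
    mul_le_mul_of_nonneg_left (by linarith only [hQ0, hQe]) hW
  -- first pass
  have hf : fro (De μ x N) ≤ 27 / 40 / m := by
    have k1 := mul_le_mul_of_nonneg_left (h.Qcss_ge_free hm0.le) hE0
    refine sd_alg1 hm hE0 hE hγ h.uu_nonneg huh hH hτ ?_
    linarith only [k1, hin, hWF]
  obtain ⟨δ, ρ, a1, a2, a3, a4, a5, a6⟩ := sd_num hm
  obtain ⟨hu, hj, hω⟩ := sd_el h hm hL a1 a2 a3 a4 a5 a6 hf hH
  -- second pass
  obtain ⟨b1, b2, b3⟩ := sd_b0 hm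
  obtain ⟨c1, c2, c3, c4, c5⟩ := sd_b1 hm a4 a5
  have hρ0 : 0 ≤ ρ := by linarith only [a4]
  have hk : kq m ≤ 1 / 10000 := by
    unfold kq
    rw [div_le_iff₀ (by positivity)]
    nlinarith only [hm]
  have hk0 : 0 ≤ kq m := kq_nonneg hm0.le
  have hH0 : 0 ≤ hh μ (diagonal j) x N := h.hh_nonneg _
  have hkη : kq m * (167 / m ^ 3) ≤ (1 / 100) ^ 2 := by
    have := mul_le_mul hk b2 b1 (by norm_num)
    norm_num at this
    linarith only [this]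
  obtain ⟨f1, f2, f3, -, -, -⟩ := box_facts h (by linarith only [hm] : 17 ≤ m) hρ0
    (by positivity : 0 ≤ m / 20) hj hω (by norm_num : (0 : ℝ) ≤ 1 / 100) hkη
    (by norm_num : (0 : ℝ) < 1 / 10) c1 (sd_b3 hm a4 a5 hk0 hk rfl rfl) hH hu
  have huu := f1.trans (mul_le_mul_of_nonneg_right (sd_b5 hm a4 a5 rfl rfl) hH0)
  have hX := f3.trans (mul_le_mul_of_nonneg_right (sd_b4 hm a4 a5 rfl rfl) hH0)
  have hX0 : 0 ≤ 4 / (m + 1) * |∑ b, m1 μ N b * xi μ j x b| := by positivity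
  rw [Real.sqrt_le_left (by positivity)]
  have k1 := mul_le_mul_of_nonneg_left (h.Qcss_ge hm0.le j) hE0
  refine sd_alg2 hm hE0 hE hγ h.uu_nonneg hH0 huu hH hτ f2 hX hX0 (Real.sqrt_nonneg _) ?_
  linarith only [k1, hin, hWF]

end

end Vale.Agent.P224.R2.H494
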