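import Vale.Agent.P224.R2.H494.OFin
import Vale.Agent.P224.R2.H460.Wgt
import Vale.Agent.P224.R2.H460.Be0

/-!
The level conditions of the uniform odd law: `m ≥ 400`, `T ≤ 2/25`.
-/

namespace Vale.Agent.P224.R2.H494.OC

open MeasureTheory Set Filter Function Real Vale.Agent.P224.SM2 Vale.Agent.P224.R2.H925
  Vale.Agent.P224.R2.H627 Vale.Agent.P224.R2.H820 Vale.Agent.P224.R2.H424
  Vale.Agent.P224.R2.H494.ZT Vale.Agent.P224.R2.H355 Vale.Agent.P224.R2.H742
open scoped Topology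

section

variable {m : ℕ} (hm : 400 ≤ m) {T : ℝ} (hT : T ∈ Ioo (0 : ℝ) (2 / 25))

include hm hT

/-- upper bound of the one point weight -/
lemma c_le : T * yM m T + m * rM m T ≤ 7 / 10 * H460.cw m T := by
  have hT1 : T ∈ Ioo (0 : ℝ) 1 := ⟨hT.1, hT.2.trans (by norm_num)⟩
  have hk : 0 < 1 - T ^ 2 := by nlinarith [hT1.1, hT1.2]
  have hmR : (400 : ℝ) ≤ m := by exact_mod_cast hm
  have h2 : 0 < √(2 : ℝ) := by positivity
  have h2l : (1414 / 1000 : ℝ) ≤ √2 := by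
    rw [Real.le_sqrt' (by norm_num)]
    norm_num
  have hn := nrm_cn (m := m) (by omega)
  have ha : (17 : ℝ) / 2 ≤ (m : ℝ) / 2 := by linarith
  have ht := inv_bds ha
  have hb := bds2_M (m := m) (by omega) hT1
  have hW := (sh_Wp ha hn T ⟨hT1.1.le, hT1.2⟩).trans
    (evR_Wp_le ht.1.le ht.2 (hv_pos hT1).le (hv_lt_one hT1).le)
  have hR := sh_R_le ha hn hT1
  obtain ⟨hs, -, -⟩ := H460.s_bds hb hT.2.le
  have hs0 := sv_pos hT1
  have hJ : J1 (sv T) ≤ 2 / 3 := by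
    unfold J1
    have : sv T ^ 3 ≤ sv T := by
      have := pow_le_pow_of_le_one hs0.le (by linarith : sv T ≤ 1) (show 1 ≤ 3 by norm_num)
      simpa using this
    linarith
  have hy := hy_M (m := m) T
  have hr := hr_M (m := m) T
  set K : ℝ := (1 - T ^ 2) ^ ((m : ℝ) / 2 - 1) with hK
  have hK0 : 0 < K := rpow_pos_of_pos hk _
  have hcw : H460.cw m T = K * (1 - T ^ 2) := by
    unfold H460.cw
    rw [hK, ← rpow_add_one hk.ne']
    ring_nf
  have e1 : √2 * (T * yM m T + m * rM m T)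
      = K * (sv T * Wf ((m : ℝ) / 2) (cn m) T + √2 * Rf ((m : ℝ) / 2) (cn m) T) := by
    rw [mul_add, hy, hr]
    ring
  have e2 : sv T * Wf ((m : ℝ) / 2) (cn m) T + √2 * Rf ((m : ℝ) / 2) (cn m) T ≤ 95 / 100 := by
    have : sv T * Wf ((m : ℝ) / 2) (cn m) T ≤ sv T * (10 / 9) :=
      mul_le_mul_of_nonneg_left hW hs0.le
    linarith
  have hT2 : T ^ 2 ≤ 4 / 625 := by nlinarith [hT.1, hT.2]
  refine le_of_mul_le_mul_left ?_ h2
  rw [e1, hcw]
  have e3 : K * (sv T * Wf ((m : ℝ) / 2) (cn m) T + √2 * Rf ((m : ℝ) / 2) (cn m) T)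
      ≤ K * (95 / 100) := mul_le_mul_of_nonneg_left e2 hK0.le
  have e4 : 95 / 100 ≤ √2 * (7 / 10 * (1 - T ^ 2)) := by
    have h5 : 7 / 10 * (1 - 4 / 625) ≤ 7 / 10 * (1 - T ^ 2) := by linarith
    calc (95 / 100 : ℝ) ≤ 1414 / 1000 * (7 / 10 * (1 - 4 / 625)) := by norm_num
      _ ≤ √2 * (7 / 10 * (1 - T ^ 2)) := mul_le_mul h2l h5 (by norm_num) h2.le
  have e5 := mul_le_mul_of_nonneg_left e4 hK0.le
  refine e3.trans (e5.trans (le_of_eq ?_))
  ring

omit hT in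
/-- the numerical inequality -/
lemma so3_num (hT0 : 0 ≤ T) (hT1 : T ≤ 2 / 25) {X : ℝ}
    (hX : X ≤ 14 / (m : ℝ) ^ 2 + T * (21 / 4 + 21 / m)) :
    m * H460.wq (469 / 1000) (201 / 200) (181 / 50) T
      ≤ (1 - 9 / (5 * m)) * (m * H460.wq (4714 / 10000) 1 (18 / 5) T - 7 / 10 * X) := by
  have hmR : (400 : ℝ) ≤ m := by exact_mod_cast hm
  have hm0 : (0 : ℝ) < m := by linarith
  set x : ℝ := 1 / m with hx
  have hx0 : 0 < x := by positivity
  have hx1 : x ≤ 1 / 400 := by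
    rw [hx]
    gcongr
  have hmx : (m : ℝ) * x = 1 := by
    rw [hx]
    field_simp
  have e1 : (1 : ℝ) - 9 / (5 * m) = 1 - 9 / 5 * x := by
    rw [hx]
    ring
  have e2 : 14 / (m : ℝ) ^ 2 + T * (21 / 4 + 21 / m) = 14 * x ^ 2 + T * (21 / 4 + 21 * x) := by
    rw [hx]
    ring
  rw [e2] at hX
  rw [e1]
  have hc : 0 ≤ 1 - 9 / 5 * x := by linarith
  have hxT : x * T ≤ 1 / 400 * T := mul_le_mul_of_nonneg_right hx1 hT0
  have hxT0 : 0 ≤ x * T := by positivity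
  have hx2 : x ^ 2 ≤ 1 / 400 * x := by nlinarith
  have hX2 : X ≤ 14 / 400 * x + 53025 / 10000 * T := by
    have : T * (21 * x) ≤ T * (525 / 10000) := mul_le_mul_of_nonneg_left (by linarith) hT0
    linarith
  have k1 : (1 - 9 / 5 * x) * (m * H460.wq (4714 / 10000) 1 (18 / 5) T
        - 7 / 10 * (14 / 400 * x + 53025 / 10000 * T))
      ≤ (1 - 9 / 5 * x) * (m * H460.wq (4714 / 10000) 1 (18 / 5) T - 7 / 10 * X) :=
    mul_le_mul_of_nonneg_left (by linarith) hc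
  refine le_trans ?_ k1
  have e3 : (1 - 9 / 5 * x) * (m * H460.wq (4714 / 10000) 1 (18 / 5) T
        - 7 / 10 * (14 / 400 * x + 53025 / 10000 * T))
      - m * H460.wq (469 / 1000) (201 / 200) (181 / 50) T
      = m * ((1 - 9 / 5 * x) * ((4714 / 10000 - T - 18 / 5 * T ^ 2)
        - 7 / 10 * x * (14 / 400 * x + 53025 / 10000 * T))
        - (469 / 1000 - 201 / 200 * T - 181 / 50 * T ^ 2)) := by
    unfold H460.wq
    linear_combination ((1 - 9 / 5 * x) * (7 / 10) * (14 / 400 * x + 53025 / 10000 * T)) * hmx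
  have k2 : 0 ≤ (1 - 9 / 5 * x) * ((4714 / 10000 - T - 18 / 5 * T ^ 2)
        - 7 / 10 * x * (14 / 400 * x + 53025 / 10000 * T))
        - (469 / 1000 - 201 / 200 * T - 181 / 50 * T ^ 2) := by
    have k3 : 0 ≤ 9 / 5 * x * (18 / 5 * T ^ 2) := by positivity
    have k4 : 0 ≤ 9 / 5 * x * (7 / 10 * x * (14 / 400 * x + 53025 / 10000 * T)) := by positivity
    have k5 : 0 ≤ T ^ 2 := sq_nonneg T
    nlinarith
  have k6 := mul_nonneg hm0.le k2
  linarith

variable {L : ℝ} (hL : L * ((m : ℝ) ^ 2 - 1) = 4)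
  (s : ZSol ((m : ℝ) / 2) L) {d : ℝ} (hd : 0 ≤ d) (hd2 : d ^ 2 = L)

include hL hd hd2

/-- **the level conditions of the uniform odd law** -/
theorem so3 {l' : ℝ → ℝ}
    (hl' : l' T = 17 * (1 - T ^ 10) * ((1 - 9 / (5 * m)) / (1 + 7 / (5 * m)))) :
    bO m d T (1 / √(1 - T ^ 2)) ((uZ s).e T) ((uZ s).r T) (-(uZ s).ρ T) (-(uZ s).ε T)
        ≤ K0 ((m : ℝ) / 2) (cn m) * (1 - 9 / (5 * m))
          * (H582.be m (31 / 10) T (eM m T) (rM m T) + H178.xiO m T * PMo m T)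
    ∧ 0 ≤ K0 ((m : ℝ) / 2) (cn m) * (1 - 9 / (5 * m))
          * (H582.be m (31 / 10) T (eM m T) (rM m T) + H178.xiO m T * PMo m T)
    ∧ K0 ((m : ℝ) / 2) (cn m) * (m * (H460.wq (469 / 1000) (201 / 200) (181 / 50) T
          * H460.cw m T))
        ≤ aO m d T (1 / √(1 - T ^ 2)) (l' T) ((uZ s).y T) ((uZ s).r T) (-(uZ s).ρ T)
            (-(uZ s).ε T)
          - K0 ((m : ℝ) / 2) (cn m) * (1 - 9 / (5 * m))
            * (H582.be m (31 / 10) T (eM m T) (rM m T) + H178.xiO m T * PMo m T)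
            / (1 - T) := by
  have hT1 : T ∈ Ioo (0 : ℝ) 1 := ⟨hT.1, hT.2.trans (by norm_num)⟩
  have hT0 := hT.1
  have hk1 : 0 < 1 - T := by linarith [hT1.2]
  have hmR : (400 : ℝ) ≤ m := by exact_mod_cast hm
  have hm0 : (0 : ℝ) < m := by linarith
  have hat := oddAt_lamP (by omega) hL s hd hd2 hT1 (by linarith [hT.2]) hl'
  have hn := nrm_cn (m := m) (by omega)
  have hKp : 0 < K0 ((m : ℝ) / 2) (cn m) :=
    K0_pos (hn.pos' (by linarith : (17 : ℝ) / 2 ≤ (m : ℝ) / 2)) (by linarith)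
  have hθ : 0 ≤ 1 - 9 / (5 * (m : ℝ)) := by
    have : 9 / (5 * (m : ℝ)) ≤ 1 := by
      rw [div_le_one (by positivity)]
      linarith
    linarith
  have hc0 := certO_M (m := m) (by omega)
  have hy := hc0.y0 T hT1
  have hr := hc0.r0 T hT1
  have hP := PMo_nonneg hT0.le hy hr
  have hbe := H460.be_nonneg hm hT
  have hx := hat.x0
  have hQ : 0 ≤ H582.be m (31 / 10) T (eM m T) (rM m T) + H178.xiO m T * PMo m T := by
    positivity
  refine ⟨hat.hb, by positivity, ?_⟩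
  set K := K0 ((m : ℝ) / 2) (cn m) with hK
  set al := H582.al m T (yM m T) (rM m T) (H582.lamP 17 17 17 17 17 T) with hal
  set be := H582.be m (31 / 10) T (eM m T) (rM m T) with hbe'
  have h10 : 0 ≤ T ^ 10 := by positivity
  have hw := H460.hq_of (lam := H582.lamP 17 17 17 17 17 T) hm hT (by
    have : (1 - T ^ 2) * H582.lamP 17 17 17 17 17 T = 17 * (1 - T ^ 10) := by
      unfold H582.lamP
      ring
    rw [this]
    linarith)
  rw [← hal, ← hbe'] at hw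
  have hc := c_le hm hT
  have hcw : 0 < H460.cw m T := H460.cw_pos hT1.1.le hT1.2
  -- the additional weight
  set X : ℝ := xiX m T / (1 - T) with hX
  have eX : H178.xiO m T * PMo m T / (1 - T) = X * (T * yM m T + m * rM m T) := by
    rw [← xiO_eq, hX]
    unfold xiO PMo
    field_simp
  have hX0 : 0 ≤ X := by
    have h1 : 0 ≤ H178.xiO m T := hx
    rw [← xiO_eq] at h1
    unfold xiO at h1
    have h3 : 0 ≤ xiX m T := nonneg_of_mul_nonneg_right h1 (by positivity)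
    rw [hX]
    positivity
  have hX1 : X ≤ 14 / (m : ℝ) ^ 2 + T * (21 / 4 + 21 / m) := by
    rw [hX, div_le_iff₀ hk1]
    unfold xiX
    have h1 : 12 / (m : ℝ) ^ 2 ≤ 14 / (m : ℝ) ^ 2 * (1 - T) := by
      have : 12 / (m : ℝ) ^ 2 = 14 / (m : ℝ) ^ 2 * (12 / 14) := by ring
      rw [this]
      exact mul_le_mul_of_nonneg_left (by linarith [hT.2]) (by positivity)
    have h2 : 0 ≤ T * (1 - T) * ((33 / 4 + 34 / (m : ℝ)) * T) := by positivity
    linarith
  have hnum := so3_num hm hT.1.le hT.2.le hX1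
  have k1 : X * (T * yM m T + m * rM m T) ≤ X * (7 / 10 * H460.cw m T) :=
    mul_le_mul_of_nonneg_left hc hX0
  have k2 : K * (1 - 9 / (5 * (m : ℝ))) * (m * (H460.wq (4714 / 10000) 1 (18 / 5) T
        * H460.cw m T) - X * (7 / 10 * H460.cw m T))
      ≤ K * (1 - 9 / (5 * (m : ℝ))) * (al - be / (1 - T) - X * (T * yM m T + m * rM m T)) :=
    mul_le_mul_of_nonneg_left (by linarith) (by positivity)
  have k3 : K * (1 - 9 / (5 * (m : ℝ))) * (al - be / (1 - T) - X * (T * yM m T + m * rM m T))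
      = K * (1 - 9 / (5 * (m : ℝ))) * al
        - K * (1 - 9 / (5 * m)) * (be + H178.xiO m T * PMo m T) / (1 - T) := by
    rw [← eX]
    ring
  have k4 := mul_le_mul_of_nonneg_left hnum (show 0 ≤ K * H460.cw m T by positivity)
  have ha := hat.ha
  rw [k3] at k2
  refine le_trans (le_of_eq ?_) ((k4.trans (le_of_eq ?_)).trans (k2.trans ?_))
  · ring
  · ring
  · linarith

end

end Vale.Agent.P224.R2.H494.OC
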