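import Vale.Agent.P224.R2.H494.Fix

/-!
Odd dimension: differential equations of the solution of the integral system.
-/

namespace Vale.Agent.P224.R2.H494

open MeasureTheory Set Filter Function Real Vale.Agent.P224.SM2
open scoped Topology

variable {a L z η G : ℝ} {β p γ : ℝ → ℝ}

/-- the conserved combination -/
noncomputable def VV (a : ℝ) (β : ℝ → ℝ) (T : ℝ) : ℝ :=
  (1 - T ^ 2) ^ a * (Vb a 1 + 2 * a * P a β T)

lemma hasDerivAt_VV (h : WB a β) {T : ℝ} (hT : T ∈ Ioo (0 : ℝ) 1) :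
    HasDerivAt (VV a β) (-(2 * a * T * (VV a β T + β T) / (1 - T ^ 2))) T := by
  have hw := one_sub_sq_pos hT
  have h1 := (hasDerivAt_wpow a hT).fun_mul
    (((hasDerivAt_P h hT).const_mul (2 * a)).const_add (Vb a 1))
  refine h1.congr_deriv ?_
  have e : (1 - T ^ 2) ^ a * (1 - T ^ 2) ^ (-a - 1) = (1 - T ^ 2)⁻¹ := by
    rw [← rpow_add hw, show a + (-a - 1) = -1 by ring, rpow_neg_one]
  have e2 : (1 - T ^ 2) ^ a * (2 * a * -(T * β T * (1 - T ^ 2) ^ (-a - 1)))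
      = -(2 * a * T * β T * (1 - T ^ 2)⁻¹) := by
    rw [← e]
    ring
  rw [e2]
  unfold VV
  have hw' := hw.ne'
  field_simp
  ring

lemma contOn_VV (h : WB a β) : ContinuousOn (VV a β) (Ioo 0 1) :=
  fun _ hT => (hasDerivAt_VV h hT).continuousAt.continuousWithinAt

/-- congruence on the open interval -/
lemma hasDerivAt_congr_Ioo {f g : ℝ → ℝ} {f' T : ℝ} (hT : T ∈ Ioo (0 : ℝ) 1)
    (h : ∀ x ∈ Ioo (0 : ℝ) 1, g x = f x) (hf : HasDerivAt f f' T) : HasDerivAt g f' T :=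
  hf.congr_of_eventuallyEq (by
    filter_upwards [Ioo_mem_nhds hT.1 hT.2] with x hx
    exact h x hx)

section

variable (ha : 17 / 2 ≤ a) (h0 : 0 ≤ L) (h1 : L ≤ 1 / 72) (hz : 0 ≤ z) (hη : 0 ≤ η)
  (hG : 0 ≤ G) (h : Bd a β p γ z η G) (hs : ISol a L β p γ)

include ha h

lemma hasDerivAt_rh {T : ℝ} (hT : T ∈ Ioo (0 : ℝ) 1) :
    HasDerivAt (rh a γ) ((-((2 * a - 1) * T * rh a γ T) + T * sg γ T) / (1 - T ^ 2)) T := by
  have ha2 : 2 ≤ a := by linarith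
  have hw := one_sub_sq_pos hT
  have hs0 := sqrt_w_pos hT
  have h2 := ((hasDerivAt_wpow (a - 1 / 2) hT).fun_mul (hasDerivAt_P (h.wγ ha2) hT)).fun_neg
  refine h2.congr_deriv ?_
  have e : (1 - T ^ 2) ^ (a - 1 / 2) * (1 - T ^ 2) ^ (-a - 1)
      = (√(1 - T ^ 2))⁻¹ * (1 - T ^ 2)⁻¹ := by
    rw [← rpow_add hw, sqrt_eq_rpow, ← rpow_neg hw.le, ← rpow_neg_one (1 - T ^ 2), ← rpow_add hw]
    congr 1
    ring
  have e2 : (1 - T ^ 2) ^ (a - 1 / 2) * -(T * γ T * (1 - T ^ 2) ^ (-a - 1))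
      = -(T * γ T * ((√(1 - T ^ 2))⁻¹ * (1 - T ^ 2)⁻¹)) := by
    rw [← e]
    ring
  rw [e2]
  unfold rh sg
  have hw' := hw.ne'
  have hs' := hs0.ne'
  field_simp
  ring

include h0 h1 hG hs

lemma hasDerivAt_p {T : ℝ} (hT : T ∈ Ioo (0 : ℝ) 1) :
    HasDerivAt p (((a - 1) * p T - qq a L β p γ T) / T) T := by
  have h2 := hasDerivAt_M (CB_qq ha h0 h1 hG h) a hT
  have h3 := hasDerivAt_congr_Ioo hT (fun x hx => hs.ep x hx) h2
  refine h3.congr_deriv ?_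
  rw [hs.ep T hT]
  rfl

lemma hasDerivAt_γ {T : ℝ} (hT : T ∈ Ioo (0 : ℝ) 1) :
    HasDerivAt γ (((a - 1) * γ T - ag a L β p γ T) / T) T := by
  have h2 := hasDerivAt_M (CB_ag ha h0 h1 hG h) a hT
  have h3 := hasDerivAt_congr_Ioo hT (fun x hx => hs.eγ x hx) h2
  refine h3.congr_deriv ?_
  rw [hs.eγ T hT]
  rfl

lemma hasDerivAt_sg {T : ℝ} (hT : T ∈ Ioo (0 : ℝ) 1) :
    HasDerivAt (sg γ) (((a - 1) * sg γ T - ag a L β p γ T / √(1 - T ^ 2)) / T
      + T * sg γ T / (1 - T ^ 2)) T := by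
  have hw := one_sub_sq_pos hT
  have hs0 := sqrt_w_pos hT
  have h2 := (hasDerivAt_γ ha h0 h1 hG h hs hT).fun_div ((hasDerivAt_w T).sqrt hw.ne') hs0.ne'
  refine h2.congr_deriv ?_
  unfold sg
  have hw' := hw.ne'
  have hs' := hs0.ne'
  have hT0 := hT.1.ne'
  have hss : √(1 - T ^ 2) ^ 2 = 1 - T ^ 2 := sq_sqrt hw.le
  rw [show ((a - 1) * (γ T / √(1 - T ^ 2)) - ag a L β p γ T / √(1 - T ^ 2)) / T
      + T * (γ T / √(1 - T ^ 2)) / (1 - T ^ 2)
      = (((a - 1) * γ T - ag a L β p γ T) / T + T * γ T / (1 - T ^ 2)) / √(1 - T ^ 2) by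
    field_simp]
  rw [div_eq_div_iff (by positivity) hs', hss]
  field_simp
  rw [hss]
  ring

/-- the derivative of ε -/
lemma hasDerivAt_ep {T : ℝ} (hT : T ∈ Ioo (0 : ℝ) 1) :
    HasDerivAt (ep a γ) ((4 * a * (2 * a + 1) * T ^ 2 * (eh a β T + p T)
      + 2 * a * (2 + L * T ^ 2) * ep a γ T - 4 * a * rh a γ T) / (De L T * T)) T := by
  have hw := one_sub_sq_pos hT
  have hs0 := sqrt_w_pos hT
  have hD := De_ne h0 h1 hT
  have h2 := (hasDerivAt_rh ha h hT).fun_sub (((hasDerivAt_pow 2 T)).fun_mul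
    (hasDerivAt_sg ha h0 h1 hG h hs hT))
  refine h2.congr_deriv ?_
  have e : ag a L β p γ T / √(1 - T ^ 2) = ((2 * a - 1) / (1 - T ^ 2) + 2 * L * a / De L T)
      * rh a γ T + 4 * a * (2 * a + 1) / De L T * (eh a β T + p T)
      - L * a / De L T * ((1 + T ^ 2) * sg γ T) := by
    have hss : √(1 - T ^ 2) * √(1 - T ^ 2) = 1 - T ^ 2 := mul_self_sqrt hw.le
    have hs' := hs0.ne'
    have hw' := hw.ne'
    unfold ag sg
    generalize √(1 - T ^ 2) = s at hss hs'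
    rw [← hss]
    field_simp
  rw [e]
  unfold ep
  have hw' := hw.ne'
  have hT0 := hT.1.ne'
  have hDe : De L T = 4 - L * (1 - T ^ 2) := rfl
  generalize hDg : De L T = D at *
  generalize rh a γ T = R
  generalize sg γ T = g
  generalize eh a β T + p T = H
  push_cast
  field_simp
  rw [hDe]
  ring

end

end Vale.Agent.P224.R2.H494
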