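import Vale.Agent.P224.R2.H494.Sol

/-!
Odd dimension: the solution of the integral system solves the differential system.
-/

namespace Vale.Agent.P224.R2.H494

open MeasureTheory Set Filter Function Real Vale.Agent.P224.SM2
open scoped Topology

variable {a L z η G : ℝ} {β p γ : ℝ → ℝ}

lemma hasDerivAt_De (L T : ℝ) : HasDerivAt (De L) (2 * L * T) T := by
  refine (((hasDerivAt_w T).const_mul L).const_sub 4).congr_deriv ?_
  ring

section

variable (ha : 17 / 2 ≤ a) (h0 : 0 ≤ L) (h1 : L ≤ 1 / 72) (hz : 0 ≤ z) (hη : 0 ≤ η)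
  (hG : 0 ≤ G) (h : Bd a β p γ z η G) (hs : ISol a L β p γ)

/-- the coefficient of `β` -/
noncomputable def cf (L T : ℝ) : ℝ := 1 + L / 4 * ((1 - T ^ 2) * (12 + L * (1 - T ^ 2)) / De L T)

/-- the rest -/
noncomputable def nf (a L : ℝ) (β p γ : ℝ → ℝ) (T : ℝ) : ℝ :=
  f0 a T + M a (fun x => 1 / 2 * ((1 - x ^ 2) ^ a * (2 * a * P a β x))) T
    - L * (2 * a - 1) / 2 * (a * M a (fun x => (1 + x ^ 2) * ff a L β p γ x) T)
    + L * (2 * a - 1) / 2 * ((1 - T ^ 2) * (-((12 + L * (1 - T ^ 2)) / De L T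
      * (a * M a β T / (2 * (2 * a - 1)))) - 16 / De L T * p T
      + 4 * L / ((2 * a + 1) * De L T) * om a γ T))

include h0 h1 in
lemma cf_pos {T : ℝ} (hT : T ∈ Ioo (0 : ℝ) 1) : 0 < cf L T := by
  have hD : 0 < De L T := by linarith [De_pos h0 h1 hT]
  have hw := one_sub_sq_pos hT
  unfold cf
  positivity

include ha h0 h1 hs in
lemma cf_mul {T : ℝ} (hT : T ∈ Ioo (0 : ℝ) 1) : β T = nf a L β p γ T / cf L T := by
  have hD := De_ne h0 h1 hT
  have hc := (cf_pos h0 h1 hT).ne'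
  rw [eq_div_iff hc]
  have h2 := hs.eβ T hT
  have ha1 : 2 * a - 1 ≠ 0 := by linarith
  have e1 : L * (2 * a - 1) / 2 * ((1 - T ^ 2) * ff a L β p γ T)
      = L * (2 * a - 1) / 2 * ((1 - T ^ 2) * (-((12 + L * (1 - T ^ 2)) / De L T
      * (a * M a β T / (2 * (2 * a - 1)))) - 16 / De L T * p T
      + 4 * L / ((2 * a + 1) * De L T) * om a γ T))
      - L / 4 * ((1 - T ^ 2) * (12 + L * (1 - T ^ 2)) / De L T) * β T := by
    unfold ff eh
    generalize 4 * L / ((2 * a + 1) * De L T) * om a γ T = X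
    generalize 16 / De L T * p T = Y
    field_simp
    ring
  have e2 : β T * cf L T = β T + L / 4 * ((1 - T ^ 2) * (12 + L * (1 - T ^ 2)) / De L T) * β T := by
    unfold cf
    ring
  rw [e2]
  unfold Kb at h2
  unfold nf
  linarith

include ha h0 h1 hz hη hG h hs

lemma diff_β {T : ℝ} (hT : T ∈ Ioo (0 : ℝ) 1) : DifferentiableAt ℝ β T := by
  have ha2 : 2 ≤ a := by linarith
  have hD := De_ne h0 h1 hT
  have hn : 2 * a + 1 ≠ 0 := by linarith
  have dD : DifferentiableAt ℝ (De L) T := (hasDerivAt_De L T).differentiableAt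
  have dw : DifferentiableAt ℝ (fun T : ℝ => 1 - T ^ 2) T := (hasDerivAt_w T).differentiableAt
  have d1 : DifferentiableAt ℝ (f0 a) T := (hasDerivAt_M (CB_f0 ha2) a hT).differentiableAt
  have d2 := (hasDerivAt_M (CB_wP ha2 h) a hT).differentiableAt
  have d3 := (hasDerivAt_M (CB_xff ha h0 h1 hz hη hG h) a hT).differentiableAt
  have d4 := (hasDerivAt_M (h.nβ ha2) a hT).differentiableAt
  have d5 := (hasDerivAt_p ha h0 h1 hG h hs hT).differentiableAt
  have d6 : DifferentiableAt ℝ (om a γ) T :=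
    (dw.fun_mul (hasDerivAt_sg ha h0 h1 hG h hs hT).differentiableAt).fun_sub
      ((hasDerivAt_ep ha h0 h1 hG h hs hT).differentiableAt.const_mul 2)
  have dc : DifferentiableAt ℝ (cf L) T := by
    unfold cf
    fun_prop (disch := assumption)
  have dn : DifferentiableAt ℝ (nf a L β p γ) T := by
    have hq : (2 * a + 1) * De L T ≠ 0 := mul_ne_zero hn hD
    unfold nf
    refine ((d1.fun_add d2).fun_sub ((d3.const_mul a).const_mul _)).fun_add
      ((dw.fun_mul (((DifferentiableAt.fun_mul ?_ ((d4.const_mul a).div_const _)).fun_neg.fun_sub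
        (DifferentiableAt.fun_mul ?_ d5)).fun_add (DifferentiableAt.fun_mul ?_ d6))).const_mul _)
    · exact ((dw.const_mul L).const_add 12).fun_div dD hD
    · exact (differentiableAt_const _).fun_div dD hD
    · exact (differentiableAt_const _).fun_div (dD.const_mul _) hq
  have h3 := dn.fun_div dc (cf_pos h0 h1 hT).ne'
  refine h3.congr_of_eventuallyEq ?_
  filter_upwards [Ioo_mem_nhds hT.1 hT.2] with x hx
  exact cf_mul ha h0 h1 hs hx

lemma hasDerivAt_β {T : ℝ} (hT : T ∈ Ioo (0 : ℝ) 1) : HasDerivAt β (deriv β T) T :=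
  (diff_β ha h0 h1 hz hη hG h hs hT).hasDerivAt

lemma hasDerivAt_eh {T : ℝ} (hT : T ∈ Ioo (0 : ℝ) 1) : HasDerivAt (eh a β)
    ((deriv β T + a * (((a - 1) * M a β T - β T) / T)) / (2 * (2 * a - 1))) T := by
  have ha2 : 2 ≤ a := by linarith
  exact ((hasDerivAt_β ha h0 h1 hz hη hG h hs hT).fun_add
    ((hasDerivAt_M (h.nβ ha2) a hT).const_mul a)).div_const _

lemma diff_ff {T : ℝ} (hT : T ∈ Ioo (0 : ℝ) 1) : DifferentiableAt ℝ (ff a L β p γ) T := by
  have ha2 : 2 ≤ a := by linarith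
  have hD := De_ne h0 h1 hT
  have hn : 2 * a + 1 ≠ 0 := by linarith
  have dD : DifferentiableAt ℝ (De L) T := (hasDerivAt_De L T).differentiableAt
  have dw : DifferentiableAt ℝ (fun T : ℝ => 1 - T ^ 2) T := (hasDerivAt_w T).differentiableAt
  have d4 := (hasDerivAt_eh ha h0 h1 hz hη hG h hs hT).differentiableAt
  have d5 := (hasDerivAt_p ha h0 h1 hG h hs hT).differentiableAt
  have d6 : DifferentiableAt ℝ (om a γ) T :=
    (dw.fun_mul (hasDerivAt_sg ha h0 h1 hG h hs hT).differentiableAt).fun_sub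
      ((hasDerivAt_ep ha h0 h1 hG h hs hT).differentiableAt.const_mul 2)
  have hq : (2 * a + 1) * De L T ≠ 0 := mul_ne_zero hn hD
  refine (((DifferentiableAt.fun_mul ?_ d4).fun_neg.fun_sub
        (DifferentiableAt.fun_mul ?_ d5)).fun_add (DifferentiableAt.fun_mul ?_ d6))
  · exact ((dw.const_mul L).const_add 12).fun_div dD hD
  · exact (differentiableAt_const _).fun_div dD hD
  · exact (differentiableAt_const _).fun_div (dD.const_mul _) hq

lemma hasDerivAt_ff {T : ℝ} (hT : T ∈ Ioo (0 : ℝ) 1) :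
    HasDerivAt (ff a L β p γ) (deriv (ff a L β p γ) T) T :=
  (diff_ff ha h0 h1 hz hη hG h hs hT).hasDerivAt

/-- the first order equation of `β` -/
lemma R1 {T : ℝ} (hT : T ∈ Ioo (0 : ℝ) 1) : T * deriv β T = (a - 1) * β T - 1 / 2 * VV a β T
    + L * (2 * a - 1) / 2 * ((1 - T ^ 2) * T * deriv (ff a L β p γ) T
      + ((1 - T ^ 2) + (2 * a - 2) * T ^ 2) * ff a L β p γ T) := by
  have ha2 : 2 ≤ a := by linarith
  have hT0 := hT.1.ne'
  have d1 := hasDerivAt_M (CB_f0 ha2) a hT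
  have d2 := hasDerivAt_M (CB_wP ha2 h) a hT
  have d3 := hasDerivAt_M (CB_xff ha h0 h1 hz hη hG h) a hT
  have d4 := (d1.fun_add (d2.fun_sub (((d3.const_mul a).fun_sub
    ((hasDerivAt_w T).fun_mul (hasDerivAt_ff ha h0 h1 hz hη hG h hs hT))).const_mul
      (L * (2 * a - 1) / 2))))
  have d5 := hasDerivAt_congr_Ioo hT (fun x hx => hs.eβ x hx) d4
  rw [d5.deriv, hs.eβ T hT]
  unfold Kb f0 VV
  generalize M a (fun x => 1 / 2 * ((1 - x ^ 2) ^ a * Vb a 1)) T = m1
  generalize M a (fun x => 1 / 2 * ((1 - x ^ 2) ^ a * (2 * a * P a β x))) T = m2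
  generalize M a (fun x => (1 + x ^ 2) * ff a L β p γ x) T = m3
  generalize deriv (ff a L β p γ) T = f'
  field_simp
  ring

end

end Vale.Agent.P224.R2.H494
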