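import Vale.Agent.P224.R2.H494.Sol2
import Vale.Agent.P224.R2.H925.Sys

/-!
Odd dimension: the flow as a structure of functions and its differential system.
-/

namespace Vale.Agent.P224.R2.H494

open MeasureTheory Set Filter Function Real Vale.Agent.P224.SM2 Vale.Agent.P224.R2.H925
open scoped Topology

variable {a L z η G : ℝ} {β p γ : ℝ → ℝ}

/-- primitive vanishing at one -/
noncomputable def Q (f : ℝ → ℝ) (T : ℝ) : ℝ := ∫ x in T..1, f x

lemma hasDerivAt_Q {f : ℝ → ℝ} (h : CB f) {T : ℝ} (hT : T ∈ Ioo (0 : ℝ) 1) :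
    HasDerivAt (Q f) (-f T) T :=
  intervalIntegral.integral_hasDerivAt_left (h.intble ⟨hT.1.le, hT.2.le⟩)
    (h.1.stronglyMeasurableAtFilter isOpen_Ioo T hT) (h.1.continuousAt (Ioo_mem_nhds hT.1 hT.2))

lemma continuousOn_Q {f : ℝ → ℝ} (h : CB f) : ContinuousOn (Q f) (Icc 0 1) := by
  have h1 := intervalIntegral.continuousOn_primitive_interval' (μ := volume)
    (f := f) (a := 1) (b₁ := 0) (b₂ := 1) (h.intble (by norm_num)) right_mem_uIcc
  rw [uIcc_of_le zero_le_one] at h1
  refine h1.neg.congr fun x _ => ?_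
  unfold Q
  exact intervalIntegral.integral_symm _ _

lemma Q_one (f : ℝ → ℝ) : Q f 1 = 0 := by
  unfold Q
  simp

/-- the weighted `e` -/
noncomputable def ew (a : ℝ) (β : ℝ → ℝ) (T : ℝ) : ℝ := eh a β T * (1 - T ^ 2) ^ (-a)

/-- the function `r` -/
noncomputable def rr (a : ℝ) (β : ℝ → ℝ) (T : ℝ) : ℝ := (1 - T ^ 2) ^ (a - 1) * Q (ew a β) T

/-- the derivative of `ε` -/
noncomputable def EE (a L : ℝ) (β p γ : ℝ → ℝ) (T : ℝ) : ℝ :=
  (4 * a * (2 * a + 1) * T ^ 2 * (eh a β T + p T)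
      + 2 * a * (2 + L * T ^ 2) * ep a γ T - 4 * a * rh a γ T) / (De L T * T)

/-- the flow -/
noncomputable def uu (a L : ℝ) (β p γ : ℝ → ℝ) : St where
  e := fun T => T * eh a β T
  y := fun T => (VV a β T + β T) / ((2 * a - 1) * (1 - T ^ 2)) - L * ff a L β p γ T
  B := fun T => -β T
  r := rr a β
  ρ := rh a γ
  ε := ep a γ
  E := EE a L β p γ
  h := fun T => T * (eh a β T + p T)
  Z := fun T => β T - T * deriv β T / (2 * a - 1)
  f := fun T => T * ff a L β p γ T
  f' := fun T => ff a L β p γ T + T * deriv (ff a L β p γ) T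

section

variable (ha : 17 / 2 ≤ a) (h0 : 0 ≤ L) (h1 : L ≤ 1 / 72) (hz : 0 ≤ z) (hη : 0 ≤ η)
  (hG : 0 ≤ G) (h : Bd a β p γ z η G) (hs : ISol a L β p γ)

include ha h

lemma contOn_eh' : ContinuousOn (eh a β) (Ioo 0 1) := by
  have ha2 : 2 ≤ a := by linarith
  exact contOn_eh ha2 (h.nβ ha2)

include hz

lemma WB_eh : WB a (eh a β) := by
  have ha2 : 2 ≤ a := by linarith
  exact WB.of_le (contOn_eh' ha h) ((WB_eb ha2).const_mul z)
    fun x hx => abs_eh_le ha2 h hx

lemma CB_ew : CB (ew a β) := by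
  have ha2 : 2 ≤ a := by linarith
  obtain ⟨C, hC⟩ := (WB_eh ha hz h).2
  refine ⟨(contOn_eh' ha h).mul ((Continuous.continuousOn (by fun_prop)).rpow_const
      fun x hx => Or.inl (one_sub_sq_pos hx).ne'), C, fun x hx => ?_⟩
  have hw := one_sub_sq_pos hx
  have h2 := hC x hx
  have hC0 : 0 ≤ C := by
    by_contra hneg
    push Not at hneg
    have h3 : 0 < (1 - x ^ 2) ^ (a + 1) := by positivity
    nlinarith [abs_nonneg (eh a β x)]
  unfold ew
  rw [abs_mul, abs_of_pos (show 0 < (1 - x ^ 2) ^ (-a) by positivity)]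
  calc |eh a β x| * (1 - x ^ 2) ^ (-a) ≤ C * (1 - x ^ 2) ^ (a + 1) * (1 - x ^ 2) ^ (-a) := by
        gcongr
    _ = C * (1 - x ^ 2) := by
        rw [mul_assoc, ← rpow_add hw, show a + 1 + -a = 1 by ring, rpow_one]
    _ ≤ C * 1 := by
        have := w_le_one (T := x)
        gcongr
    _ = C := mul_one C

lemma hasDerivAt_rr {T : ℝ} (hT : T ∈ Ioo (0 : ℝ) 1) : HasDerivAt (rr a β)
    (-(T * eh a β T + (2 * a - 2) * T ^ 2 * rr a β T) / (T * (1 - T ^ 2))) T := by
  have hw := one_sub_sq_pos hT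
  have hT0 := hT.1.ne'
  refine ((hasDerivAt_wpow (a - 1) hT).fun_mul (hasDerivAt_Q (CB_ew ha hz h) hT)).congr_deriv ?_
  have e : (1 - T ^ 2) ^ (a - 1) * (1 - T ^ 2) ^ (-a) = (1 - T ^ 2)⁻¹ := by
    rw [← rpow_add hw, show a - 1 + -a = -1 by ring, rpow_neg_one]
  have e2 : (1 - T ^ 2) ^ (a - 1) * -ew a β T = -(eh a β T * (1 - T ^ 2)⁻¹) := by
    rw [← e]
    unfold ew
    ring
  rw [e2]
  unfold rr
  have hw' := hw.ne'
  field_simp
  ring

include h0 h1 hη hG hs

/-- the flow solves the differential system -/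
theorem sys_uu {m : ℕ} {d : ℝ} (hm : (m : ℝ) = 2 * a) (hd : d ^ 2 = L) :
    Sys m d (uu a L β p γ) := by
  have ha2 : 2 ≤ a := by linarith
  have hid : ∀ T : ℝ, HasDerivAt (fun T : ℝ => T) 1 T := fun T => hasDerivAt_id T
  have ha1 : (2 * a - 1) ≠ 0 := by linarith
  have ha0 : a ≠ 0 := by linarith
  have hn : (2 * a + 1) ≠ 0 := by linarith
  refine ⟨?_, ?_, ?_, ?_, ?_, ?_, ?_, ?_, ?_, ?_, ?_⟩
  · -- e
    intro T hT
    have hT0 := hT.1.ne'
    refine ((hid T).fun_mul (hasDerivAt_eh ha h0 h1 hz hη hG h hs hT)).congr_deriv ?_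
    simp only [uu, eD, hm]
    unfold eh
    generalize deriv β T = b'
    generalize hk : 2 * a - 1 = k at ha1 ⊢
    obtain rfl : a = (k + 1) / 2 := by linarith
    field_simp
    ring
  · -- y
    intro T hT
    have hT0 := hT.1.ne'
    have hw := (one_sub_sq_pos hT).ne'
    have r1 := R1 ha h0 h1 hz hη hG h hs hT
    refine ((((hasDerivAt_VV (h.wβ ha2) hT).fun_add
      (hasDerivAt_β ha h0 h1 hz hη hG h hs hT)).fun_div
      ((hasDerivAt_w T).const_mul (2 * a - 1)) (mul_ne_zero ha1 hw)).fun_sub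
      ((hasDerivAt_ff ha h0 h1 hz hη hG h hs hT).const_mul L)).congr_deriv ?_
    simp only [uu, yD, hm]
    generalize deriv β T = b' at r1 ⊢
    generalize deriv (ff a L β p γ) T = f' at r1 ⊢
    generalize ff a L β p γ T = f at r1 ⊢
    generalize VV a β T = V at r1 ⊢
    have e1 : b' = ((a - 1) * β T - 1 / 2 * V + L * (2 * a - 1) / 2 * ((1 - T ^ 2) * T * f'
      + ((1 - T ^ 2) + (2 * a - 2) * T ^ 2) * f)) / T := by
      rw [← r1]
      field_simp
    rw [e1]
    field_simp
    ring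
  · -- B
    intro T hT
    have hT0 := hT.1.ne'
    refine (hasDerivAt_β ha h0 h1 hz hη hG h hs hT).fun_neg.congr_deriv ?_
    simp only [uu, BD, hm]
    field_simp
    ring
  · -- r
    intro T hT
    refine (hasDerivAt_rr ha hz h hT).congr_deriv ?_
    simp only [uu, rD, hm]
  · -- ρ
    intro T hT
    have hT0 := hT.1.ne'
    have hw := (one_sub_sq_pos hT).ne'
    refine (hasDerivAt_rh ha h hT).congr_deriv ?_
    simp only [uu, pD, hm]
    unfold ep
    field_simp
    ring
  · -- ε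
    intro T hT
    exact hasDerivAt_ep ha h0 h1 hG h hs hT
  · -- h
    intro T hT
    have hT0 := hT.1.ne'
    have hDn := De_ne h0 h1 hT
    have hw := (one_sub_sq_pos hT).ne'
    refine ((hid T).fun_mul ((hasDerivAt_eh ha h0 h1 hz hη hG h hs hT).fun_add
      (hasDerivAt_p ha h0 h1 hG h hs hT))).congr_deriv ?_
    have e3 : L / (4 * (2 * a + 1)) * (2 * a * T * ep a γ T + (1 - T ^ 2) * EE a L β p γ T)
        = T * qq a L β p γ T := by
      have e : De L T = 4 - L * (1 - T ^ 2) := rfl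
      unfold EE qq om ep
      generalize rh a γ T = R
      generalize sg γ T = g
      generalize eh a β T + p T = H
      rw [div_mul_eq_mul_div, div_eq_iff (by simpa using hn)]
      field_simp
      rw [e]
      ring
    simp only [uu, hD, hm, hd]
    rw [e3]
    unfold eh
    generalize deriv β T = b'
    generalize qq a L β p γ T = q
    generalize hk : 2 * a - 1 = k at ha1 ⊢
    obtain rfl : a = (k + 1) / 2 := by linarith
    field_simp
    ring
  · -- f
    intro T hT
    have hT0 := hT.1.ne'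
    refine ((hid T).fun_mul (hasDerivAt_ff ha h0 h1 hz hη hG h hs hT)).congr_deriv ?_
    simp only [uu]
    ring
  · -- a1
    intro T hT
    have hT0 := hT.1.ne'
    have hDn := De_ne h0 h1 hT
    simp only [uu, EE, hm, hd]
    have e : De L T = 4 - L * (1 - T ^ 2) := rfl
    rw [← e]
    field_simp
    ring
  · -- a2
    intro T hT
    have hT0 := hT.1.ne'
    have hDn := De_ne h0 h1 hT
    simp only [uu, EE, hm, ff, om, ep]
    have e : De L T = 4 - L * (1 - T ^ 2) := rfl
    generalize rh a γ T = R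
    generalize sg γ T = g
    generalize eh a β T = H
    field_simp
    rw [e]
    ring
  · -- a3
    intro T hT
    have hT0 := hT.1.ne'
    have hw := (one_sub_sq_pos hT).ne'
    have r1 := R1 ha h0 h1 hz hη hG h hs hT
    simp only [uu, hm, hd]
    generalize deriv β T = b' at r1 ⊢
    generalize deriv (ff a L β p γ) T = f' at r1 ⊢
    generalize ff a L β p γ T = f at r1 ⊢
    generalize VV a β T = V at r1 ⊢
    have e1 : b' = ((a - 1) * β T - 1 / 2 * V + L * (2 * a - 1) / 2 * ((1 - T ^ 2) * T * f'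
      + ((1 - T ^ 2) + (2 * a - 2) * T ^ 2) * f)) / T := by
      rw [← r1]
      field_simp
    rw [e1]
    field_simp
    ring

end

end Vale.Agent.P224.R2.H494
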