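import Vale.Agent.P224.R2.H494.Sol3
import Vale.Agent.P224.R2.H925.SOne

/-!
Odd dimension: the limits of the flow.
-/

namespace Vale.Agent.P224.R2.H494

open MeasureTheory Set Filter Function Real Vale.Agent.P224.SM2 Vale.Agent.P224.R2.H925
open scoped Topology

variable {a L z η G : ℝ} {β p γ : ℝ → ℝ}

/-- congruence of limits at zero -/
lemma tt0 {f g : ℝ → ℝ} {u v : ℝ} (h : Tendsto f (𝓝[>] 0) (𝓝 u))
    (hfg : ∀ T ∈ Ioo (0 : ℝ) 1, f T = g T) (hab : u = v) : Tendsto g (𝓝[>] 0) (𝓝 v) := by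
  rw [← hab]
  refine h.congr' ?_
  filter_upwards [Ioo_mem_nhdsGT (zero_lt_one (α := ℝ))] with T hT using hfg T hT

lemma tendsto_id0 : Tendsto (fun T : ℝ => T) (𝓝[>] 0) (𝓝 0) :=
  tendsto_id.mono_left nhdsWithin_le_nhds

lemma tendsto_w0 : Tendsto (fun T : ℝ => 1 - T ^ 2) (𝓝[>] 0) (𝓝 1) := by
  have := (tendsto_id0.pow 2).const_sub 1
  simpa using this

lemma tendsto_wpow0 (b : ℝ) : Tendsto (fun T : ℝ => (1 - T ^ 2) ^ b) (𝓝[>] 0) (𝓝 1) := by
  have := tendsto_w0.rpow_const (p := b) (Or.inl one_ne_zero)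
  simpa using this

/-- a bounded function times `T` -/
lemma CB.tendsto0 {f : ℝ → ℝ} (h : CB f) : Tendsto (fun T => T * f T) (𝓝[>] 0) (𝓝 0) := by
  obtain ⟨C, hC⟩ := h.2
  have h1 : Tendsto (fun T : ℝ => T * C) (𝓝[>] 0) (𝓝 0) := by
    simpa using tendsto_id0.mul_const C
  refine squeeze_zero_norm' ?_ h1
  filter_upwards [Ioo_mem_nhdsGT (zero_lt_one (α := ℝ))] with T hT
  rw [norm_eq_abs, abs_mul, abs_of_pos hT.1]
  exact mul_le_mul_of_nonneg_left (hC T hT) hT.1.le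

lemma tendsto_of_contOn {f : ℝ → ℝ} (h : ContinuousOn f (Icc 0 1)) :
    Tendsto f (𝓝[>] 0) (𝓝 (f 0)) := by
  have h1 : Tendsto f (𝓝[Icc 0 1] 0) (𝓝 (f 0)) := h 0 ⟨le_rfl, zero_le_one⟩
  refine h1.mono_left ?_
  rw [← nhdsWithin_Ioo_eq_nhdsGT (zero_lt_one (α := ℝ))]
  exact nhdsWithin_mono 0 Ioo_subset_Icc_self

section

variable (ha : 17 / 2 ≤ a) (h0 : 0 ≤ L) (h1 : L ≤ 1 / 72) (hz : 0 ≤ z) (hη : 0 ≤ η)
  (hG : 0 ≤ G) (h : Bd a β p γ z η G)

include ha hG h in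
lemma CB_sg : CB (sg γ) := by
  have ha2 : 2 ≤ a := by linarith
  exact CB.of_le (contOn_sg h.cγ) ((CB.const _).mul (CB_weba ha2))
    fun x hx => abs_sg_le ha hG h hx

include ha h in
lemma contOn_rh0 : ContinuousOn (rh a γ) (Icc 0 1) := by
  have ha2 : 2 ≤ a := by linarith
  exact (((continuous_const.sub (continuous_id.pow 2)).rpow_const
    fun _ => Or.inr (by linarith)).continuousOn.mul (continuousOn_P (h.wγ ha2))).neg

include ha hG h in
lemma CB_ep : CB (ep a γ) :=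
  (CB.of_cont (contOn_rh0 ha h)).sub ((CB.of_cont (f := fun x : ℝ => x ^ 2)
    (Continuous.continuousOn (by fun_prop))).mul (CB_sg ha hG h))

include ha hz h in
lemma contOn_rr : ContinuousOn (rr a β) (Icc 0 1) :=
  ((continuous_const.sub (continuous_id.pow 2)).rpow_const
    fun _ => Or.inr (by linarith)).continuousOn.mul (continuousOn_Q (CB_ew ha hz h))

include ha h in
lemma contOn_VV' : ContinuousOn (VV a β) (Icc 0 1) := by
  have ha2 : 2 ≤ a := by linarith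
  exact ((continuous_const.sub (continuous_id.pow 2)).rpow_const
    fun _ => Or.inr (by linarith)).continuousOn.mul
      ((continuousOn_const.mul (continuousOn_P (h.wβ ha2))).const_add _)

include ha h0 h1 hz hη hG h

/-- the limits at zero -/
theorem lim0_uu {m : ℕ} {d : ℝ} (hm : (m : ℝ) = 2 * a) (hd : d ^ 2 = L) :
    Lim0 m d (uu a L β p γ) (rh a γ 0) (rr a β 0) (VV a β 0 / (2 * a - 1)) := by
  have ha2 : 2 ≤ a := by linarith
  have ha1 : (2 * a - 1) ≠ 0 := by linarith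
  have ce : CB (eh a β) := (WB_eh ha hz h).toCB (by linarith)
  have cff := CB_ff ha h0 h1 hz hη hG h
  have cV := tendsto_of_contOn (contOn_VV' ha h)
  refine ⟨ce.tendsto0, (ce.add (h.np ha2)).tendsto0, ?_, ?_, ?_,
    tendsto_of_contOn (contOn_rr ha hz h), ?_⟩
  · -- y
    have e1 : Tendsto (fun T => (T * VV a β T + T * β T) / ((2 * a - 1) * (1 - T ^ 2))
        - L * (T * ff a L β p γ T)) (𝓝[>] 0)
        (𝓝 ((0 + 0) / ((2 * a - 1) * 1) - L * 0)) :=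
      ((((CB.of_cont (contOn_VV' ha h)).tendsto0).add (h.nβ ha2).tendsto0).div
        (tendsto_w0.const_mul _) (by simpa using ha1)).sub (cff.tendsto0.const_mul L)
    refine tt0 e1 (fun T _ => ?_) (by simp)
    simp only [uu]
    ring
  · -- ε
    have e1 : Tendsto (fun T => rh a γ T - T * (T * sg γ T)) (𝓝[>] 0) (𝓝 (rh a γ 0 - 0 * 0)) :=
      (tendsto_of_contOn (contOn_rh0 ha h)).sub (tendsto_id0.mul (CB_sg ha hG h).tendsto0)
    refine tt0 e1 (fun T _ => ?_) (by simp)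
    simp only [uu, ep]
    ring
  · -- difference
    refine tt0 (CB_sg ha hG h).tendsto0.neg (fun T hT => ?_) (by simp)
    have hT0 := hT.1.ne'
    simp only [uu, ep]
    field_simp
    ring
  · -- constant
    refine tt0 (cV.div_const (2 * a - 1)) (fun T hT => ?_) rfl
    have hT0 := hT.1.ne'
    have hw := (one_sub_sq_pos hT).ne'
    simp only [uu, hm, hd]
    field_simp
    ring

end

/-! ### the limits at one -/

lemma one_sub_sin_sq (φ : ℝ) : 1 - sin φ ^ 2 = cos φ ^ 2 := by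
  have := sin_sq_add_cos_sq φ
  linarith

lemma sin_mem {φ : ℝ} (hφ : φ ∈ Ioo 0 (π / 2)) : sin φ ∈ Ioo (0 : ℝ) 1 := by
  have := pi_pos
  exact ⟨sin_pos_of_pos_of_lt_pi hφ.1 (by linarith [hφ.2]),
    (abs_lt.1 (Vale.Agent.P224.FV.abs_sin_lt_one ⟨by linarith [hφ.1], hφ.2⟩)).2⟩

lemma cos_rpow {φ : ℝ} (hφ : φ ∈ Ioo 0 (π / 2)) (b : ℝ) :
    (1 - sin φ ^ 2) ^ b = cos φ ^ (2 * b) := by
  have hc := (cos_pos_Ioo hφ)
  rw [one_sub_sin_sq, rpow_mul hc.le]
  norm_num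

/-- decay at one -/
lemma lim_one {F : ℝ → ℝ} {C b : ℝ} (hF : ∀ x ∈ Ioo (0 : ℝ) 1, |F x| ≤ C * (1 - x ^ 2) ^ b)
    {k : ℕ} (hk : (k : ℝ) < 2 * b) :
    Tendsto (fun φ => F (sin φ) / cos φ ^ k) (𝓝[<] (π / 2)) (𝓝 0) := by
  have h1 : Tendsto (fun φ => C * cos φ ^ (2 * b - k)) (𝓝[<] (π / 2)) (𝓝 0) := by
    have h2 := tendsto_cos_zero.rpow_const (p := 2 * b - k) (Or.inr (by linarith))
    rw [zero_rpow (by linarith)] at h2
    simpa using h2.const_mul C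
  refine squeeze_zero_norm' ?_ h1
  filter_upwards [Ioo_pi] with φ hφ
  have hc := cos_pos_Ioo hφ
  have h2 := hF _ (sin_mem hφ)
  rw [cos_rpow hφ] at h2
  rw [norm_eq_abs, abs_div, abs_of_pos (show 0 < cos φ ^ k by positivity),
    div_le_iff₀ (by positivity), mul_assoc, ← rpow_natCast, ← rpow_add hc]
  simpa using h2

section

variable (ha : 17 / 2 ≤ a) (h0 : 0 ≤ L) (h1 : L ≤ 1 / 72) (hz : 0 ≤ z) (hη : 0 ≤ η)
  (hG : 0 ≤ G) (h : Bd a β p γ z η G)

lemma w_mul_rpow {x : ℝ} (hx : x ∈ Ioo (0 : ℝ) 1) (b : ℝ) :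
    (1 - x ^ 2) * (1 - x ^ 2) ^ b = (1 - x ^ 2) ^ (b + 1) := by
  rw [rpow_add_one (one_sub_sq_pos hx).ne', mul_comm]

lemma web_le (ha : 2 ≤ a) {x c : ℝ} (hc : 0 ≤ c) (hx : x ∈ Ioo (0 : ℝ) 1) :
    c * ((1 - x ^ 2) * eb a x) ≤ c * II a 0 * (1 - x ^ 2) ^ (a + 2) := by
  have h2 := eb_growth ha hx
  have hw := one_sub_sq_pos hx
  calc c * ((1 - x ^ 2) * eb a x) ≤ c * ((1 - x ^ 2) * (II a 0 * (1 - x ^ 2) ^ (a + 1))) := by
        gcongr
    _ = c * II a 0 * ((1 - x ^ 2) * (1 - x ^ 2) ^ (a + 1)) := by ring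
    _ = _ := by rw [w_mul_rpow hx, show a + 1 + 1 = a + 2 by ring]

include ha hG h in
lemma rh_decay : ∃ C, ∀ x ∈ Ioo (0 : ℝ) 1, |rh a γ x| ≤ C * (1 - x ^ 2) ^ (a + 2) := by
  have ha2 : 2 ≤ a := by linarith
  have hc : 0 ≤ G * (a * (2 * a + 1)) / (5 * (a - 1)) := by
    have : 0 < a - 1 := by linarith
    positivity
  exact ⟨_, fun x hx => (abs_rh_le ha hG h hx).trans (web_le ha2 hc hx)⟩

include ha hG h in
lemma ep_decay : ∃ C, ∀ x ∈ Ioo (0 : ℝ) 1, |ep a γ x| ≤ C * (1 - x ^ 2) ^ (a + 2) := by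
  have ha2 : 2 ≤ a := by linarith
  have ha1 : 0 < a - 1 := by linarith
  obtain ⟨C, hC⟩ := rh_decay ha hG h
  have hc : 0 ≤ G * (a * (2 * a + 1)) / (a - 1) := by positivity
  refine ⟨C + G * (a * (2 * a + 1)) / (a - 1) * II a 0, fun x hx => ?_⟩
  have e1 := hC x hx
  have e2 := (abs_sg_le ha hG h hx).trans (web_le ha2 hc hx)
  have e3 : |x ^ 2 * sg γ x| ≤ |sg γ x| := by
    rw [abs_mul, abs_of_nonneg (sq_nonneg x)]
    have := aux_T2 hx
    nlinarith [abs_nonneg (sg γ x)]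
  unfold ep
  calc |rh a γ x - x ^ 2 * sg γ x| ≤ |rh a γ x| + |x ^ 2 * sg γ x| := abs_sub _ _
    _ ≤ _ := by linarith

include ha hz h in
lemma rr_decay : ∃ C, ∀ x ∈ Ioo (0 : ℝ) 1, |rr a β x| ≤ C * (1 - x ^ 2) ^ (a + 1) := by
  have ha2 : 2 ≤ a := by linarith
  obtain ⟨C, hC⟩ := (WB_eh ha hz h).2
  have hC0 : 0 ≤ C := by
    by_contra hneg
    push Not at hneg
    have hx : (1 / 2 : ℝ) ∈ Ioo (0 : ℝ) 1 := by norm_num
    have h3 : 0 < (1 - (1 / 2 : ℝ) ^ 2) ^ (a + 1) := by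
      have := one_sub_sq_pos hx
      positivity
    nlinarith [abs_nonneg (eh a β (1 / 2)), hC _ hx]
  refine ⟨C, fun x hx => ?_⟩
  have hw := one_sub_sq_pos hx
  have h2 : ‖Q (ew a β) x‖ ≤ C * (1 - x ^ 2) * |1 - x| := by
    refine intervalIntegral.norm_integral_le_of_norm_le_const fun t ht => ?_
    rw [uIoc_of_le hx.2.le] at ht
    rcases eq_or_lt_of_le ht.2 with h3 | h3
    · rw [h3]
      unfold ew
      rw [show (1 : ℝ) - 1 ^ 2 = 0 by norm_num, zero_rpow (by linarith)]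
      simp only [mul_zero, norm_zero]
      positivity
    · have ht' : t ∈ Ioo (0 : ℝ) 1 := ⟨hx.1.trans ht.1, h3⟩
      have hwt := one_sub_sq_pos ht'
      unfold ew
      rw [norm_eq_abs, abs_mul, abs_of_pos (show 0 < (1 - t ^ 2) ^ (-a) by positivity)]
      calc |eh a β t| * (1 - t ^ 2) ^ (-a) ≤ C * (1 - t ^ 2) ^ (a + 1) * (1 - t ^ 2) ^ (-a) := by
            have := hC t ht'
            gcongr
        _ = C * (1 - t ^ 2) := by
            rw [mul_assoc, ← rpow_add hwt, show a + 1 + -a = 1 by ring, rpow_one]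
        _ ≤ C * (1 - x ^ 2) := by
            have : x ^ 2 ≤ t ^ 2 := by nlinarith [ht.1, hx.1]
            gcongr
  rw [norm_eq_abs, abs_of_pos (show 0 < 1 - x by linarith [hx.2])] at h2
  have h4 : 1 - x ≤ 1 - x ^ 2 := by nlinarith [hx.1, hx.2]
  unfold rr
  rw [abs_mul, abs_of_pos (show 0 < (1 - x ^ 2) ^ (a - 1) by positivity)]
  calc (1 - x ^ 2) ^ (a - 1) * |Q (ew a β) x|
      ≤ (1 - x ^ 2) ^ (a - 1) * (C * (1 - x ^ 2) * (1 - x ^ 2)) := by
        have : C * (1 - x ^ 2) * (1 - x) ≤ C * (1 - x ^ 2) * (1 - x ^ 2) := by gcongr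
        gcongr
        linarith
    _ = C * ((1 - x ^ 2) * ((1 - x ^ 2) * (1 - x ^ 2) ^ (a - 1))) := by ring
    _ = _ := by
        rw [w_mul_rpow hx, w_mul_rpow hx, show a - 1 + 1 + 1 = a + 1 by ring]

include ha h0 h1 hz hη hG h

/-- the limits at one -/
theorem lim1_uu {m : ℕ} (hm : (m : ℝ) = 2 * a) :
    Lim1 m (uu a L β p γ) (Vb a 1 / (2 * a - 1)) := by
  have ha2 : 2 ≤ a := by linarith
  have ha1 : (2 * a - 1) ≠ 0 := by linarith
  have hm2 : 2 ≤ m := by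
    have : (2 : ℝ) ≤ m := by linarith
    exact_mod_cast this
  obtain ⟨Ce, hCe⟩ := (WB_eh ha hz h).2
  obtain ⟨Cp, hCp⟩ := (h.wp ha2).2
  obtain ⟨Cβ, hCβ⟩ := (h.wβ ha2).2
  obtain ⟨Cr, hCr⟩ := rr_decay ha hz h
  obtain ⟨Cρ, hCρ⟩ := rh_decay ha hG h
  obtain ⟨Cε, hCε⟩ := ep_decay ha hG h
  have hTle : ∀ {x : ℝ}, x ∈ Ioo (0 : ℝ) 1 → ∀ y : ℝ, |x * y| ≤ |y| := by
    intro x hx y
    rw [abs_mul, abs_of_pos hx.1]
    nlinarith [abs_nonneg y, hx.2]
  refine ⟨?_, ?_, ?_, ?_, ?_, ?_, ?_⟩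
  · -- y
    have e1 : Tendsto (fun φ => P a β (sin φ)) (𝓝[<] (π / 2)) (𝓝 0) := by
      have c1 : Tendsto (P a β) (𝓝[Icc 0 1] 1) (𝓝 (P a β 1)) :=
        continuousOn_P (h.wβ ha2) 1 ⟨zero_le_one, le_rfl⟩
      rw [P_one] at c1
      refine c1.comp (tendsto_nhdsWithin_iff.2 ⟨tendsto_sin_one, ?_⟩)
      filter_upwards [Ioo_pi] with φ hφ using Ioo_subset_Icc_self (sin_mem hφ)
    have e2 : Tendsto (fun φ => β (sin φ) / cos φ ^ m) (𝓝[<] (π / 2)) (𝓝 0) :=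
      lim_one hCβ (by linarith)
    obtain ⟨Cf, hCf⟩ : ∃ C, ∀ x ∈ Ioo (0 : ℝ) 1, |ff a L β p γ x| ≤ C * (1 - x ^ 2) ^ (a + 1) := by
      refine ⟨(151 / 50 * z + 201 / 50 * η + 273 / 100 * L * G) * II a 0, fun x hx => ?_⟩
      refine (abs_ff_le ha h0 h1 hz hη hG h hx).trans ?_
      rw [mul_assoc _ (II a 0)]
      exact mul_le_mul_of_nonneg_left (eb_growth ha2 hx) (by positivity)
    have e3 : Tendsto (fun φ => ff a L β p γ (sin φ) / cos φ ^ (m - 2)) (𝓝[<] (π / 2)) (𝓝 0) :=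
      lim_one hCf (by
        rw [Nat.cast_sub hm2]
        push_cast
        linarith)
    have e4 : Tendsto (fun φ => (Vb a 1 + 2 * a * P a β (sin φ)) / (2 * a - 1)
        + β (sin φ) / cos φ ^ m / (2 * a - 1) - L * (ff a L β p γ (sin φ) / cos φ ^ (m - 2)))
        (𝓝[<] (π / 2)) (𝓝 ((Vb a 1 + 2 * a * 0) / (2 * a - 1) + 0 / (2 * a - 1) - L * 0)) :=
      ((((e1.const_mul (2 * a)).const_add _).div_const _).add (e2.div_const _)).sub
        (e3.const_mul L)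
    refine tt1 e4 (fun φ hφ => ?_) (by simp)
    have hc := (cos_pos_Ioo hφ).ne'
    simp only [uu, VV]
    rw [cos_rpow hφ, one_sub_sin_sq, ← hm, rpow_natCast]
    have hk : cos φ ^ m = cos φ ^ (m - 2) * cos φ ^ 2 := by
      rw [← pow_add]
      congr 1
      omega
    rw [hk]
    field_simp
  · -- e
    refine lim_one (b := a + 1) (C := Ce) (fun x hx => ?_) (by push_cast; linarith)
    exact (hTle hx _).trans (hCe x hx)
  · -- h
    refine lim_one (b := a + 1) (C := Ce + Cp) (fun x hx => ?_) (by push_cast; linarith)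
    refine (hTle hx _).trans ?_
    have e1 := hCe x hx
    have e2 := hCp x hx
    have e3 := abs_add_le (eh a β x) (p x)
    linarith
  · -- B
    refine lim_one (b := a + 1) (C := Cβ) (fun x hx => ?_) (by linarith)
    simp only [uu, abs_neg]
    exact hCβ x hx
  · -- r
    exact lim_one (b := a + 1) (C := Cr) (fun x hx => hCr x hx) (by linarith)
  · -- ρ
    exact lim_one (b := a + 2) (C := Cρ) (fun x hx => hCρ x hx) (by push_cast; linarith)
  · -- ε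
    exact lim_one (b := a + 2) (C := Cε) (fun x hx => hCε x hx) (by push_cast; linarith)

end

end Vale.Agent.P224.R2.H494
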