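import Vale.Agent.P224.R2.H424.Flow
import Vale.Agent.P224.R2.H925.Sys

/-!
The flow of the odd dimension in the variable T, from the normal form.
-/

namespace Vale.Agent.P224.R2.H494.ZT

open MeasureTheory Set Filter Function Real Vale.Agent.P224.SM2 Vale.Agent.P224.R2.H925
  Vale.Agent.P224.R2.H424
open scoped Topology

lemma w_pos {T : ℝ} (hT : T ∈ Ioo (0 : ℝ) 1) : 0 < 1 - T ^ 2 := by nlinarith [hT.1, hT.2]

lemma w_mem {T : ℝ} (hT : T ∈ Ioo (0 : ℝ) 1) : 1 - T ^ 2 ∈ Ioo (0 : ℝ) 1 :=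
  ⟨w_pos hT, by nlinarith [hT.1, hT.2]⟩

lemma w_mem' {T : ℝ} (hT : T ∈ Ioo (0 : ℝ) 1) : 1 - T ^ 2 ∈ Ioo (-1 : ℝ) 1 :=
  ⟨by linarith [w_pos hT], (w_mem hT).2⟩

lemma w_memI {T : ℝ} (hT : T ∈ Icc (0 : ℝ) 1) : 1 - T ^ 2 ∈ Icc (0 : ℝ) 1 :=
  ⟨by nlinarith [hT.1, hT.2], by nlinarith [hT.1, hT.2]⟩

lemma hasDerivAt_w (T : ℝ) : HasDerivAt (fun T : ℝ => 1 - T ^ 2) (-(2 * T)) T := by
  simpa using (hasDerivAt_pow 2 T).const_sub 1

/-- derivative of `w ^ b f(w)` -/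
lemma hasDerivAt_wf (b : ℝ) {f : ℝ → ℝ} {f1 T : ℝ} (hT : T ∈ Ioo (0 : ℝ) 1)
    (hf : HasDerivAt f f1 (1 - T ^ 2)) :
    HasDerivAt (fun T : ℝ => (1 - T ^ 2) ^ b * f (1 - T ^ 2))
      (-(2 * T * ((1 - T ^ 2) ^ b * (b * f (1 - T ^ 2) / (1 - T ^ 2) + f1)))) T := by
  have hw := w_pos hT
  have h1 := (hasDerivAt_w T).rpow_const (p := b) (Or.inl hw.ne')
  have h2 := hf.comp T (hasDerivAt_w T)
  refine (h1.fun_mul h2).congr_deriv ?_
  rw [rpow_sub_one hw.ne']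
  simp only [Function.comp]
  field_simp
  ring

variable {a L : ℝ}

/-- the primitive of `E` -/
noncomputable def JE (s : ZSol a L) (T : ℝ) : ℝ := ∫ x in T..1, s.E (1 - x ^ 2)

lemma cont_E (s : ZSol a L) : ContinuousOn (fun x : ℝ => s.E (1 - x ^ 2)) (Icc 0 1) :=
  s.cE.c0.comp (Continuous.continuousOn (by fun_prop)) fun _ hx => w_memI hx

lemma intble_E (s : ZSol a L) {T : ℝ} (hT : T ∈ Icc (0 : ℝ) 1) :
    IntervalIntegrable (fun x : ℝ => s.E (1 - x ^ 2)) volume T 1 := by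
  refine ContinuousOn.intervalIntegrable ?_
  rw [uIcc_of_le hT.2]
  exact (cont_E s).mono (Icc_subset_Icc_left hT.1)

lemma hasDerivAt_JE (s : ZSol a L) {T : ℝ} (hT : T ∈ Ioo (0 : ℝ) 1) :
    HasDerivAt (JE s) (-s.E (1 - T ^ 2)) T := by
  have hc : ContinuousOn (fun x : ℝ => s.E (1 - x ^ 2)) (Ioo 0 1) := (cont_E s).mono Ioo_subset_Icc_self
  exact intervalIntegral.integral_hasDerivAt_left (intble_E s ⟨hT.1.le, hT.2.le⟩)
    (hc.stronglyMeasurableAtFilter isOpen_Ioo T hT) (hc.continuousAt (Ioo_mem_nhds hT.1 hT.2))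

/-- the flow in the variable T -/
noncomputable def uZ (s : ZSol a L) : H925.St where
  e := fun T => T * ((1 - T ^ 2) ^ a * s.E (1 - T ^ 2))
  y := fun T => (1 - T ^ 2) ^ (a - 1) * s.y (1 - T ^ 2)
  B := fun T => (1 - T ^ 2) ^ a * (-s.y (1 - T ^ 2) + 4 * (1 - (1 - T ^ 2)) * s.yt1 (1 - T ^ 2))
  r := fun T => (1 - T ^ 2) ^ (a - 1) * JE s T
  ρ := fun T => (1 - T ^ 2) ^ (a - 1) * s.P (1 - T ^ 2)
  ε := fun T => (1 - T ^ 2) ^ a * (s.P (1 - T ^ 2) + 2 * (1 - (1 - T ^ 2)) * s.P1 (1 - T ^ 2))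
  E := fun T => -(2 * T * ((1 - T ^ 2) ^ a * (a * (s.P (1 - T ^ 2)
    + 2 * (1 - (1 - T ^ 2)) * s.P1 (1 - T ^ 2)) / (1 - T ^ 2) + s.Q (1 - T ^ 2) / 2)))
  h := fun T => T * ((1 - T ^ 2) ^ a * (s.E (1 - T ^ 2) - s.G (1 - T ^ 2)))
  Z := fun T => (1 - T ^ 2) ^ a * (s.y (1 - T ^ 2) - 2 * T ^ 2 * s.y1 (1 - T ^ 2))
  f := fun T => T * ((1 - T ^ 2) ^ (a - 1) * s.F (1 - T ^ 2))
  f' := fun T => (1 - T ^ 2) ^ (a - 1) * s.F (1 - T ^ 2)
    - 2 * T ^ 2 * ((1 - T ^ 2) ^ (a - 1) * ((a - 1) * s.F (1 - T ^ 2) / (1 - T ^ 2)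
      + s.F1 (1 - T ^ 2)))

lemma y1_eq (s : ZSol a L) {z : ℝ} (hz : z ∈ Ioo (0 : ℝ) 1) : s.y1 z = s.yt1 z - L / 2 * s.F1 z := by
  have hz' : z ∈ Ioo (-1 : ℝ) 1 := ⟨by linarith [hz.1], hz.2⟩
  have h1 := (s.cyt.d1 z hz').fun_sub ((s.cF.d1 z hz').const_mul (L / 2))
  have h2 : HasDerivAt s.y (s.yt1 z - L / 2 * s.F1 z) z := by
    refine h1.congr_of_eventuallyEq ?_
    filter_upwards [Ioo_mem_nhds hz.1 hz.2] with x hx
    exact s.e0 x ⟨hx.1.le, hx.2.le⟩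
  exact (s.cy.d1 z hz').unique h2

/-- the flow solves the differential system -/
theorem sys_uZ (s : ZSol a L) (ha : 1 < a) {m : ℕ} {d : ℝ} (hm : (m : ℝ) = 2 * a)
    (hd : d ^ 2 = L) : Sys m d (uZ s) := by
  have hid : ∀ T : ℝ, HasDerivAt (fun T : ℝ => T) 1 T := fun T => hasDerivAt_id T
  have ha1 : (2 * a - 1) ≠ 0 := by linarith
  have ha0 : a ≠ 0 := by linarith
  have hn : (2 * a + 1) ≠ 0 := by linarith
  have hwa : ∀ {T : ℝ}, T ∈ Ioo (0 : ℝ) 1 →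
      (1 - T ^ 2) ^ a = (1 - T ^ 2) ^ (a - 1) * (1 - T ^ 2) := by
    intro T hT
    rw [← rpow_add_one (w_pos hT).ne']
    congr 1
    ring
  refine ⟨?_, ?_, ?_, ?_, ?_, ?_, ?_, ?_, ?_, ?_, ?_⟩
  · -- e
    intro T hT
    have hT0 := hT.1.ne'
    have hw := (w_pos hT).ne'
    have eB := s.eB _ ⟨(w_mem hT).1.le, (w_mem hT).2.le⟩
    refine ((hid T).fun_mul (hasDerivAt_wf a hT (s.cE.d1 _ (w_mem' hT)))).congr_deriv ?_
    simp only [uZ, eD, hm]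
    rw [hwa hT]
    generalize (1 - T ^ 2) ^ (a - 1) = K
    generalize s.E (1 - T ^ 2) = E0 at eB ⊢
    generalize s.E1 (1 - T ^ 2) = E1 at eB ⊢
    generalize s.y (1 - T ^ 2) = y0 at eB ⊢
    generalize s.y1 (1 - T ^ 2) = y1 at eB ⊢
    field_simp
    linear_combination (2 * K) * eB
  · -- y
    intro T hT
    have hT0 := hT.1.ne'
    have hw := (w_pos hT).ne'
    refine (hasDerivAt_wf (a - 1) hT (s.cy.d1 _ (w_mem' hT))).congr_deriv ?_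
    simp only [uZ, yD, hm]
    rw [hwa hT]
    generalize (1 - T ^ 2) ^ (a - 1) = K
    field_simp
    ring
  · -- B
    intro T hT
    have hT0 := hT.1.ne'
    have hw := (w_pos hT).ne'
    have eA := s.eA _ ⟨(w_mem hT).1.le, (w_mem hT).2.le⟩
    have hf : HasDerivAt (fun z => -s.y z + 4 * (1 - z) * s.yt1 z)
        (-s.y1 (1 - T ^ 2) + (4 * (-1) * s.yt1 (1 - T ^ 2)
          + 4 * (1 - (1 - T ^ 2)) * s.yt2 (1 - T ^ 2))) (1 - T ^ 2) :=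
      (s.cy.d1 _ (w_mem' hT)).neg.add ((((hid _).const_sub 1).const_mul 4).fun_mul
        (s.cyt.d2 _ (w_mem' hT)))
    refine (hasDerivAt_wf a hT hf).congr_deriv ?_
    simp only [uZ, BD, hm]
    generalize (1 - T ^ 2) ^ a = K
    generalize s.yt1 (1 - T ^ 2) = t1 at eA ⊢
    generalize s.yt2 (1 - T ^ 2) = t2 at eA ⊢
    generalize s.y (1 - T ^ 2) = y0 at eA ⊢
    generalize s.y1 (1 - T ^ 2) = y1 at eA ⊢
    field_simp
    linear_combination (-2 * T ^ 2 * K) * eA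
  · -- r
    intro T hT
    have hT0 := hT.1.ne'
    have hw := (w_pos hT).ne'
    have h1 := (hasDerivAt_w T).rpow_const (p := a - 1) (Or.inl hw)
    refine (h1.fun_mul (hasDerivAt_JE s hT)).congr_deriv ?_
    simp only [uZ, rD, hm]
    rw [rpow_sub_one hw, hwa hT]
    generalize (1 - T ^ 2) ^ (a - 1) = K
    field_simp
    ring
  · -- ρ
    intro T hT
    have hT0 := hT.1.ne'
    have hw := (w_pos hT).ne'
    refine (hasDerivAt_wf (a - 1) hT (s.cP.d1 _ (w_mem' hT))).congr_deriv ?_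
    simp only [uZ, pD, hm]
    rw [hwa hT]
    generalize (1 - T ^ 2) ^ (a - 1) = K
    field_simp
    ring
  · -- ε
    intro T hT
    have hT0 := hT.1.ne'
    have hw := (w_pos hT).ne'
    have eQ := s.eQ _ ⟨(w_mem hT).1.le, (w_mem hT).2.le⟩
    have hf : HasDerivAt (fun z => s.P z + 2 * (1 - z) * s.P1 z)
        (s.P1 (1 - T ^ 2) + (2 * (-1) * s.P1 (1 - T ^ 2)
          + 2 * (1 - (1 - T ^ 2)) * s.P2 (1 - T ^ 2))) (1 - T ^ 2) :=
      (s.cP.d1 _ (w_mem' hT)).add ((((hid _).const_sub 1).const_mul 2).fun_mul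
        (s.cP.d2 _ (w_mem' hT)))
    refine (hasDerivAt_wf a hT hf).congr_deriv ?_
    simp only [uZ]
    rw [eQ]
    ring
  · -- h
    intro T hT
    have hT0 := hT.1.ne'
    have hw := (w_pos hT).ne'
    have eB := s.eB _ ⟨(w_mem hT).1.le, (w_mem hT).2.le⟩
    have eC := s.eC _ ⟨(w_mem hT).1.le, (w_mem hT).2.le⟩
    refine ((hid T).fun_mul (hasDerivAt_wf a hT ((s.cE.d1 _ (w_mem' hT)).fun_sub
      (s.cG.d1 _ (w_mem' hT))))).congr_deriv ?_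
    simp only [uZ, hD, hm, hd]
    generalize (1 - T ^ 2) ^ a = K
    generalize s.E (1 - T ^ 2) = E0 at eB ⊢
    generalize s.E1 (1 - T ^ 2) = E1 at eB ⊢
    generalize s.y (1 - T ^ 2) = y0 at eB ⊢
    generalize s.y1 (1 - T ^ 2) = y1 at eB ⊢
    generalize s.G (1 - T ^ 2) = G0 at eC ⊢
    generalize s.G1 (1 - T ^ 2) = G1 at eC ⊢
    generalize s.Q (1 - T ^ 2) = Q0 at eC ⊢
    generalize s.P (1 - T ^ 2) = P0
    generalize s.P1 (1 - T ^ 2) = P1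
    field_simp at eC ⊢
    linear_combination (8 * (2 * a + 1) * K) * eB - (2 * K) * eC
  · -- f
    intro T hT
    refine ((hid T).fun_mul (hasDerivAt_wf (a - 1) hT (s.cF.d1 _ (w_mem' hT)))).congr_deriv ?_
    simp only [uZ]
    ring
  · -- a1
    intro T hT
    have hT0 := hT.1.ne'
    have hw := (w_pos hT).ne'
    have eD := s.eD _ ⟨(w_mem hT).1.le, (w_mem hT).2.le⟩
    simp only [uZ, hm, hd]
    rw [hwa hT]
    generalize (1 - T ^ 2) ^ (a - 1) = K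
    generalize s.E (1 - T ^ 2) = E0 at eD ⊢
    generalize s.G (1 - T ^ 2) = G0 at eD ⊢
    generalize s.Q (1 - T ^ 2) = Q0 at eD ⊢
    generalize s.P (1 - T ^ 2) = P0 at eD ⊢
    generalize s.P1 (1 - T ^ 2) = P1 at eD ⊢
    field_simp
    linear_combination (-4 * T ^ 2 * K) * eD
  · -- a2
    intro T hT
    have hT0 := hT.1.ne'
    have hw := (w_pos hT).ne'
    have eD := s.eD _ ⟨(w_mem hT).1.le, (w_mem hT).2.le⟩
    have eF := s.eF _ ⟨(w_mem hT).1.le, (w_mem hT).2.le⟩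
    simp only [uZ, hm]
    rw [hwa hT, eF]
    generalize (1 - T ^ 2) ^ (a - 1) = K
    generalize s.E (1 - T ^ 2) = E0 at eD ⊢
    generalize s.G (1 - T ^ 2) = G0 at eD ⊢
    generalize s.Q (1 - T ^ 2) = Q0 at eD ⊢
    generalize s.P (1 - T ^ 2) = P0 at eD ⊢
    generalize s.P1 (1 - T ^ 2) = P1 at eD ⊢
    field_simp
    linear_combination (-8 * T ^ 2 * K) * eD
  · -- a3
    intro T hT
    have hT0 := hT.1.ne'
    have hw := (w_pos hT).ne'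
    have e1 := y1_eq s (w_mem hT)
    simp only [uZ, hm, hd]
    rw [hwa hT, e1]
    generalize (1 - T ^ 2) ^ (a - 1) = K
    field_simp
    ring

end Vale.Agent.P224.R2.H494.ZT
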